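import Mathlib

/-!
# Random walk in iid random environment on `ℤ^d`: definitions
-/

open MeasureTheory Filter

namespace Vale.Agent.Lib.P147

/-- The lattice `ℤ^d`. -/
abbrev Site (d : ℕ) : Type := Fin d → ℤ

/-- The coordinate unit steps `±e_i`: a step is an axis `i` with a sign (`true` means `+e_i`). -/
abbrev Step (d : ℕ) : Type := Fin d × Bool

/-- The lattice vector of a unit step. -/
def stepVec {d : ℕ} (e : Step d) : Site d := Pi.single e.1 (if e.2 then 1 else -1)

/-- The simplex `Δ_U` of transition vectors on the unit steps. -/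
abbrev Row (d : ℕ) : Type := ↥(stdSimplex ℝ (Step d))

/-- An environment assigns a transition vector to each site. -/
abbrev Env (d : ℕ) : Type := Site d → Row d

/-- The iid environment law `μ^{⊗ℤ^d}`. -/
noncomputable def iidLaw {d : ℕ} (μ : Measure (Row d)) [IsProbabilityMeasure μ] :
    Measure (Env d) :=
  Measure.infinitePi (fun _ : Site d => μ)

/-- The quenched one-step probability from `x` to `y` in the environment `ω`: it is `ω(x, e)` if
`y = x + e` for a unit step `e`, and `0` if `y - x` is not a unit step. -/
noncomputable def quenchedStep {d : ℕ} (ω : Env d) (x y : Site d) : ℝ :=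
  ∑ e : Step d, if x + stepVec e = y then (ω x).1 e else 0

/-- `Q` is the annealed law `P_0 = ∫ P_{0,ω} ℙ(dω)` of the path `(X_n)` on path space: a
probability measure such that, for every `n` and every path `x` with `x 0 = 0`, the probability
of `X_i = x i` for all `i ≤ n` is the `ℙ`-average of the product of the quenched one-step
probabilities along `x`. -/
def IsAnnealedLaw {d : ℕ} (μ : Measure (Row d)) [IsProbabilityMeasure μ]
    (Q : Measure (ℕ → Site d)) : Prop :=
  IsProbabilityMeasure Q ∧ ∀ (n : ℕ) (x : ℕ → Site d), x 0 = 0 →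
    Q {X | ∀ i ≤ n, X i = x i} =
      ∫⁻ ω, ∏ i ∈ Finset.range n, ENNReal.ofReal (quenchedStep ω (x i) (x (i + 1))) ∂(iidLaw μ)

/-- The event `A_ℓ = {X_n · ℓ → +∞}` of escape in direction `ℓ`. -/
def escapeEvent {d : ℕ} (ℓ : Fin d → ℝ) : Set (ℕ → Site d) :=
  {X | Tendsto (fun n => ∑ i, ℓ i * (X n i : ℝ)) atTop atTop}

/-- The mass that the transition vector `p` gives to the class of the unit step `e` modulo `±δ`,
that is, to the unit steps `e'` with `e - e' ∈ {0, δ, -δ}`. -/
noncomputable def classMass {d : ℕ} (δ : Site d) (e : Step d) (p : Row d) : ℝ :=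
  ∑ e' ∈ Finset.univ.filter (fun e' : Step d =>
      stepVec e - stepVec e' = 0 ∨ stepVec e - stepVec e' = δ ∨ stepVec e - stepVec e' = -δ),
    p.1 e'

end Vale.Agent.Lib.P147
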