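import Vale.Agent.Lib.P147.Core
import Vale.Agent.Lib.P147.Defs

/-!
# From the abstract zero-one law to the annealed law of the walk
-/

open MeasureTheory ProbabilityTheory Filter Set
open scoped symmDiff ENNReal

namespace Vale.Agent.Lib.P147

variable {d : ℕ}

lemma stepVec_apply (e : Step d) (i : Fin d) :
    stepVec e i = if i = e.1 then (if e.2 then 1 else -1) else 0 := by
  unfold stepVec
  rw [Pi.single_apply]

lemma stepVec_self (e : Step d) : stepVec e e.1 = if e.2 then 1 else -1 := by
  rw [stepVec_apply, if_pos rfl]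

lemma stepVec_eq_of_apply_eq {e e' : Step d} (h : stepVec e' e.1 = stepVec e e.1) : e' = e := by
  rw [stepVec_self, stepVec_apply] at h
  obtain ⟨i, s⟩ := e
  obtain ⟨i', s'⟩ := e'
  simp only at h
  by_cases hi : i = i'
  · subst hi
    cases s <;> cases s' <;> simp_all
  · rw [if_neg hi] at h
    cases s <;> simp at h

lemma stepVec_injective : Function.Injective (stepVec (d := d)) := fun e e' h =>
  (stepVec_eq_of_apply_eq (e := e') (e' := e) (by rw [h])).symm ▸ rfl

lemma stepVec_abs_le (e : Step d) (i : Fin d) : -1 ≤ stepVec e i ∧ stepVec e i ≤ 1 := by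
  rw [stepVec_apply]
  split_ifs <;> omega

/-- The relation: the two unit steps differ by `0` or `±δ`. -/
def Rel (δ : Site d) (e e' : Step d) : Prop :=
  stepVec e - stepVec e' = 0 ∨ stepVec e - stepVec e' = δ ∨ stepVec e - stepVec e' = -δ

lemma Rel.symm {δ : Site d} {e e' : Step d} (h : Rel δ e e') : Rel δ e' e := by
  unfold Rel at *
  rcases h with h | h | h
  · left; rw [← neg_sub, h, neg_zero]
  · right; right; rw [← neg_sub, h]
  · right; left; rw [← neg_sub, h, neg_neg]

lemma Rel.refl (δ : Site d) (e : Step d) : Rel δ e e := Or.inl (sub_self _)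

lemma Rel.unique {δ : Site d} {e e' e'' : Step d} (h' : Rel δ e e') (h'' : Rel δ e e'')
    (hne' : e' ≠ e) (hne'' : e'' ≠ e) : e' = e'' := by
  have hz' : stepVec e - stepVec e' ≠ 0 := fun h =>
    hne' (stepVec_injective (sub_eq_zero.mp h)).symm
  have hz'' : stepVec e - stepVec e'' ≠ 0 := fun h =>
    hne'' (stepVec_injective (sub_eq_zero.mp h)).symm
  have hopp : ∀ {a b : Step d} (_ : stepVec e - stepVec a = δ) (_ : stepVec e - stepVec b = -δ),
      a = e := by
    intro a b ha hb
    have hsum : stepVec a e.1 + stepVec b e.1 = 2 * stepVec e e.1 := by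
      have h1 := congrFun ha e.1
      have h2 := congrFun hb e.1
      simp only [Pi.sub_apply, Pi.neg_apply] at h1 h2
      linarith
    refine stepVec_eq_of_apply_eq ?_
    have h3 := stepVec_abs_le a e.1
    have h4 := stepVec_abs_le b e.1
    have h5 : stepVec e e.1 = 1 ∨ stepVec e e.1 = -1 := by
      rw [stepVec_self]
      cases e.2 <;> simp
    rcases h5 with h5 | h5 <;> omega
  rcases h' with h' | h' | h'
  · exact absurd h' hz'
  · rcases h'' with h'' | h'' | h''
    · exact absurd h'' hz''
    · exact stepVec_injective (sub_right_injective (h'.trans h''.symm))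
    · exact absurd (hopp h' h'') hne'
  · rcases h'' with h'' | h'' | h''
    · exact absurd h'' hz''
    · exact absurd (hopp h'' h') hne''
    · exact stepVec_injective (sub_right_injective (h'.trans h''.symm))

open Classical in
/-- The partner of a step: the other step in its class, or the step itself if there is none. -/
noncomputable def par (δ : Site d) (e : Step d) : Step d :=
  if h : ∃ e', e' ≠ e ∧ Rel δ e e' then h.choose else e

lemma par_rel (δ : Site d) (e : Step d) : Rel δ e (par δ e) := by
  unfold par
  split_ifs with h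
  · exact h.choose_spec.2
  · exact Rel.refl δ e

lemma eq_or_eq_par {δ : Site d} {e e' : Step d} (h : Rel δ e e') : e' = e ∨ e' = par δ e := by
  by_cases hne : e' = e
  · exact Or.inl hne
  right
  have hex : ∃ e', e' ≠ e ∧ Rel δ e e' := ⟨e', hne, h⟩
  have hpar : par δ e = hex.choose := by unfold par; rw [dif_pos hex]
  rw [hpar]
  exact Rel.unique h hex.choose_spec.2 hne hex.choose_spec.1

lemma par_par {δ : Site d} {e : Step d} (h : par δ e ≠ e) : par δ (par δ e) = e := by
  rcases eq_or_eq_par (par_rel δ e).symm with h1 | h1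
  · exact absurd h1.symm h
  · exact h1.symm

lemma classMass_eq (δ : Site d) (e : Step d) (p : Row d) :
    classMass δ e p = if par δ e = e then p.1 e else p.1 e + p.1 (par δ e) := by
  classical
  unfold classMass
  have hfilter : Finset.univ.filter (fun e' : Step d =>
      stepVec e - stepVec e' = 0 ∨ stepVec e - stepVec e' = δ ∨ stepVec e - stepVec e' = -δ) =
      {e, par δ e} := by
    ext e'
    simp only [Finset.mem_filter, Finset.mem_univ, true_and, Finset.mem_insert,
      Finset.mem_singleton]
    constructor
    · exact fun h => eq_or_eq_par h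
    · rintro (rfl | rfl)
      · exact Rel.refl δ _
      · exact par_rel δ e
  rw [hfilter]
  by_cases h : par δ e = e
  · rw [if_pos h, h]
    simp
  · rw [if_neg h, Finset.sum_pair (Ne.symm h)]

lemma row_nonneg (p : Row d) (e : Step d) : 0 ≤ p.1 e := p.2.1 e

lemma row_sum (p : Row d) : ∑ e, p.1 e = 1 := p.2.2

lemma row_le_one (p : Row d) (e : Step d) : p.1 e ≤ 1 := by
  have := Finset.single_le_sum (fun e _ => row_nonneg p e) (Finset.mem_univ e)
  rwa [row_sum] at this

lemma measurable_row_apply (e : Step d) : Measurable (fun p : Row d => p.1 e) :=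
  (measurable_pi_apply e).comp measurable_subtype_coe

lemma integrable_row_apply (μ : Measure (Row d)) [IsProbabilityMeasure μ] (e : Step d) :
    Integrable (fun p : Row d => p.1 e) μ := by
  refine Integrable.mono' (integrable_const (1 : ℝ)) (measurable_row_apply e).aestronglyMeasurable ?_
  refine Eventually.of_forall fun p => ?_
  rw [Real.norm_eq_abs, abs_of_nonneg (row_nonneg p e)]
  exact row_le_one p e

section Noise

set_option linter.unusedSectionVars false

/-- The uniform law on the unit interval. -/
noncomputable def unif : Measure ℝ := volume.restrict (Set.Icc (0 : ℝ) 1)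

instance : IsProbabilityMeasure unif := ⟨by simp [unif]⟩

lemma measurableSet_mul_lt (a κ : ℝ) : MeasurableSet {u : ℝ | u * κ < a} :=
  measurableSet_lt (measurable_id.mul_const κ) measurable_const

lemma unif_lt {a κ : ℝ} (ha : 0 ≤ a) (hκ : 0 < κ) (hab : a ≤ κ) :
    unif {u | u * κ < a} = ENNReal.ofReal (a / κ) := by
  rw [unif, Measure.restrict_apply (measurableSet_mul_lt a κ)]
  have hr : a / κ ≤ 1 := (div_le_one hκ).mpr hab
  have : {u : ℝ | u * κ < a} ∩ Set.Icc 0 1 = Set.Ico 0 (a / κ) := by
    ext u
    simp only [Set.mem_inter_iff, Set.mem_ofPred_eq, Set.mem_Icc, Set.mem_Ico]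
    rw [lt_div_iff₀ hκ]
    constructor
    · rintro ⟨h1, h2, h3⟩; exact ⟨h2, h1⟩
    · rintro ⟨h1, h2⟩
      refine ⟨h2, h1, ?_⟩
      have : u < a / κ := (lt_div_iff₀ hκ).mpr h2
      linarith
  rw [this, Real.volume_Ico, sub_zero]

lemma unif_not_lt {a b κ : ℝ} (hb : 0 ≤ b) (hκ : 0 < κ) (hab : a + b = κ) (ha : 0 ≤ a) :
    unif {u | ¬ u * κ < b} = ENNReal.ofReal (a / κ) := by
  have h1 : {u : ℝ | ¬ u * κ < b} = {u : ℝ | u * κ < b}ᶜ := rfl
  rw [h1, prob_compl_eq_one_sub (measurableSet_mul_lt b κ), unif_lt hb hκ (by linarith)]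
  rw [← ENNReal.ofReal_one, ← ENNReal.ofReal_sub _ (div_nonneg hb hκ.le)]
  congr 1
  field_simp
  linarith

variable (δ : Site d) (c : Step d → ℝ)

/-- The increment of the walker at a site with transition vector `p`, given the noise `ξ`: the
noise selects a step `t` with probability its mean mass and an independent uniform variable, then
the walker moves by `t` or by the partner of `t`. -/
noncomputable def incr (p : Row d) (ξ : Step d × ℝ) : Site d :=
  if ξ.2 * c ξ.1 < p.1 ξ.1 then stepVec ξ.1 else stepVec (par δ ξ.1)

lemma measurable_incr : Measurable (Function.uncurry (incr δ c)) := by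
  have hset : MeasurableSet {s : Row d × (Step d × ℝ) | s.2.2 * c s.2.1 < s.1.1 s.2.1} := by
    have : {s : Row d × (Step d × ℝ) | s.2.2 * c s.2.1 < s.1.1 s.2.1} =
        ⋃ e : Step d, ({s | s.2.1 = e} ∩ {s | s.2.2 * c e < s.1.1 e}) := by
      ext s
      simp only [Set.mem_ofPred_eq, Set.mem_iUnion, Set.mem_inter_iff, exists_eq_left']
    rw [this]
    refine MeasurableSet.iUnion fun e => MeasurableSet.inter ?_ ?_
    · exact (measurable_fst.comp measurable_snd) (measurableSet_singleton e)
    · refine measurableSet_lt ?_ ?_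
      · exact (measurable_snd.comp measurable_snd).mul_const _
      · exact (measurable_row_apply e).comp measurable_fst
  refine Measurable.ite hset ?_ ?_
  · exact (measurable_of_countable (stepVec (d := d))).comp (measurable_fst.comp measurable_snd)
  · exact (measurable_of_countable (fun t : Step d => stepVec (par δ t))).comp
      (measurable_fst.comp measurable_snd)

lemma incr_sub (a a' : Row d) (ξ : Step d × ℝ) :
    incr δ c a ξ - incr δ c a' ξ = 0 ∨ incr δ c a ξ - incr δ c a' ξ = δ ∨
      incr δ c a ξ - incr δ c a' ξ = -δ := by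
  unfold incr
  have hR := par_rel δ ξ.1
  have hR' := hR.symm
  unfold Rel at hR hR'
  split_ifs
  · exact Or.inl (sub_self _)
  · exact hR
  · exact hR'
  · exact Or.inl (sub_self _)

variable (μ : Measure (Row d)) [IsProbabilityMeasure μ]

/-- The mean row. -/
noncomputable def meanRow (e : Step d) : ℝ := ∫ p, p.1 e ∂μ

lemma meanRow_nonneg (e : Step d) : 0 ≤ meanRow μ e := integral_nonneg fun p => row_nonneg p e

lemma meanRow_sum : ∑ e, meanRow μ e = 1 := by
  unfold meanRow
  rw [← integral_finsetSum _ fun e _ => integrable_row_apply μ e]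
  simp [row_sum]

/-- The law of the selected step. -/
noncomputable def stepLaw : PMF (Step d) :=
  PMF.ofFintype (fun e => ENNReal.ofReal (meanRow μ e)) (by
    rw [← ENNReal.ofReal_sum_of_nonneg fun e _ => meanRow_nonneg μ e, meanRow_sum]
    simp)

/-- The law of the noise. -/
noncomputable def noiseLaw : Measure (Step d × ℝ) := (stepLaw μ).toMeasure.prod unif

instance : IsProbabilityMeasure (noiseLaw μ) := by
  unfold noiseLaw; infer_instance

lemma stepLaw_singleton (e : Step d) :
    (stepLaw μ).toMeasure {e} = ENNReal.ofReal (meanRow μ e) := by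
  rw [PMF.toMeasure_apply_singleton _ _ (measurableSet_singleton e)]
  rfl

variable {δ c μ}

lemma meanRow_class (hc : ∀ e, ∀ᵐ p ∂μ, classMass δ e p = c e) (f : Step d) :
    (par δ f = f → meanRow μ f = c f) ∧
      (par δ f ≠ f → meanRow μ f + meanRow μ (par δ f) = c f) := by
  have hint : ∫ p, classMass δ f p ∂μ = c f := by
    rw [integral_congr_ae (hc f)]
    simp
  constructor
  · intro h
    rw [← hint]
    refine integral_congr_ae (Eventually.of_forall fun p => ?_)
    simp only
    rw [classMass_eq, if_pos h]
  · intro h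
    rw [← hint]
    unfold meanRow
    rw [← integral_add (integrable_row_apply μ f) (integrable_row_apply μ _)]
    refine integral_congr_ae (Eventually.of_forall fun p => ?_)
    simp only
    rw [classMass_eq, if_neg h]

/-- A step law computation: the increment has the right law at every good row. -/
lemma noise_incr_stepVec (hc : ∀ e, ∀ᵐ p ∂μ, classMass δ e p = c e) {p : Row d}
    (hp : ∀ e, classMass δ e p = c e) (f : Step d) :
    noiseLaw μ {ξ | incr δ c p ξ = stepVec f} = ENNReal.ofReal (p.1 f) := by
  classical
  have hm : MeasurableSet {ξ : Step d × ℝ | incr δ c p ξ = stepVec f} := by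
    have h1 : Measurable (fun ξ : Step d × ℝ => incr δ c p ξ) :=
      (measurable_incr δ c).comp (measurable_const.prodMk measurable_id)
    exact h1 (measurableSet_singleton _)
  unfold noiseLaw
  rw [Measure.prod_apply hm, lintegral_fintype]
  simp_rw [stepLaw_singleton]
  -- the sections
  have hsec0 : ∀ t, t ≠ f → t ≠ par δ f → Prod.mk t ⁻¹' {ξ | incr δ c p ξ = stepVec f} = ∅ := by
    intro t h1 h2
    ext u
    simp only [Set.mem_preimage, Set.mem_ofPred_eq, Set.mem_empty_iff_false, iff_false]
    unfold incr
    simp only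
    split_ifs
    · exact fun h => h1 (stepVec_injective h)
    · intro h
      have h3 : par δ t = f := stepVec_injective h
      have h4 : Rel δ f t := by
        have := par_rel δ t
        rw [h3] at this
        exact this.symm
      rcases eq_or_eq_par h4 with h5 | h5
      · exact h1 h5
      · exact h2 h5
  by_cases hg : par δ f = f
  · -- no partner
    have hpf : p.1 f = c f := by
      have := hp f
      rw [classMass_eq, if_pos hg] at this
      exact this
    have hmean := (meanRow_class hc f).1 hg
    rw [Finset.sum_eq_single f]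
    · have : Prod.mk f ⁻¹' {ξ | incr δ c p ξ = stepVec f} = Set.univ := by
        ext u
        simp only [Set.mem_preimage, Set.mem_ofPred_eq, Set.mem_univ, iff_true]
        unfold incr
        simp only
        split_ifs
        · rfl
        · rw [hg]
      rw [this, measure_univ, one_mul, hmean, hpf]
    · intro t _ ht
      rw [hsec0 t ht (by rw [hg]; exact ht)]
      simp
    · simp
  · -- partner `g`
    set g := par δ f with hgdef
    have hgg : par δ g = f := par_par hg
    have hne : f ≠ g := Ne.symm hg
    have hκ : p.1 f + p.1 g = c f := by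
      have := hp f
      rw [classMass_eq, if_neg hg] at this
      exact this
    have hκ' : p.1 g + p.1 f = c g := by
      have := hp g
      rw [classMass_eq, hgg, if_neg (Ne.symm hg)] at this
      exact this
    have hcc : c g = c f := by rw [← hκ, ← hκ']; ring
    have hmean : meanRow μ f + meanRow μ g = c f := (meanRow_class hc f).2 hg
    have hsf : Prod.mk f ⁻¹' {ξ | incr δ c p ξ = stepVec f} = {u | u * c f < p.1 f} := by
      ext u
      simp only [Set.mem_preimage, Set.mem_ofPred_eq]
      unfold incr
      simp only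
      split_ifs with h
      · simp [h]
      · simp only [h, iff_false]
        exact fun h' => hg (stepVec_injective h')
    have hsg : Prod.mk g ⁻¹' {ξ | incr δ c p ξ = stepVec f} = {u | ¬ u * c f < p.1 g} := by
      ext u
      simp only [Set.mem_preimage, Set.mem_ofPred_eq]
      unfold incr
      simp only [hcc, hgg]
      split_ifs with h
      · simp only [h, not_true_eq_false, iff_false]
        exact fun h' => hne (stepVec_injective h').symm
      · simp [h]
    rw [Finset.sum_eq_add f g hne]
    · rw [hsf, hsg]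
      have hf0 := row_nonneg p f
      have hg0 := row_nonneg p g
      have hmf := meanRow_nonneg μ f
      have hmg := meanRow_nonneg μ g
      rcases (show 0 ≤ c f by rw [← hκ]; positivity).eq_or_lt with hz | hz
      · have h1 : p.1 f = 0 := by linarith
        have h2 : meanRow μ f = 0 := by linarith
        have h3 : meanRow μ g = 0 := by linarith
        rw [h1, h2, h3]
        simp
      · rw [unif_lt hf0 hz (by linarith), unif_not_lt hg0 hz hκ hf0]
        rw [← ENNReal.ofReal_mul (div_nonneg hf0 hz.le), ← ENNReal.ofReal_mul (div_nonneg hf0 hz.le),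
          ← ENNReal.ofReal_add (mul_nonneg (div_nonneg hf0 hz.le) hmf)
            (mul_nonneg (div_nonneg hf0 hz.le) hmg)]
        congr 1
        rw [← mul_add, hmean]
        field_simp
    · intro t _ ht
      rw [hsec0 t ht.1 ht.2]
      simp
    · simp
    · simp

/-- The increment has the right law at every good row, for an arbitrary displacement. -/
lemma noise_incr_eq (hc : ∀ e, ∀ᵐ p ∂μ, classMass δ e p = c e) {ω : Env d} {x : Site d}
    (hp : ∀ e, classMass δ e (ω x) = c e) (y : Site d) :
    noiseLaw μ {ξ | incr δ c (ω x) ξ = y - x} = ENNReal.ofReal (quenchedStep ω x y) := by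
  classical
  unfold quenchedStep
  by_cases hf : ∃ f : Step d, stepVec f = y - x
  · obtain ⟨f, hf⟩ := hf
    rw [← hf, noise_incr_stepVec hc hp f]
    congr 1
    rw [Finset.sum_eq_single f]
    · rw [if_pos]
      rw [hf]; abel
    · intro e _ he
      rw [if_neg]
      intro h
      apply he
      apply stepVec_injective
      rw [hf, ← h]; abel
    · simp
  · have h0 : {ξ | incr δ c (ω x) ξ = y - x} = ∅ := by
      ext ξ
      simp only [Set.mem_ofPred_eq, Set.mem_empty_iff_false, iff_false]
      unfold incr
      split_ifs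
      · exact fun h => hf ⟨_, h⟩
      · exact fun h => hf ⟨_, h⟩
    have h1 : ∑ e : Step d, (if x + stepVec e = y then (ω x).1 e else 0) = 0 := by
      refine Finset.sum_eq_zero fun e _ => ?_
      rw [if_neg]
      intro h
      exact hf ⟨e, by rw [← h]; abel⟩
    rw [h0, h1]
    simp

end Noise

section Cylinder

variable {V A Ξ : Type*} [AddCommGroup V]

lemma walk_follow_iff (inc : A → Ξ → V) (q : V → A) (ξ : ℕ → Ξ) (x : ℕ → V) (hx : x 0 = 0)
    (n : ℕ) :
    (∀ i ≤ n, walk inc q ξ 0 i = x i) ↔ ∀ i < n, inc (q (x i)) (ξ i) = x (i + 1) - x i := by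
  constructor
  · intro h i hi
    have h1 := h i hi.le
    have h2 := h (i + 1) hi
    rw [walk_succ, h1] at h2
    rw [← h2]; abel
  · intro h i
    induction i with
    | zero => intro _; simp [hx]
    | succ i ih =>
      intro hi
      have h1 := ih (by omega)
      rw [walk_succ, h1, h i (by omega)]
      abel

end Cylinder

section Transfer

lemma measurableSet_coord (i : ℕ) (y : Site d) : MeasurableSet {X : ℕ → Site d | X i = y} := by
  have h : Measurable (fun X : ℕ → Site d => X i) := measurable_pi_apply i
  exact h (measurableSet_singleton y)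

variable {δ : Site d} {c : Step d → ℝ} {μ : Measure (Row d)} [IsProbabilityMeasure μ]

/-- The walker in the concrete representation. -/
noncomputable def pathMap (δ : Site d) (c : Step d → ℝ) :
    (ℕ → Step d × ℝ) × (Site d → Row d) → (ℕ → Site d) :=
  fun s n => walk (incr δ c) s.2 s.1 0 n

lemma measurable_pathMap (δ : Site d) (c : Step d → ℝ) : Measurable (pathMap δ c) :=
  measurable_pi_lambda _ fun n => measurable_walk (measurable_incr δ c) 0 n

/-- Cylinder probabilities of the concrete walker. -/
lemma jointLaw_cylinder (hc : ∀ e, ∀ᵐ p ∂μ, classMass δ e p = c e) (n : ℕ) (x : ℕ → Site d)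
    (hx : x 0 = 0) :
    (jointLaw μ (noiseLaw μ)).map (pathMap δ c) {X | ∀ i ≤ n, X i = x i} =
      ∫⁻ ω, ∏ i ∈ Finset.range n, ENNReal.ofReal (quenchedStep ω (x i) (x (i + 1))) ∂(iidLaw μ) := by
  have hcyl : MeasurableSet {X : ℕ → Site d | ∀ i ≤ n, X i = x i} := by
    have : {X : ℕ → Site d | ∀ i ≤ n, X i = x i} = ⋂ i ∈ Finset.range (n + 1), {X | X i = x i} := by
      ext X
      simp only [Set.mem_ofPred_eq, Set.mem_iInter, Finset.mem_range]
      exact ⟨fun h i hi => h i (by omega), fun h i hi => h i (by omega)⟩
    rw [this]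
    exact Finset.measurableSet_biInter _ fun i _ => measurableSet_coord i (x i)
  rw [Measure.map_apply (measurable_pathMap δ c) hcyl, jointLaw,
    Measure.prod_apply_symm ((measurable_pathMap δ c) hcyl)]
  have hgood : ∀ᵐ q ∂(iidLaw μ), ∀ z : Site d, ∀ e, classMass δ e (q z) = c e := by
    refine ae_all_iff.mpr fun z => ae_all_iff.mpr fun e => ?_
    have hmp : MeasurePreserving (fun q : Site d → Row d => q z) (iidLaw μ) μ := by
      unfold iidLaw
      exact measurePreserving_eval_infinitePi (fun _ : Site d => μ) z
    exact hmp.quasiMeasurePreserving.ae (hc e)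
  refine lintegral_congr_ae ?_
  filter_upwards [hgood] with q hq
  have hset : (fun ξ : ℕ → Step d × ℝ => (ξ, q)) ⁻¹' (pathMap δ c ⁻¹' {X | ∀ i ≤ n, X i = x i}) =
      Set.pi (Finset.range n : Set ℕ) (fun i => {u | incr δ c (q (x i)) u = x (i + 1) - x i}) := by
    ext ξ
    simp only [Set.mem_preimage, Set.mem_ofPred_eq, Set.mem_pi, Finset.mem_coe, Finset.mem_range,
      pathMap]
    exact walk_follow_iff (incr δ c) q ξ x hx n
  rw [hset, Measure.infinitePi_pi]
  · refine Finset.prod_congr rfl fun i _ => ?_
    exact noise_incr_eq hc (hq _) _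
  · intro i _
    have h1 : Measurable (fun ξ : Step d × ℝ => incr δ c (q (x i)) ξ) :=
      (measurable_incr δ c).comp (measurable_const.prodMk measurable_id)
    exact h1 (measurableSet_singleton _)

/-- The concrete walker realizes the annealed law. -/
lemma isAnnealedLaw_map (hc : ∀ e, ∀ᵐ p ∂μ, classMass δ e p = c e) :
    IsAnnealedLaw μ ((jointLaw μ (noiseLaw μ)).map (pathMap δ c)) :=
  ⟨Measure.isProbabilityMeasure_map (measurable_pathMap δ c).aemeasurable,
    jointLaw_cylinder hc⟩

/-- Two annealed laws coincide. -/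
lemma IsAnnealedLaw.unique {Q Q' : Measure (ℕ → Site d)} (hQ : IsAnnealedLaw μ Q)
    (hQ' : IsAnnealedLaw μ Q') : Q = Q' := by
  obtain ⟨hp, hc⟩ := hQ
  obtain ⟨hp', hc'⟩ := hQ'
  let cyl : ℕ → (ℕ → Site d) → Set (ℕ → Site d) := fun n x => {X | ∀ i ≤ n, X i = x i}
  let C : Set (Set (ℕ → Site d)) := {S | ∃ n x, S = cyl n x}
  have hπ : IsPiSystem C := by
    rintro _ ⟨n, x, rfl⟩ _ ⟨m, y, rfl⟩ ⟨X0, hX0, hX0'⟩
    rcases le_total n m with h | h
    · refine ⟨m, y, ?_⟩
      ext X
      constructor
      · rintro ⟨_, h2⟩; exact h2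
      · intro h2
        refine ⟨fun i hi => ?_, h2⟩
        rw [h2 i (hi.trans h), ← hX0' i (hi.trans h), hX0 i hi]
    · refine ⟨n, x, ?_⟩
      ext X
      constructor
      · rintro ⟨h2, _⟩; exact h2
      · intro h2
        refine ⟨h2, fun i hi => ?_⟩
        rw [h2 i (hi.trans h), ← hX0 i (hi.trans h), hX0' i hi]
  have hgen : (MeasurableSpace.pi : MeasurableSpace (ℕ → Site d)) =
      MeasurableSpace.generateFrom C := by
    apply le_antisymm
    · refine iSup_le fun i => ?_
      rw [← measurable_iff_comap_le]
      refine @measurable_to_countable' _ _ _ _ (MeasurableSpace.generateFrom C) _ fun y => ?_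
      have : (fun X : ℕ → Site d => X i) ⁻¹' {y} =
          ⋃ (p : Fin (i + 1) → Site d) (_ : p (Fin.last i) = y),
            cyl i (fun k => if h : k < i + 1 then p ⟨k, h⟩ else 0) := by
        ext X
        simp only [Set.mem_preimage, Set.mem_singleton_iff, Set.mem_iUnion, exists_prop, cyl,
          Set.mem_ofPred_eq]
        constructor
        · intro h
          refine ⟨fun k => X k, ?_, fun k hk => ?_⟩
          · simpa using h
          · rw [dif_pos (by omega)]
        · rintro ⟨p, hp, h⟩
          have := h i le_rfl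
          rw [dif_pos (by omega)] at this
          rw [this, ← hp]
          rfl
      rw [this]
      refine MeasurableSet.iUnion fun p => MeasurableSet.iUnion fun _ => ?_
      exact MeasurableSpace.measurableSet_generateFrom ⟨i, _, rfl⟩
    · refine MeasurableSpace.generateFrom_le ?_
      rintro _ ⟨n, x, rfl⟩
      have : cyl n x = ⋂ i ∈ Finset.range (n + 1), {X | X i = x i} := by
        ext X
        simp only [cyl, Set.mem_ofPred_eq, Set.mem_iInter, Finset.mem_range]
        exact ⟨fun h i hi => h i (by omega), fun h i hi => h i (by omega)⟩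
      rw [this]
      exact Finset.measurableSet_biInter _ fun i _ => measurableSet_coord i (x i)
  -- the first coordinate
  have hnull : ∀ Q₀ : Measure (ℕ → Site d), IsProbabilityMeasure Q₀ →
      (∀ (n : ℕ) (x : ℕ → Site d), x 0 = 0 → Q₀ {X | ∀ i ≤ n, X i = x i} =
      ∫⁻ ω, ∏ i ∈ Finset.range n, ENNReal.ofReal (quenchedStep ω (x i) (x (i + 1))) ∂(iidLaw μ)) →
      Q₀ {X | X 0 ≠ 0} = 0 := by
    intro Q₀ h₀ h₁
    have h2 := h₁ 0 (fun _ => 0) rfl
    have hprob : IsProbabilityMeasure (iidLaw μ) := by unfold iidLaw; infer_instance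
    simp only [Finset.range_zero, Finset.prod_empty, lintegral_const, measure_univ, mul_one] at h2
    have h3 : {X : ℕ → Site d | ∀ i ≤ 0, X i = 0} = {X | X 0 = 0} := by
      ext X
      simp
    rw [h3] at h2
    have h4 : {X : ℕ → Site d | X 0 ≠ 0} = {X | X 0 = 0}ᶜ := rfl
    rw [h4, prob_compl_eq_one_sub (measurableSet_coord 0 0), h2]
    simp
  refine ext_of_generate_finite C hgen hπ ?_ (by simp)
  rintro _ ⟨n, x, rfl⟩
  by_cases hx : x 0 = 0
  · exact (hc n x hx).trans (hc' n x hx).symm
  · have hsub : cyl n x ⊆ {X | X 0 ≠ 0} := by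
      intro X hX
      have : X 0 = x 0 := hX 0 (Nat.zero_le n)
      simp only [Set.mem_ofPred_eq]
      rwa [this]
    rw [measure_mono_null hsub (hnull Q hp hc), measure_mono_null hsub (hnull Q' hp' hc')]

end Transfer

/-- The linear functional `x ↦ ℓ · x` as an additive map. -/
noncomputable def linFun (ℓ : Fin d → ℝ) : Site d →+ ℝ where
  toFun x := ∑ i, ℓ i * (x i : ℝ)
  map_zero' := by simp
  map_add' x y := by
    simp only [Pi.add_apply, Int.cast_add, mul_add]
    rw [Finset.sum_add_distrib]

/-- **Main theorem of the application.** -/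
theorem main_theorem (μ : Measure (Row d)) [IsProbabilityMeasure μ] (δ : Site d) (hδ : δ ≠ 0)
    (hμ : ∀ e : Step d, ∃ c : ℝ, ∀ᵐ p ∂μ, classMass δ e p = c) :
    (∃ Q, IsAnnealedLaw μ Q) ∧ ∀ Q, IsAnnealedLaw μ Q → ∀ ℓ : Fin d → ℝ,
      Q (escapeEvent ℓ) = 0 ∨ Q (escapeEvent ℓ) = 1 := by
  choose c hc using hμ
  have hQ0 := isAnnealedLaw_map (δ := δ) (c := c) (μ := μ) hc
  refine ⟨⟨_, hQ0⟩, fun Q hQ ℓ => ?_⟩
  rw [hQ.unique hQ0]
  have hinj : Function.Injective (fun k : ℕ => k • δ) := by
    intro k k' h
    simp only at h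
    have : ((k : ℤ) - k') • δ = 0 := by
      rw [sub_smul, natCast_zsmul, natCast_zsmul, h, sub_self]
    rcases smul_eq_zero.mp this with h1 | h1
    · omega
    · exact absurd h1 hδ
  have hmeasE : MeasurableSet (escapeEvent ℓ) := by
    refine measurableSet_tendsto (atTop : Filter ℝ) fun n => ?_
    exact (measurable_of_countable (fun v : Site d => ∑ i, ℓ i * (v i : ℝ))).comp
      (measurable_pi_apply n)
  rw [Measure.map_apply (measurable_pathMap δ c) hmeasE]
  have hset : pathMap δ c ⁻¹' escapeEvent ℓ = Esc (incr δ c) (linFun ℓ) 0 := rfl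
  rw [hset]
  exact escape_zero_or_one μ (noiseLaw μ) (measurable_incr δ c) hinj (incr_sub δ c)

end Vale.Agent.Lib.P147
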