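import Vale.Agent.Lib.P147.ChainReach

/-!
# The killed chain on `ℤ²` with integrable obstacles has non summable survival probabilities
-/

open scoped ENNReal
open Filter Topology

namespace Vale.Agent.Lib.P147

section Real

/-- Partial sums of the harmonic series at powers of two. -/
lemma harm_pow_le (k : ℕ) : ∑ i ∈ Finset.range (2 ^ k), (1 : ℝ) / ((i : ℝ) + 1) ≤ (k : ℝ) + 1 := by
  induction k with
  | zero => simp
  | succ k ih =>
    have e : 2 ^ (k + 1) = 2 ^ k + 2 ^ k := by ring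
    rw [e, Finset.sum_range_add]
    have h2 : ∑ j ∈ Finset.range (2 ^ k), (1 : ℝ) / (((2 ^ k + j : ℕ) : ℝ) + 1) ≤ 1 := by
      calc ∑ j ∈ Finset.range (2 ^ k), (1 : ℝ) / (((2 ^ k + j : ℕ) : ℝ) + 1)
          ≤ ∑ _j ∈ Finset.range (2 ^ k), (1 : ℝ) / ((2 : ℝ) ^ k) := by
            refine Finset.sum_le_sum fun j _ => ?_
            apply one_div_le_one_div_of_le (by positivity)
            push_cast
            have : (0 : ℝ) ≤ j := by positivity
            linarith
        _ = 1 := by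
            rw [Finset.sum_const, Finset.card_range, nsmul_eq_mul]
            push_cast
            field_simp
    push_cast at ih h2 ⊢
    linarith

/-- The convolution of the harmonic weights. -/
lemma conv_bound (n : ℕ) :
    ∑ i ∈ Finset.range n, (1 : ℝ) / ((i : ℝ) + 1) * (1 / ((n : ℝ) - i)) =
      2 / ((n : ℝ) + 1) * ∑ i ∈ Finset.range n, (1 : ℝ) / ((i : ℝ) + 1) := by
  have h1 : ∀ i ∈ Finset.range n, (1 : ℝ) / ((i : ℝ) + 1) * (1 / ((n : ℝ) - i)) =
      1 / ((n : ℝ) + 1) * (1 / ((i : ℝ) + 1) + 1 / ((n : ℝ) - i)) := by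
    intro i hi
    have hi' : (i : ℝ) < n := by exact_mod_cast Finset.mem_range.mp hi
    have h2 : (n : ℝ) - i ≠ 0 := by linarith
    have h3 : (i : ℝ) + 1 ≠ 0 := by positivity
    have h4 : (n : ℝ) + 1 ≠ 0 := by positivity
    field_simp
    ring
  rw [Finset.sum_congr rfl h1, ← Finset.mul_sum, Finset.sum_add_distrib]
  have h5 : ∑ i ∈ Finset.range n, (1 : ℝ) / ((n : ℝ) - i) =
      ∑ i ∈ Finset.range n, (1 : ℝ) / ((i : ℝ) + 1) := by
    rw [← Finset.sum_range_reflect]
    refine Finset.sum_congr rfl fun i hi => ?_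
    have hi' := Finset.mem_range.mp hi
    have : ((n - 1 - i : ℕ) : ℝ) = (n : ℝ) - 1 - i := by
      rw [Nat.sub_sub, Nat.cast_sub (by omega)]
      push_cast
      ring
    rw [this]
    congr 1
    ring
  rw [h5]
  ring

/-- The exponential beats the linear function. -/
lemma exists_pow_gt (K : ℝ) : ∃ k : ℕ, K * ((k : ℝ) + 1) < (3 / 4) * (3 / 2 : ℝ) ^ k := by
  have h := tendsto_pow_const_div_const_pow_of_one_lt 1 (r := (3 / 2 : ℝ)) (by norm_num)
  have hK : 0 < (3 / 4) / (2 * (|K| + 1)) := by positivity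
  have hev := (h.eventually (gt_mem_nhds hK)).and (eventually_ge_atTop 1)
  obtain ⟨k, hk, hk1⟩ := hev.exists
  refine ⟨k, ?_⟩
  have hp : (0 : ℝ) < (3 / 2 : ℝ) ^ k := by positivity
  rw [pow_one, div_lt_iff₀ hp] at hk
  have hk1' : (1 : ℝ) ≤ k := by exact_mod_cast hk1
  have hK1 : 0 < |K| + 1 := by positivity
  have h3 : (k : ℝ) * (2 * (|K| + 1)) < 3 / 4 * (3 / 2 : ℝ) ^ k := by
    have : (3 / 4) / (2 * (|K| + 1)) * (3 / 2 : ℝ) ^ k * (2 * (|K| + 1)) = 3 / 4 * (3 / 2 : ℝ) ^ k := by
      field_simp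
    rw [← this]
    exact mul_lt_mul_of_pos_right hk (by positivity)
  have h4 : K * ((k : ℝ) + 1) ≤ (|K| + 1) * (2 * k) := by
    have h5 : K ≤ |K| + 1 := by linarith [le_abs_self K]
    have h6 : (k : ℝ) + 1 ≤ 2 * k := by linarith
    calc K * ((k : ℝ) + 1) ≤ (|K| + 1) * ((k : ℝ) + 1) :=
          mul_le_mul_of_nonneg_right h5 (by positivity)
      _ ≤ _ := mul_le_mul_of_nonneg_left h6 hK1.le
  nlinarith

end Real

section Main

variable {Blk : Type*} {w : Blk → ℝ≥0∞} {Δ : Blk → ℤ × ℤ} {O : Blk → Finset (ℤ × ℤ)}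

lemma tsum_mem_one (S : Finset (ℤ × ℤ)) :
    ∑' u, (if u ∈ S then (1 : ℝ≥0∞) else 0) = S.card := by
  rw [tsum_eq_sum (s := S) (fun u hu => if_neg hu), Finset.sum_congr rfl (fun u hu => if_pos hu)]
  simp

lemma tsum_killRate_hit : ∑' u, killRate w (hitK O) u = ∑' π, w π * ((O π).card : ℝ≥0∞) := by
  classical
  simp only [killRate]
  rw [ENNReal.tsum_comm]
  refine tsum_congr fun π => ?_
  rw [ENNReal.tsum_mul_left]
  congr 1
  refine Eq.trans (tsum_congr fun u => ?_) (tsum_mem_one (O π))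
  simp only [hitK]
  congr

open Classical in
lemma tsum_killRate_big (big : Blk → Prop) :
    ∑' u, killRate w (bigK O big) u = ∑' π, w π * (if big π then ((O π).card : ℝ≥0∞) else 0) := by
  simp only [killRate]
  rw [ENNReal.tsum_comm]
  refine tsum_congr fun π => ?_
  rw [ENNReal.tsum_mul_left]
  congr 1
  by_cases hb : big π
  · simp only [bigK, hb, true_and, if_true]
    refine Eq.trans (tsum_congr fun u => ?_) (tsum_mem_one (O π))
    congr
  · simp [bigK, hb]

/-- Choice of the big blocks. -/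
lemma exists_box (hm : ∑' π, w π * ((O π).card : ℝ≥0∞) ≠ ⊤) {ε : ℝ≥0∞} (hε : 0 < ε) :
    ∃ box : Finset (ℤ × ℤ), ∑' u, killRate w (bigK O (fun π => ∃ u ∈ O π, u + Δ π ∉ box)) u ≤ ε := by
  classical
  have htail := ENNReal.tendsto_tsum_compl_atTop_zero hm
  obtain ⟨T, hT⟩ := (htail.eventually (gt_mem_nhds hε)).exists
  refine ⟨T.biUnion fun π => (O π).image (fun u => u + Δ π), ?_⟩
  rw [tsum_killRate_big]
  refine le_trans ?_ hT.le
  set box := T.biUnion fun π => (O π).image (fun u => u + Δ π) with hbox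
  have hnot : ∀ π, (∃ u ∈ O π, u + Δ π ∉ box) → π ∉ T := by
    rintro π ⟨u, hu, hub⟩ hπ
    apply hub
    rw [hbox]
    exact Finset.mem_biUnion.mpr ⟨π, hπ, Finset.mem_image_of_mem _ hu⟩
  rw [← tsum_subtype_eq_of_support_subset (s := {x | x ∉ T})]
  · refine ENNReal.tsum_le_tsum fun π => ?_
    gcongr
    split_ifs
    · exact le_rfl
    · exact zero_le
  · intro π hπ
    simp only [Function.mem_support] at hπ
    by_cases hb : ∃ u ∈ O π, u + Δ π ∉ box
    · exact hnot π hb
    · rw [if_neg hb, mul_zero] at hπ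
      exact absurd rfl hπ

variable (K : Blk → ℤ × ℤ → Prop)

lemma tsum_ker_kill_le (hw : ∑' π, w π = 1) {τ : ℝ≥0∞} (hτ : ∑' u, killRate w K u ≤ τ) (n : ℕ)
    (v : ℤ × ℤ) : ∑' u, kerK w Δ K n v u * killRate w K u ≤ τ := by
  refine le_trans (ENNReal.tsum_le_tsum fun u => ?_) hτ
  calc kerK w Δ K n v u * killRate w K u ≤ 1 * killRate w K u := by
        gcongr
        exact (kerK_le_survK K n v u).trans (survK_le_one K hw n v)
    _ = _ := one_mul _

/-- The lower bound for the survival of the chain killed only at a sparse set of obstacles. -/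
lemma lower_bound {β : ℝ} (hβ0 : 0 < β) (hβ1 : β ≤ 1) (hw : ∑' π, w π = 1) (c : Corners w Δ β)
    (hτ : ∑' u, killRate w K u ≤ ENNReal.ofReal (3 * β / 64)) (v : ℤ × ℤ) (k : ℕ) :
    (3 / 4 : ℝ) ^ (k + 1) ≤ (survK w Δ K (2 ^ k) v).toReal := by
  set F : ℕ → ℝ := fun k => (survK w Δ K (2 ^ k) v).toReal with hF
  have hfin : ∀ n, survK w Δ K n v ≠ ⊤ := fun n =>
    ne_top_of_le_ne_top (by simp) (survK_le_one K hw n v)
  have hle1 : ∀ k, F k ≤ 1 := fun k => by
    have := ENNReal.toReal_mono (by simp) (survK_le_one (Δ := Δ) K hw (2 ^ k) v)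
    simpa using this
  -- the recursive inequality
  have hstep : ∀ k, F (k + 1) ≤ F (k + 2) + 3 / 16 * F k := by
    intro k
    have h1 := survK_eq_add (Δ := Δ) K hw (2 ^ (k + 1)) (2 ^ (k + 1)) v
    have e : 2 ^ (k + 1) + 2 ^ (k + 1) = 2 ^ (k + 2) := by ring
    rw [e] at h1
    set c0 : ℝ := (4 / β) / 2 ^ (k + 1) with hc0
    have hc0pos : 0 ≤ c0 := by positivity
    have h2 : ∀ l u, kerK w Δ K (2 ^ (k + 1) + l) v u ≤
        survK w Δ K (2 ^ k) v * ENNReal.ofReal c0 := by
      intro l u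
      have e2 : 2 ^ (k + 1) + l = 2 ^ k + (2 ^ k + l) := by ring
      rw [e2]
      refine kerK_add_le K (2 ^ k) (2 ^ k + l) (fun z => ?_) v u
      refine (dens_le hβ0 hβ1 hw c _ z).trans (ENNReal.ofReal_le_ofReal ?_)
      rw [hc0]
      push_cast
      have hl : (0 : ℝ) ≤ l := by positivity
      have hp : (0 : ℝ) < 2 ^ k := by positivity
      have e5 : 4 / β / (2 : ℝ) ^ (k + 1) = (2 / β) / 2 ^ k := by
        rw [pow_succ]
        field_simp
        norm_num
      rw [e5]
      exact div_le_div_of_nonneg_left (by positivity) hp (by linarith)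
    have h3 : ∑ l ∈ Finset.range (2 ^ (k + 1)),
        ∑' u, kerK w Δ K (2 ^ (k + 1) + l) v u * killRate w K u ≤
        survK w Δ K (2 ^ k) v * ENNReal.ofReal (3 / 16) := by
      calc _ ≤ ∑ _l ∈ Finset.range (2 ^ (k + 1)),
            survK w Δ K (2 ^ k) v * ENNReal.ofReal c0 * ENNReal.ofReal (3 * β / 64) := by
            refine Finset.sum_le_sum fun l _ => ?_
            calc ∑' u, kerK w Δ K (2 ^ (k + 1) + l) v u * killRate w K u
                ≤ ∑' u, survK w Δ K (2 ^ k) v * ENNReal.ofReal c0 * killRate w K u :=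
                  ENNReal.tsum_le_tsum fun u => by
                    gcongr
                    exact h2 l u
              _ = survK w Δ K (2 ^ k) v * ENNReal.ofReal c0 * ∑' u, killRate w K u :=
                  ENNReal.tsum_mul_left
              _ ≤ _ := by gcongr
        _ = _ := by
            rw [Finset.sum_const, Finset.card_range, nsmul_eq_mul]
            have e3 : ((2 ^ (k + 1) : ℕ) : ℝ≥0∞) = ENNReal.ofReal (2 ^ (k + 1)) := by
              rw [ENNReal.ofReal_pow (by norm_num)]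
              push_cast
              simp
            rw [e3]
            have e4 : ENNReal.ofReal (2 ^ (k + 1)) * (survK w Δ K (2 ^ k) v * ENNReal.ofReal c0 *
                ENNReal.ofReal (3 * β / 64)) = survK w Δ K (2 ^ k) v *
                (ENNReal.ofReal (2 ^ (k + 1)) * ENNReal.ofReal c0 * ENNReal.ofReal (3 * β / 64)) := by
              ring
            rw [e4, ← ENNReal.ofReal_mul (by positivity), ← ENNReal.ofReal_mul (by positivity)]
            congr 2
            rw [hc0]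
            field_simp
            norm_num
    have h4 : survK w Δ K (2 ^ (k + 1)) v ≤ survK w Δ K (2 ^ (k + 2)) v +
        survK w Δ K (2 ^ k) v * ENNReal.ofReal (3 / 16) := by
      rw [h1]
      gcongr
    have h5 := ENNReal.toReal_mono (ENNReal.add_ne_top.mpr ⟨hfin _,
      ENNReal.mul_ne_top (hfin _) ENNReal.ofReal_ne_top⟩) h4
    rw [ENNReal.toReal_add (hfin _) (ENNReal.mul_ne_top (hfin _) ENNReal.ofReal_ne_top),
      ENNReal.toReal_mul, ENNReal.toReal_ofReal (by norm_num)] at h5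
    simp only [hF]
    linarith
  -- the base cases
  have hτ' : ∑' u, killRate w K u ≤ ENNReal.ofReal (3 / 64) :=
    hτ.trans (ENNReal.ofReal_le_ofReal (by linarith))
  have hbase : ∀ n, (survK w Δ K n v).toReal ≤ (survK w Δ K (n + 1) v).toReal + 3 / 64 := by
    intro n
    have h1 := survK_eq (Δ := Δ) K hw n v
    have h2 : survK w Δ K n v ≤ survK w Δ K (n + 1) v + ENNReal.ofReal (3 / 64) := by
      rw [h1]
      gcongr
      exact tsum_ker_kill_le K hw hτ' n v
    have h3 := ENNReal.toReal_mono (ENNReal.add_ne_top.mpr ⟨hfin _, ENNReal.ofReal_ne_top⟩) h2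
    rw [ENNReal.toReal_add (hfin _) ENNReal.ofReal_ne_top,
      ENNReal.toReal_ofReal (by norm_num)] at h3
    exact h3
  have hb0 : (1 : ℝ) ≤ F 0 + 3 / 64 := by
    have := hbase 0
    simpa [hF, survK_zero] using this
  have hb1 : F 0 ≤ F 1 + 3 / 64 := by
    have := hbase 1
    simpa [hF] using this
  have hmain : ∀ k, (3 / 4) * F k ≤ F (k + 1) ∧ (3 / 4 : ℝ) ^ (k + 1) ≤ F k := by
    intro k
    induction k with
    | zero =>
      have := hle1 0
      constructor
      · simp only [zero_add]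
        linarith
      · norm_num
        linarith
    | succ k ih =>
      obtain ⟨h1, h2⟩ := ih
      have h3 := hstep k
      constructor
      · have : F k ≤ (4 / 3) * F (k + 1) := by linarith
        show (3 / 4) * F (k + 1) ≤ F (k + 2)
        linarith
      · rw [pow_succ]
        calc (3 / 4 : ℝ) ^ (k + 1) * (3 / 4) ≤ F k * (3 / 4) := by
              exact mul_le_mul_of_nonneg_right h2 (by norm_num)
          _ ≤ F (k + 1) := by linarith
  exact (hmain k).2

/-- **The chain theorem.** The survival probabilities of the chain killed at integrable obstacles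
are not summable. -/
theorem chain_main {β : ℝ} (hβ0 : 0 < β) (hβ1 : β ≤ 1) (hw : ∑' π, w π = 1) (c : Corners w Δ β)
    (hm : ∑' π, w π * ((O π).card : ℝ≥0∞) ≠ ⊤)
    (hr : HasForce w Δ O (1, 0)) (hl : HasForce w Δ O (-1, 0))
    (hd : HasForce w Δ O (0, 1)) (hb : HasForce w Δ O (0, -1))
    (hzero : ∀ π, (0 : ℤ × ℤ) ∈ O π) :
    ∑' n, survK w Δ (hitK O) n D00 = ⊤ := by
  classical
  by_contra hS
  obtain ⟨box, hbox⟩ := exists_box (Δ := Δ) hm (ε := ENNReal.ofReal (3 * β / 64))
    (ENNReal.ofReal_pos.mpr (by positivity))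
  set big : Blk → Prop := fun π => ∃ u ∈ O π, u + Δ π ∉ box with hbig
  obtain ⟨C, hC, hCbox⟩ := reach_box (O := O) (Δ := Δ) hw hr hl hd hb box
  set a : ℕ → ℤ × ℤ → ℝ≥0∞ := fun n v => survK w Δ (hitK O) n v with ha
  set S' : ℝ := (∑' n, a n D00).toReal with hS'
  set m₁ : ℝ≥0∞ := ∑' π, w π * ((O π).card : ℝ≥0∞) with hm₁
  set C' : ℝ := C.toReal with hC'
  have hS'0 : 0 ≤ S' := ENNReal.toReal_nonneg
  have hC'0 : 0 ≤ C' := ENNReal.toReal_nonneg
  have hCeq : C = ENNReal.ofReal C' := (ENNReal.ofReal_toReal hC).symm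
  -- decay of the survival probabilities
  have hdecay : ∀ m : ℕ, a m D00 ≤ ENNReal.ofReal (S' / ((m : ℝ) + 1)) := by
    intro m
    have hanti := survK_antitone (Δ := Δ) (hitK O) hw D00
    have h1 : ((m : ℝ≥0∞) + 1) * a m D00 ≤ ∑' n, a n D00 := by
      calc ((m : ℝ≥0∞) + 1) * a m D00 = ∑ _i ∈ Finset.range (m + 1), a m D00 := by
            rw [Finset.sum_const, Finset.card_range, nsmul_eq_mul]
            push_cast
            rfl
        _ ≤ ∑ i ∈ Finset.range (m + 1), a i D00 := by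
            refine Finset.sum_le_sum fun i hi => ?_
            exact hanti (by have := Finset.mem_range.mp hi; omega)
        _ ≤ _ := ENNReal.sum_le_tsum _
    have hfin : a m D00 ≠ ⊤ := ne_top_of_le_ne_top (by simp) (survK_le_one (Δ := Δ) _ hw m D00)
    have h2 := ENNReal.toReal_mono hS h1
    rw [ENNReal.toReal_mul] at h2
    have h3 : ((m : ℝ≥0∞) + 1).toReal = (m : ℝ) + 1 := by
      rw [ENNReal.toReal_add (by simp) (by simp)]
      simp
    rw [h3] at h2
    have hm0 : (0 : ℝ) < (m : ℝ) + 1 := by positivity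
    rw [← ENNReal.ofReal_toReal hfin]
    refine ENNReal.ofReal_le_ofReal ?_
    rw [le_div_iff₀ hm0]
    linarith
  set K₁ : ℝ := C' * S' + 1 with hK₁
  have hK₁1 : 1 ≤ K₁ := by
    have : 0 ≤ C' * S' := mul_nonneg hC'0 hS'0
    rw [hK₁]; linarith
  -- the bound for the survival from a site reached by a small block
  have hzero' : ∀ m, a (m + 1) (0 : ℤ × ℤ) = 0 := by
    intro m
    simp only [ha, survK_succ]
    refine ENNReal.tsum_eq_zero.mpr fun π => ?_
    have : hitK O π (0 : ℤ × ℤ) := hzero π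
    simp [this]
  have hsite : ∀ (m : ℕ) (π : Blk) (u : ℤ × ℤ), ¬ big π → u ∈ O π →
      a m (u + Δ π) ≤ ENNReal.ofReal (K₁ / ((m : ℝ) + 1)) := by
    intro m π u hπ hu
    have hin : u + Δ π ∈ box := by
      by_contra hcon
      exact hπ ⟨u, hu, hcon⟩
    have hm0 : (0 : ℝ) < (m : ℝ) + 1 := by positivity
    by_cases h0 : u + Δ π = 0
    · rw [h0]
      cases m with
      | zero =>
        simp only [ha, survK_zero]
        simp only [Nat.cast_zero, zero_add, div_one]
        rw [← ENNReal.ofReal_one]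
        exact ENNReal.ofReal_le_ofReal hK₁1
      | succ m =>
        rw [hzero']
        exact zero_le
    · calc a m (u + Δ π) ≤ C * a m D00 := hCbox _ hin h0 m
        _ ≤ ENNReal.ofReal C' * ENNReal.ofReal (S' / ((m : ℝ) + 1)) := by
            rw [← hCeq]
            gcongr
            exact hdecay m
        _ = ENNReal.ofReal (C' * (S' / ((m : ℝ) + 1))) := (ENNReal.ofReal_mul hC'0).symm
        _ ≤ _ := by
            refine ENNReal.ofReal_le_ofReal ?_
            rw [← mul_div_assoc]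
            exact div_le_div_of_nonneg_right (by rw [hK₁]; linarith) hm0.le
  have hX : ∀ (u : ℤ × ℤ) (m : ℕ), lastX w Δ O big u m ≤
      killRate w (hitK O) u * ENNReal.ofReal (K₁ / ((m : ℝ) + 1)) := by
    intro u m
    simp only [lastX, killRate]
    rw [← ENNReal.tsum_mul_right]
    refine ENNReal.tsum_le_tsum fun π => ?_
    rw [mul_assoc]
    gcongr
    by_cases h1 : ¬ big π ∧ u ∈ O π
    · have h2 : hitK O π u := h1.2
      rw [if_pos h1, if_pos h2, one_mul]
      exact hsite m π u h1.1 h1.2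
    · rw [if_neg h1]
      exact zero_le
  have hm₁' : m₁ = ENNReal.ofReal m₁.toReal := (ENNReal.ofReal_toReal hm).symm
  set m' : ℝ := m₁.toReal with hm'
  have hm'0 : 0 ≤ m' := ENNReal.toReal_nonneg
  -- the bound for each term of the last hit decomposition
  have hterm : ∀ (n i : ℕ), i < n →
      ∑' u, kerK w Δ (bigK O big) i D00 u * lastX w Δ O big u (n - 1 - i) ≤
      ENNReal.ofReal ((2 / β) * m' * K₁ * (1 / ((i : ℝ) + 1) * (1 / ((n : ℝ) - i)))) := by
    intro n i hi
    have hi' : (i : ℝ) < n := by exact_mod_cast hi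
    have hpos : (0 : ℝ) < (n : ℝ) - i := by linarith
    have e : (((n - 1 - i : ℕ) : ℝ) + 1) = (n : ℝ) - i := by
      have : ((n - 1 - i : ℕ) : ℝ) = (n : ℝ) - 1 - i := by
        rw [Nat.sub_sub, Nat.cast_sub (by omega)]
        push_cast
        ring
      rw [this]
      ring
    calc ∑' u, kerK w Δ (bigK O big) i D00 u * lastX w Δ O big u (n - 1 - i)
        ≤ ∑' u, ENNReal.ofReal ((2 / β) / ((i : ℝ) + 1)) *
            (killRate w (hitK O) u * ENNReal.ofReal (K₁ / ((n : ℝ) - i))) := by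
          refine ENNReal.tsum_le_tsum fun u => ?_
          have h1 := hX u (n - 1 - i)
          rw [e] at h1
          gcongr
          exact (kerK_le_dens _ i D00 u).trans (dens_le hβ0 hβ1 hw c i _)
      _ = ENNReal.ofReal ((2 / β) / ((i : ℝ) + 1)) *
            (m₁ * ENNReal.ofReal (K₁ / ((n : ℝ) - i))) := by
          rw [ENNReal.tsum_mul_left, ENNReal.tsum_mul_right, tsum_killRate_hit]
      _ = _ := by
          rw [hm₁', ← ENNReal.ofReal_mul hm'0,
            ← ENNReal.ofReal_mul (by positivity)]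
          congr 1
          field_simp
  -- the upper bound
  have hup : ∀ n : ℕ, (survK w Δ (bigK O big) n D00).toReal ≤ S' / ((n : ℝ) + 1) +
      (2 / β) * m' * K₁ * (2 / ((n : ℝ) + 1) * ∑ i ∈ Finset.range n, (1 : ℝ) / ((i : ℝ) + 1)) := by
    intro n
    have h1 := survK_lastHit w Δ O big n D00
    have h2 : survK w Δ (bigK O big) n D00 ≤ ENNReal.ofReal (S' / ((n : ℝ) + 1)) +
        ∑ i ∈ Finset.range n,
          ENNReal.ofReal ((2 / β) * m' * K₁ * (1 / ((i : ℝ) + 1) * (1 / ((n : ℝ) - i)))) := by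
      rw [h1]
      exact add_le_add (hdecay n) (Finset.sum_le_sum fun i hi =>
        hterm n i (Finset.mem_range.mp hi))
    have hnn : ∀ i ∈ Finset.range n,
        0 ≤ (2 / β) * m' * K₁ * (1 / ((i : ℝ) + 1) * (1 / ((n : ℝ) - i))) := by
      intro i hi
      have hi' : (i : ℝ) < n := by exact_mod_cast Finset.mem_range.mp hi
      have hpos : (0 : ℝ) < (n : ℝ) - i := by linarith
      positivity
    rw [← ENNReal.ofReal_sum_of_nonneg hnn, ← ENNReal.ofReal_add (by positivity)
      (Finset.sum_nonneg hnn)] at h2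
    have h3 := ENNReal.toReal_le_of_le_ofReal
      (add_nonneg (by positivity) (Finset.sum_nonneg hnn)) h2
    rw [← Finset.mul_sum, conv_bound] at h3
    exact h3
  -- the contradiction
  set K₂ : ℝ := S' + (2 / β) * m' * K₁ * 2 with hK₂
  have hK₂0 : 0 ≤ K₂ := by positivity
  obtain ⟨k, hk⟩ := exists_pow_gt K₂
  have hlow := lower_bound (Δ := Δ) (bigK O big) hβ0 hβ1 hw c hbox D00 k
  have hu := hup (2 ^ k)
  have hH := harm_pow_le k
  have hp : (0 : ℝ) < 2 ^ k := by positivity
  push_cast at hu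
  have h4 : S' / ((2 : ℝ) ^ k + 1) + (2 / β) * m' * K₁ *
      (2 / ((2 : ℝ) ^ k + 1) * ∑ i ∈ Finset.range (2 ^ k), (1 : ℝ) / ((i : ℝ) + 1)) ≤
      K₂ * ((k : ℝ) + 1) / 2 ^ k := by
    have hk0 : (0 : ℝ) ≤ k := by positivity
    have hc0 : 0 ≤ (2 / β) * m' * K₁ := by positivity
    have h5 : S' / ((2 : ℝ) ^ k + 1) ≤ S' * ((k : ℝ) + 1) / 2 ^ k := by
      rw [div_le_div_iff₀ (by positivity) hp]
      nlinarith [mul_nonneg hS'0 hk0, mul_nonneg (mul_nonneg hS'0 hk0) hp.le, mul_nonneg hS'0 hp.le]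
    have h6 : 2 / ((2 : ℝ) ^ k + 1) * ∑ i ∈ Finset.range (2 ^ k), (1 : ℝ) / ((i : ℝ) + 1) ≤
        2 * ((k : ℝ) + 1) / 2 ^ k := by
      calc _ ≤ 2 / ((2 : ℝ) ^ k) * ((k : ℝ) + 1) := by
            refine mul_le_mul ?_ hH (Finset.sum_nonneg fun i _ => by positivity) (by positivity)
            exact div_le_div_of_nonneg_left (by norm_num) hp (by linarith)
        _ = _ := by ring
    calc _ ≤ S' * ((k : ℝ) + 1) / 2 ^ k + (2 / β) * m' * K₁ * (2 * ((k : ℝ) + 1) / 2 ^ k) :=
          add_le_add h5 (mul_le_mul_of_nonneg_left h6 hc0)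
      _ = _ := by rw [hK₂]; ring
  have h7 : (3 / 4 : ℝ) ^ (k + 1) ≤ K₂ * ((k : ℝ) + 1) / 2 ^ k :=
    hlow.trans (hu.trans h4)
  rw [le_div_iff₀ hp] at h7
  have h8 : (3 / 4 : ℝ) ^ (k + 1) * 2 ^ k = (3 / 4) * (3 / 2) ^ k := by
    rw [pow_succ, mul_comm ((3 / 4 : ℝ) ^ k), mul_assoc, ← mul_pow]
    norm_num
  rw [h8] at h7
  linarith

end Main

end Vale.Agent.Lib.P147
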