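import Mathlib

/-!
# Binomial bound and two dimensional smoothing
-/

open scoped ENNReal

namespace Vale.Agent.Lib.P147

/-- Central binomial coefficient bound. -/
lemma centralBinom_sq_mul_le (n : ℕ) : (Nat.centralBinom n) ^ 2 * (2 * n + 1) ≤ 16 ^ n := by
  induction n with
  | zero => simp
  | succ n ih =>
    have h := Nat.succ_mul_centralBinom_succ n
    have hpos : 0 < (n + 1) ^ 2 := by positivity
    refine Nat.le_of_mul_le_mul_left ?_ hpos
    calc (n + 1) ^ 2 * ((Nat.centralBinom (n + 1)) ^ 2 * (2 * (n + 1) + 1))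
        = ((n + 1) * Nat.centralBinom (n + 1)) ^ 2 * (2 * n + 3) := by ring
      _ = (2 * (2 * n + 1) * Nat.centralBinom n) ^ 2 * (2 * n + 3) := by rw [h]
      _ = 4 * ((2 * n + 1) * (2 * n + 3)) * ((Nat.centralBinom n) ^ 2 * (2 * n + 1)) := by ring
      _ ≤ 4 * ((2 * n + 1) * (2 * n + 3)) * 16 ^ n := Nat.mul_le_mul_left _ ih
      _ ≤ (n + 1) ^ 2 * 16 ^ (n + 1) := by
        have : 4 * ((2 * n + 1) * (2 * n + 3)) ≤ 16 * (n + 1) ^ 2 := by nlinarith
        calc 4 * ((2 * n + 1) * (2 * n + 3)) * 16 ^ n ≤ 16 * (n + 1) ^ 2 * 16 ^ n :=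
              Nat.mul_le_mul_right _ this
          _ = (n + 1) ^ 2 * 16 ^ (n + 1) := by ring

/-- The middle binomial coefficient bound. -/
lemma choose_middle_sq_mul_le (r : ℕ) : (r.choose (r / 2)) ^ 2 * (r + 1) ≤ 4 ^ r := by
  rcases Nat.even_or_odd' r with ⟨n, rfl | rfl⟩
  · have h1 : 2 * n / 2 = n := by omega
    rw [h1, ← Nat.centralBinom_eq_two_mul_choose]
    have h2 : (4 : ℕ) ^ (2 * n) = 16 ^ n := by
      rw [pow_mul]; norm_num
    rw [h2]
    exact centralBinom_sq_mul_le n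
  · have h1 : (2 * n + 1) / 2 = n := by omega
    rw [h1]
    have h3 : Nat.centralBinom (n + 1) = 2 * (2 * n + 1).choose n := by
      rw [Nat.centralBinom_eq_two_mul_choose]
      have : 2 * (n + 1) = (2 * n + 1) + 1 := by ring
      rw [this, Nat.choose_succ_succ]
      have h4 : (2 * n + 1).choose (n + 1) = (2 * n + 1).choose n := by
        apply Nat.choose_symm_of_eq_add
        omega
      rw [h4]; ring
    have h5 := centralBinom_sq_mul_le (n + 1)
    rw [h3] at h5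
    have h6 : (4 : ℕ) ^ (2 * n + 1) = 4 * 16 ^ n := by
      rw [pow_succ, pow_mul]; norm_num; ring
    rw [h6]
    have h7 : (16 : ℕ) ^ (n + 1) = 4 * (4 * 16 ^ n) := by ring
    rw [h7] at h5
    have h8 : 4 * (((2 * n + 1).choose n) ^ 2 * (2 * (n + 1) + 1)) ≤ 4 * (4 * 16 ^ n) := by
      calc 4 * (((2 * n + 1).choose n) ^ 2 * (2 * (n + 1) + 1))
          = (2 * (2 * n + 1).choose n) ^ 2 * (2 * (n + 1) + 1) := by ring
        _ ≤ _ := h5
    have h9 := Nat.le_of_mul_le_mul_left h8 (by norm_num)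
    calc ((2 * n + 1).choose n) ^ 2 * (2 * n + 1 + 1)
        ≤ ((2 * n + 1).choose n) ^ 2 * (2 * (n + 1) + 1) :=
          Nat.mul_le_mul_left _ (by omega)
      _ ≤ _ := h9

lemma choose_sq_mul_le (r k : ℕ) : (r.choose k) ^ 2 * (r + 1) ≤ 4 ^ r :=
  (Nat.mul_le_mul_right _ (Nat.pow_le_pow_left (Nat.choose_le_middle k r) 2)).trans
    (choose_middle_sq_mul_le r)

/-- The value of the symmetric binomial law at an integer. -/
noncomputable def binW (r : ℕ) (a : ℤ) : ℝ :=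
  if 0 ≤ a then ((r.choose a.toNat : ℕ) : ℝ) / 2 ^ r else 0

lemma binW_nonneg (r : ℕ) (a : ℤ) : 0 ≤ binW r a := by
  unfold binW
  split_ifs <;> positivity

lemma binW_succ (r : ℕ) (a : ℤ) : binW (r + 1) a = (binW r a + binW r (a - 1)) / 2 := by
  unfold binW
  rcases lt_trichotomy a 0 with h | h | h
  · have h1 : ¬ 0 ≤ a := not_le.mpr h
    have h2 : ¬ 0 ≤ a - 1 := by omega
    rw [if_neg h1, if_neg h1, if_neg h2]
    simp
  · subst h
    have h3 : ¬ (0 : ℤ) ≤ 0 - 1 := by omega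
    rw [if_pos le_rfl, if_pos le_rfl, if_neg h3]
    simp only [Int.toNat_zero, Nat.choose_zero_right, Nat.cast_one, add_zero, pow_succ]
    field_simp
  · have h1 : 0 ≤ a := h.le
    have h2 : 0 ≤ a - 1 := by omega
    rw [if_pos h1, if_pos h1, if_pos h2]
    obtain ⟨k, rfl⟩ : ∃ k : ℕ, a = (k : ℤ) + 1 := ⟨(a - 1).toNat, by omega⟩
    have e1 : ((k : ℤ) + 1).toNat = k + 1 := by omega
    have e2 : ((k : ℤ) + 1 - 1).toNat = k := by simp
    rw [e1, e2, Nat.choose_succ_succ]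
    push_cast
    field_simp
    ring

lemma binW_mul_le (r : ℕ) (a b : ℤ) : binW r a * binW r b ≤ 1 / ((r : ℝ) + 1) := by
  unfold binW
  split_ifs with h1 h2
  · have e1 := choose_sq_mul_le r a.toNat
    have e2 := choose_sq_mul_le r b.toNat
    have e1' : ((r.choose a.toNat : ℕ) : ℝ) ^ 2 * ((r : ℝ) + 1) ≤ 4 ^ r := by exact_mod_cast e1
    have e2' : ((r.choose b.toNat : ℕ) : ℝ) ^ 2 * ((r : ℝ) + 1) ≤ 4 ^ r := by exact_mod_cast e2
    set A := ((r.choose a.toNat : ℕ) : ℝ)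
    set B := ((r.choose b.toNat : ℕ) : ℝ)
    have hr : (0 : ℝ) < (r : ℝ) + 1 := by positivity
    rw [div_mul_div_comm, div_le_div_iff₀ (by positivity) hr]
    have hab : A * B * ((r : ℝ) + 1) ≤ 4 ^ r := by
      have : 0 ≤ (A - B) ^ 2 * ((r : ℝ) + 1) := by positivity
      nlinarith
    have h4 : (2 : ℝ) ^ r * 2 ^ r = 4 ^ r := by
      rw [← mul_pow]; norm_num
    rw [h4]; linarith
  · simp; positivity
  · simp; positivity
  · simp; positivity

end Vale.Agent.Lib.P147
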