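import Vale.Agent.Lib.P147.ChainBin

/-!
# Density bound for a walk on `ℤ²` whose law has atoms at the four corners of the unit square
-/

open scoped ENNReal

namespace Vale.Agent.Lib.P147

/-- Average over the four corners of the unit square. -/
noncomputable def avg4 (f : ℤ × ℤ → ℝ≥0∞) (u : ℤ × ℤ) : ℝ≥0∞ :=
  (f u + f (u - (1, 0)) + f (u - (0, 1)) + f (u - (1, 1))) / 4

/-- The point mass at the origin. -/
noncomputable def delta0 (u : ℤ × ℤ) : ℝ≥0∞ := if u = 0 then 1 else 0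

lemma binW_zero (a : ℤ) : binW 0 a = if a = 0 then 1 else 0 := by
  unfold binW
  by_cases h : a = 0
  · subst h; simp
  · rw [if_neg h]
    split_ifs with h1
    · have : 0 < a.toNat := by omega
      simp [Nat.choose_eq_zero_of_lt this]
    · rfl

/-- The iterated average of the point mass. -/
lemma iterate_avg4_delta (r : ℕ) (u : ℤ × ℤ) :
    (avg4^[r] delta0) u = ENNReal.ofReal (binW r u.1 * binW r u.2) := by
  induction r generalizing u with
  | zero =>
    simp only [Function.iterate_zero, id, delta0, binW_zero]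
    by_cases h : u = 0
    · subst h; simp
    · have h' : ¬ (u.1 = 0 ∧ u.2 = 0) := fun hh => h (Prod.ext hh.1 hh.2)
      rw [if_neg h]
      by_cases h1 : u.1 = 0
      · have h2 : u.2 ≠ 0 := fun h2 => h' ⟨h1, h2⟩
        simp [h2]
      · simp [h1]
  | succ r ih =>
    rw [Function.iterate_succ_apply', avg4]
    simp only [ih, Prod.fst_sub, Prod.snd_sub, sub_zero]
    rw [binW_succ, binW_succ]
    have hb : ∀ a b : ℤ, 0 ≤ binW r a * binW r b := fun a b =>
      mul_nonneg (binW_nonneg _ _) (binW_nonneg _ _)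
    rw [← ENNReal.ofReal_add (hb _ _) (hb _ _), ← ENNReal.ofReal_add (add_nonneg (hb _ _) (hb _ _)) (hb _ _),
      ← ENNReal.ofReal_add (add_nonneg (add_nonneg (hb _ _) (hb _ _)) (hb _ _)) (hb _ _)]
    have h4 : (4 : ℝ≥0∞) = ENNReal.ofReal 4 := by norm_num
    rw [h4, ← ENNReal.ofReal_div_of_pos (by norm_num)]
    congr 1
    ring

lemma iterate_avg4_delta_le (r : ℕ) (u : ℤ × ℤ) :
    (avg4^[r] delta0) u ≤ ENNReal.ofReal (1 / ((r : ℝ) + 1)) := by
  rw [iterate_avg4_delta]
  exact ENNReal.ofReal_le_ofReal (binW_mul_le r _ _)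

section Op

variable {Blk : Type*} (w : Blk → ℝ≥0∞) (Δ : Blk → ℤ × ℤ)

/-- The transition operator of the free chain, acting on laws. -/
noncomputable def stepOp (f : ℤ × ℤ → ℝ≥0∞) (z : ℤ × ℤ) : ℝ≥0∞ := ∑' π, w π * f (z - Δ π)

/-- The law of the free chain after `i` steps. -/
noncomputable def dens : ℕ → ℤ × ℤ → ℝ≥0∞
  | 0 => delta0
  | i + 1 => stepOp w Δ (dens i)

lemma avg4_stepOp (f : ℤ × ℤ → ℝ≥0∞) :
    avg4 (stepOp w Δ f) = stepOp w Δ (avg4 f) := by
  funext u
  simp only [avg4, stepOp]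
  simp_rw [div_eq_mul_inv]
  rw [← ENNReal.tsum_add, ← ENNReal.tsum_add, ← ENNReal.tsum_add, ← ENNReal.tsum_mul_right]
  refine tsum_congr fun π => ?_
  have h1 : ∀ a : ℤ × ℤ, u - a - Δ π = u - Δ π - a := fun a => sub_right_comm _ _ _
  rw [h1, h1, h1]
  ring

lemma iterate_avg4_stepOp (r : ℕ) (f : ℤ × ℤ → ℝ≥0∞) :
    avg4^[r] (stepOp w Δ f) = stepOp w Δ (avg4^[r] f) := by
  induction r with
  | zero => rfl
  | succ r ih =>
    rw [Function.iterate_succ_apply', Function.iterate_succ_apply', ih, avg4_stepOp]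

lemma real_ineq {x β : ℝ} (hx : 1 ≤ x) (hβ0 : 0 ≤ β) :
    (1 - β) * (1 / x) + β * (1 / (x + 1)) ≤ 1 / (x + β / 2) := by
  have hx0 : 0 < x := by linarith
  have h1 : 0 < x + 1 := by linarith
  have h2 : 0 < x + β / 2 := by linarith
  have e : (1 - β) * (1 / x) + β * (1 / (x + 1)) = ((1 - β) * (x + 1) + β * x) / (x * (x + 1)) := by
    field_simp
  rw [e, div_le_div_iff₀ (by positivity) h2]
  nlinarith [mul_nonneg hβ0 (sub_nonneg.mpr hx), mul_nonneg hβ0 hβ0]

variable {w Δ}

/-- The data of four blocks with the corners of the unit square as displacements. -/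
structure Corners (w : Blk → ℝ≥0∞) (Δ : Blk → ℤ × ℤ) (β : ℝ) where
  a00 : Blk
  a10 : Blk
  a01 : Blk
  a11 : Blk
  h00 : Δ a00 = (0, 0)
  h10 : Δ a10 = (1, 0)
  h01 : Δ a01 = (0, 1)
  h11 : Δ a11 = (1, 1)
  w00 : ENNReal.ofReal β / 4 ≤ w a00
  w10 : ENNReal.ofReal β / 4 ≤ w a10
  w01 : ENNReal.ofReal β / 4 ≤ w a01
  w11 : ENNReal.ofReal β / 4 ≤ w a11

/-- The key splitting inequality. -/
lemma stepOp_le {β : ℝ} (hβ0 : 0 ≤ β) (hβ1 : β ≤ 1) (hw : ∑' π, w π = 1) (c : Corners w Δ β)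
    (g : ℤ × ℤ → ℝ≥0∞) (M₁ : ℝ≥0∞) (hg : ∀ u, g u ≤ M₁) (u : ℤ × ℤ) :
    stepOp w Δ g u ≤ ENNReal.ofReal (1 - β) * M₁ + ENNReal.ofReal β * avg4 g u := by
  classical
  -- the four blocks are distinct
  have hΔ : ∀ {a b : Blk}, Δ a ≠ Δ b → a ≠ b := fun h hab => h (by rw [hab])
  have h1 : c.a00 ≠ c.a10 := hΔ (by rw [c.h00, c.h10]; simp)
  have h2 : c.a00 ≠ c.a01 := hΔ (by rw [c.h00, c.h01]; simp)
  have h3 : c.a00 ≠ c.a11 := hΔ (by rw [c.h00, c.h11]; simp)
  have h4 : c.a10 ≠ c.a01 := hΔ (by rw [c.h10, c.h01]; simp)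
  have h5 : c.a10 ≠ c.a11 := hΔ (by rw [c.h10, c.h11]; simp)
  have h6 : c.a01 ≠ c.a11 := hΔ (by rw [c.h01, c.h11]; simp)
  set T : Finset Blk := {c.a00, c.a10, c.a01, c.a11} with hT
  set b : ℝ≥0∞ := ENNReal.ofReal β / 4 with hb
  let cw : Blk → ℝ≥0∞ := fun π => if π ∈ T then b else 0
  let w' : Blk → ℝ≥0∞ := fun π => w π - cw π
  have hle : ∀ π, cw π ≤ w π := by
    intro π
    simp only [cw]
    split_ifs with hπ
    · simp only [hT, Finset.mem_insert, Finset.mem_singleton] at hπ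
      rcases hπ with rfl | rfl | rfl | rfl
      · exact c.w00
      · exact c.w10
      · exact c.w01
      · exact c.w11
    · exact zero_le
  have hsplit : ∀ π, w π = w' π + cw π := fun π => (tsub_add_cancel_of_le (hle π)).symm
  have hsumT : ∀ F : Blk → ℝ≥0∞, ∑' π, cw π * F π = b * (F c.a00 + F c.a10 + F c.a01 + F c.a11) := by
    intro F
    have : ∀ π, cw π * F π = if π ∈ T then b * F π else 0 := by
      intro π
      simp only [cw]
      split_ifs <;> simp
    simp_rw [this]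
    rw [tsum_eq_sum (s := T) (fun π hπ => if_neg hπ), Finset.sum_congr rfl
      (fun π hπ => if_pos hπ), hT, ← Finset.mul_sum,
      Finset.sum_insert (by simp [h1, h2, h3]), Finset.sum_insert (by simp [h4, h5]),
      Finset.sum_insert (by simp [h6]), Finset.sum_singleton]
    ring_nf
  have h4b : 4 * b = ENNReal.ofReal β := by
    rw [hb]
    exact ENNReal.mul_div_cancel (by norm_num) (by norm_num)
  have hcsum : ∑' π, cw π = ENNReal.ofReal β := by
    have := hsumT (fun _ => 1)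
    simp only [mul_one] at this
    rw [this, ← h4b]
    norm_num
    ring
  have hw' : ∑' π, w' π + ENNReal.ofReal β = 1 := by
    rw [← hcsum, ← ENNReal.tsum_add, ← hw]
    exact tsum_congr fun π => (hsplit π).symm
  have hw'' : ∑' π, w' π = ENNReal.ofReal (1 - β) := by
    have hne : ENNReal.ofReal β ≠ ⊤ := ENNReal.ofReal_ne_top
    have h1β : ENNReal.ofReal (1 - β) + ENNReal.ofReal β = 1 := by
      rw [← ENNReal.ofReal_add (by linarith) hβ0]
      simp
    exact (ENNReal.add_left_inj hne).mp (hw'.trans h1β.symm)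
  unfold stepOp
  calc ∑' π, w π * g (u - Δ π)
      = ∑' π, (w' π * g (u - Δ π) + cw π * g (u - Δ π)) := by
        refine tsum_congr fun π => ?_
        conv_lhs => rw [hsplit π]
        rw [add_mul]
    _ = ∑' π, w' π * g (u - Δ π) + ∑' π, cw π * g (u - Δ π) := ENNReal.tsum_add
    _ ≤ ∑' π, w' π * M₁ + ∑' π, cw π * g (u - Δ π) := by
        gcongr with π
        exact hg _
    _ = ENNReal.ofReal (1 - β) * M₁ + ENNReal.ofReal β * avg4 g u := by
        rw [ENNReal.tsum_mul_right, hw'', hsumT, c.h00, c.h10, c.h01, c.h11]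
        have h0 : u - ((0 : ℤ), (0 : ℤ)) = u := by
          ext <;> simp
        rw [h0]
        simp only [hb, avg4, div_eq_mul_inv]
        ring

/-- The smoothing bound for the law of the free chain. -/
lemma smooth_bound {β : ℝ} (hβ0 : 0 ≤ β) (hβ1 : β ≤ 1) (hw : ∑' π, w π = 1) (c : Corners w Δ β)
    (i r : ℕ) (u : ℤ × ℤ) :
    (avg4^[r] (dens w Δ i)) u ≤ ENNReal.ofReal (1 / ((r : ℝ) + β * i / 2 + 1)) := by
  induction i generalizing r u with
  | zero =>
    have := iterate_avg4_delta_le r u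
    simpa [dens] using this
  | succ i ih =>
    have h1 : (avg4^[r] (dens w Δ (i + 1))) = stepOp w Δ (avg4^[r] (dens w Δ i)) :=
      iterate_avg4_stepOp w Δ r (dens w Δ i)
    rw [h1]
    set g := avg4^[r] (dens w Δ i) with hg
    set x : ℝ := (r : ℝ) + β * i / 2 + 1 with hx
    have hx1 : 1 ≤ x := by
      have : 0 ≤ β * i / 2 := by positivity
      have hr : (0 : ℝ) ≤ r := by positivity
      rw [hx]; linarith
    have h2 := stepOp_le hβ0 hβ1 hw c g (ENNReal.ofReal (1 / x)) (fun v => ih r v) u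
    have h3 : avg4 g u ≤ ENNReal.ofReal (1 / (x + 1)) := by
      have h4 : avg4 g = avg4^[r + 1] (dens w Δ i) := by
        rw [Function.iterate_succ_apply']
      rw [h4]
      have h5 := ih (r + 1) u
      have h6 : (((r + 1 : ℕ) : ℝ) + β * i / 2 + 1) = x + 1 := by
        rw [hx]; push_cast; ring
      rwa [h6] at h5
    have h7 : (1 - β) * (1 / x) + β * (1 / (x + 1)) ≤ 1 / (x + β / 2) := real_ineq hx1 hβ0
    have h8 : ((r : ℝ) + β * ((i + 1 : ℕ) : ℝ) / 2 + 1) = x + β / 2 := by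
      rw [hx]; push_cast; ring
    rw [h8]
    have hx0 : 0 < x := by linarith
    have h1β : 0 ≤ 1 - β := by linarith
    calc stepOp w Δ g u ≤ ENNReal.ofReal (1 - β) * ENNReal.ofReal (1 / x) +
          ENNReal.ofReal β * avg4 g u := h2
      _ ≤ ENNReal.ofReal (1 - β) * ENNReal.ofReal (1 / x) +
          ENNReal.ofReal β * ENNReal.ofReal (1 / (x + 1)) := by gcongr
      _ = ENNReal.ofReal ((1 - β) * (1 / x) + β * (1 / (x + 1))) := by
          rw [← ENNReal.ofReal_mul h1β, ← ENNReal.ofReal_mul hβ0,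
            ENNReal.ofReal_add (by positivity) (by positivity)]
      _ ≤ _ := ENNReal.ofReal_le_ofReal h7

/-- The density bound for the free chain. -/
lemma dens_le {β : ℝ} (hβ0 : 0 < β) (hβ1 : β ≤ 1) (hw : ∑' π, w π = 1) (c : Corners w Δ β)
    (i : ℕ) (u : ℤ × ℤ) :
    dens w Δ i u ≤ ENNReal.ofReal ((2 / β) / ((i : ℝ) + 1)) := by
  have h := smooth_bound hβ0.le hβ1 hw c i 0 u
  simp only [Function.iterate_zero, id, Nat.cast_zero, zero_add] at h
  refine h.trans (ENNReal.ofReal_le_ofReal ?_)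
  have hi : (0 : ℝ) ≤ i := by positivity
  rw [div_div, div_le_div_iff₀ (by positivity) (by positivity)]
  nlinarith

end Op

end Vale.Agent.Lib.P147
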