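import Vale.Agent.Lib.P147.ChainDens

/-!
# The killed chain: recursions and decompositions
-/

open scoped ENNReal

namespace Vale.Agent.Lib.P147

section Kill

variable {Blk : Type*} (w : Blk → ℝ≥0∞) (Δ : Blk → ℤ × ℤ)

open Classical in
/-- Survival probability of the chain killed according to the predicate `K`. -/
noncomputable def survK (K : Blk → ℤ × ℤ → Prop) : ℕ → ℤ × ℤ → ℝ≥0∞
  | 0, _ => 1
  | n + 1, v => ∑' π, w π * (if K π v then 0 else survK K n (v + Δ π))

open Classical in
/-- Transition kernel of the chain killed according to the predicate `K`. -/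
noncomputable def kerK (K : Blk → ℤ × ℤ → Prop) : ℕ → ℤ × ℤ → ℤ × ℤ → ℝ≥0∞
  | 0, v, u => if u = v then 1 else 0
  | n + 1, v, u => ∑' π, w π * (if K π v then 0 else kerK K n (v + Δ π) u)

open Classical in
/-- Killing rate at the site `u`. -/
noncomputable def killRate (K : Blk → ℤ × ℤ → Prop) (u : ℤ × ℤ) : ℝ≥0∞ :=
  ∑' π, w π * (if K π u then 1 else 0)

variable {w Δ} (K : Blk → ℤ × ℤ → Prop)

lemma survK_zero (v : ℤ × ℤ) : survK w Δ K 0 v = 1 := rfl

open Classical in
lemma survK_succ (n : ℕ) (v : ℤ × ℤ) :
    survK w Δ K (n + 1) v = ∑' π, w π * (if K π v then 0 else survK w Δ K n (v + Δ π)) := rfl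

open Classical in
lemma kerK_succ (n : ℕ) (v u : ℤ × ℤ) :
    kerK w Δ K (n + 1) v u = ∑' π, w π * (if K π v then 0 else kerK w Δ K n (v + Δ π) u) := rfl

lemma survK_le_one (hw : ∑' π, w π = 1) (n : ℕ) (v : ℤ × ℤ) : survK w Δ K n v ≤ 1 := by
  classical
  induction n generalizing v with
  | zero => exact le_rfl
  | succ n ih =>
    rw [survK_succ, ← hw]
    refine ENNReal.tsum_le_tsum fun π => ?_
    calc w π * _ ≤ w π * 1 := by
          gcongr
          split_ifs
          · exact zero_le
          · exact ih _
      _ = w π := mul_one _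

lemma survK_succ_le (hw : ∑' π, w π = 1) (n : ℕ) (v : ℤ × ℤ) :
    survK w Δ K (n + 1) v ≤ survK w Δ K n v := by
  classical
  induction n generalizing v with
  | zero =>
    rw [survK_zero]
    exact survK_le_one K hw 1 v
  | succ n ih =>
    rw [survK_succ, survK_succ K n]
    refine ENNReal.tsum_le_tsum fun π => ?_
    gcongr
    split_ifs
    · exact le_rfl
    · exact ih _

lemma survK_antitone (hw : ∑' π, w π = 1) (v : ℤ × ℤ) :
    Antitone (fun n => survK w Δ K n v) :=
  antitone_nat_of_succ_le fun n => survK_succ_le K hw n v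

lemma tsum_kerK (n : ℕ) (v : ℤ × ℤ) : ∑' u, kerK w Δ K n v u = survK w Δ K n v := by
  classical
  induction n generalizing v with
  | zero =>
    simp only [kerK, survK]
    rw [tsum_ite_eq]
  | succ n ih =>
    simp only [kerK_succ, survK_succ]
    rw [ENNReal.tsum_comm]
    refine tsum_congr fun π => ?_
    rw [ENNReal.tsum_mul_left]
    congr 1
    split_ifs
    · simp
    · exact ih _

lemma kerK_le_survK (n : ℕ) (v u : ℤ × ℤ) : kerK w Δ K n v u ≤ survK w Δ K n v := by
  rw [← tsum_kerK]
  exact ENNReal.le_tsum u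

lemma survK_eq (hw : ∑' π, w π = 1) (n : ℕ) (v : ℤ × ℤ) :
    survK w Δ K n v = survK w Δ K (n + 1) v + ∑' u, kerK w Δ K n v u * killRate w K u := by
  classical
  induction n generalizing v with
  | zero =>
    have h1 : ∑' u, kerK w Δ K 0 v u * killRate w K u = killRate w K v := by
      simp only [kerK]
      rw [tsum_eq_single v]
      · simp
      · intro u hu
        simp [hu]
    rw [h1, survK_zero, survK_succ, killRate, ← ENNReal.tsum_add]
    conv_lhs => rw [← hw]
    refine tsum_congr fun π => ?_
    rw [survK_zero, ← mul_add]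
    by_cases hK : K π v <;> simp [hK]
  | succ n ih =>
    have h1 : ∑' u, kerK w Δ K (n + 1) v u * killRate w K u =
        ∑' π, w π * (if K π v then 0 else
          ∑' u, kerK w Δ K n (v + Δ π) u * killRate w K u) := by
      simp only [kerK_succ]
      simp_rw [← ENNReal.tsum_mul_right]
      rw [ENNReal.tsum_comm]
      refine tsum_congr fun π => ?_
      by_cases hK : K π v
      · simp [hK]
      · simp only [hK, if_false]
        rw [← ENNReal.tsum_mul_left]
        refine tsum_congr fun u => ?_
        ring
    rw [h1, survK_succ K (n + 1), survK_succ K n, ← ENNReal.tsum_add]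
    refine tsum_congr fun π => ?_
    rw [← mul_add]
    congr 1
    split_ifs
    · simp
    · exact ih _

/-- Iterated form of the killing identity. -/
lemma survK_eq_add (hw : ∑' π, w π = 1) (i j : ℕ) (v : ℤ × ℤ) :
    survK w Δ K i v = survK w Δ K (i + j) v +
      ∑ l ∈ Finset.range j, ∑' u, kerK w Δ K (i + l) v u * killRate w K u := by
  induction j with
  | zero => simp
  | succ j ih =>
    rw [Finset.sum_range_succ, ih, survK_eq K hw (i + j) v, add_assoc, add_comm (∑ l ∈ _, _)]
    rfl

lemma kerK_le_dens (n : ℕ) (v u : ℤ × ℤ) : kerK w Δ K n v u ≤ dens w Δ n (u - v) := by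
  classical
  induction n generalizing v with
  | zero =>
    simp only [kerK, dens, delta0]
    by_cases h : u = v
    · subst h; simp
    · rw [if_neg h]
      exact zero_le
  | succ n ih =>
    rw [kerK_succ]
    show _ ≤ ∑' π, w π * dens w Δ n (u - v - Δ π)
    refine ENNReal.tsum_le_tsum fun π => ?_
    gcongr
    split_ifs
    · exact zero_le
    · have := ih (v + Δ π)
      rwa [sub_add_eq_sub_sub] at this

lemma kerK_add_le {t : ℝ≥0∞} (x y : ℕ) (ht : ∀ z, dens w Δ y z ≤ t) (v u : ℤ × ℤ) :
    kerK w Δ K (x + y) v u ≤ survK w Δ K x v * t := by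
  classical
  induction x generalizing v with
  | zero =>
    rw [survK_zero, one_mul, zero_add]
    exact (kerK_le_dens K y v u).trans (ht _)
  | succ x ih =>
    have : x + 1 + y = (x + y) + 1 := by ring
    rw [this, kerK_succ, survK_succ, ← ENNReal.tsum_mul_right]
    refine ENNReal.tsum_le_tsum fun π => ?_
    rw [mul_assoc]
    gcongr
    split_ifs
    · simp
    · exact ih _

end Kill

section LastHit

variable {Blk : Type*} (w : Blk → ℝ≥0∞) (Δ : Blk → ℤ × ℤ) (O : Blk → Finset (ℤ × ℤ))
  (big : Blk → Prop)

/-- Killing at every hit. -/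
def hitK (π : Blk) (v : ℤ × ℤ) : Prop := v ∈ O π

/-- Killing at the hits of big blocks only. -/
def bigK (π : Blk) (v : ℤ × ℤ) : Prop := big π ∧ v ∈ O π

open Classical in
/-- Contribution of the last hit of a small block. -/
noncomputable def lastX (u : ℤ × ℤ) (m : ℕ) : ℝ≥0∞ :=
  ∑' π, w π * (if ¬ big π ∧ u ∈ O π then survK w Δ (hitK O) m (u + Δ π) else 0)

/-- The last hit decomposition. -/
lemma survK_lastHit (n : ℕ) (v : ℤ × ℤ) :
    survK w Δ (bigK O big) n v = survK w Δ (hitK O) n v +
      ∑ i ∈ Finset.range n, ∑' u, kerK w Δ (bigK O big) i v u * lastX w Δ O big u (n - 1 - i) := by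
  classical
  induction n generalizing v with
  | zero => simp [survK_zero]
  | succ n ih =>
    rw [Finset.sum_range_succ']
    have h0 : ∑' u, kerK w Δ (bigK O big) 0 v u * lastX w Δ O big u (n + 1 - 1 - 0) =
        lastX w Δ O big v n := by
      simp only [kerK]
      rw [tsum_eq_single v]
      · simp
      · intro u hu
        simp [hu]
    have h1 : ∀ i, ∑' u, kerK w Δ (bigK O big) (i + 1) v u * lastX w Δ O big u (n + 1 - 1 - (i + 1)) =
        ∑' π, w π * (if bigK O big π v then 0 else
          ∑' u, kerK w Δ (bigK O big) i (v + Δ π) u * lastX w Δ O big u (n - 1 - i)) := by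
      intro i
      have e : n + 1 - 1 - (i + 1) = n - 1 - i := by omega
      rw [e]
      simp only [kerK_succ]
      simp_rw [← ENNReal.tsum_mul_right]
      rw [ENNReal.tsum_comm]
      refine tsum_congr fun π => ?_
      by_cases hK : bigK O big π v
      · simp [hK]
      · simp only [hK, if_false]
        rw [← ENNReal.tsum_mul_left]
        refine tsum_congr fun u => ?_
        ring
    simp_rw [h1]
    rw [h0]
    have h2 : ∑ i ∈ Finset.range n, ∑' π, w π * (if bigK O big π v then 0 else
          ∑' u, kerK w Δ (bigK O big) i (v + Δ π) u * lastX w Δ O big u (n - 1 - i)) =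
        ∑' π, w π * (if bigK O big π v then 0 else ∑ i ∈ Finset.range n,
          ∑' u, kerK w Δ (bigK O big) i (v + Δ π) u * lastX w Δ O big u (n - 1 - i)) := by
      rw [← Summable.tsum_finsetSum (fun _ _ => ENNReal.summable)]
      refine tsum_congr fun π => ?_
      rw [← Finset.mul_sum]
      congr 1
      split_ifs
      · simp
      · rfl
    have key : ∀ π, w π * (if bigK O big π v then 0 else survK w Δ (bigK O big) n (v + Δ π)) =
        w π * (if hitK O π v then 0 else survK w Δ (hitK O) n (v + Δ π)) +
        (w π * (if ¬ big π ∧ v ∈ O π then survK w Δ (hitK O) n (v + Δ π) else 0) +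
         w π * (if bigK O big π v then 0 else ∑ i ∈ Finset.range n,
          ∑' u, kerK w Δ (bigK O big) i (v + Δ π) u * lastX w Δ O big u (n - 1 - i))) := by
      intro π
      rw [← mul_add, ← mul_add]
      congr 1
      by_cases hb : big π <;> by_cases hv : v ∈ O π <;> simp [bigK, hitK, hb, hv, ih (v + Δ π)]
    rw [h2, survK_succ, survK_succ, lastX]
    simp_rw [key]
    rw [ENNReal.tsum_add, ENNReal.tsum_add]
    ac_rfl

end LastHit

end Vale.Agent.Lib.P147
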