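import Vale.Agent.Lib.P147.ChainKill

/-!
# The killed chain: comparison of survival from different starting points
-/

open scoped ENNReal

namespace Vale.Agent.Lib.P147

section Reach

variable {Blk : Type*} {w : Blk → ℝ≥0∞} {Δ : Blk → ℤ × ℤ} {O : Blk → Finset (ℤ × ℤ)}

/-- The origin of the comparison. -/
def D00 : ℤ × ℤ := (1, 0)

/-- A block that moves by `e` and has obstacles only at `0` and `-e`. -/
def HasForce (w : Blk → ℝ≥0∞) (Δ : Blk → ℤ × ℤ) (O : Blk → Finset (ℤ × ℤ)) (e : ℤ × ℤ) : Prop :=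
  ∃ π, Δ π = e ∧ w π ≠ 0 ∧ ∀ u ∈ O π, u = 0 ∨ u = -e

/-- Survival from `v` is controlled by survival from the base point. -/
def Reach (w : Blk → ℝ≥0∞) (Δ : Blk → ℤ × ℤ) (O : Blk → Finset (ℤ × ℤ)) (v : ℤ × ℤ) : Prop :=
  ∃ C : ℝ≥0∞, C ≠ ⊤ ∧ ∃ ℓ : ℕ, ∀ m, survK w Δ (hitK O) m v ≤ C * survK w Δ (hitK O) (m + ℓ) D00

lemma reach_base : Reach w Δ O D00 := ⟨1, by simp, 0, fun m => by simp⟩

lemma reach_step (hw : ∑' π, w π = 1) {e u : ℤ × ℤ} (hf : HasForce w Δ O e) (hu : u ≠ 0)
    (hue : u + e ≠ 0) (h : Reach w Δ O u) : Reach w Δ O (u + e) := by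
  classical
  obtain ⟨π, h1, h2, h3⟩ := hf
  obtain ⟨C, hC, ℓ, hℓ⟩ := h
  have hwtop : w π ≠ ⊤ := by
    have : w π ≤ 1 := by rw [← hw]; exact ENNReal.le_tsum π
    exact ne_top_of_le_ne_top (by simp) this
  refine ⟨(w π)⁻¹ * C, ENNReal.mul_ne_top (ENNReal.inv_ne_top.mpr h2) hC, ℓ + 1, fun m => ?_⟩
  have hnot : ¬ hitK O π u := by
    intro hmem
    rcases h3 u hmem with h0 | h0
    · exact hu h0
    · apply hue
      rw [h0]
      simp
  have hone : w π * survK w Δ (hitK O) m (u + e) ≤ survK w Δ (hitK O) (m + 1) u := by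
    rw [survK_succ]
    have := ENNReal.le_tsum (f := fun π' => w π' * (if hitK O π' u then 0 else
      survK w Δ (hitK O) m (u + Δ π'))) π
    simp only [hnot, if_false, h1] at this
    exact this
  have hmain : survK w Δ (hitK O) m (u + e) ≤ (w π)⁻¹ * survK w Δ (hitK O) (m + 1) u := by
    calc survK w Δ (hitK O) m (u + e)
        = (w π)⁻¹ * (w π * survK w Δ (hitK O) m (u + e)) := by
          rw [← mul_assoc, ENNReal.inv_mul_cancel h2 hwtop, one_mul]
      _ ≤ _ := by gcongr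
  calc survK w Δ (hitK O) m (u + e) ≤ (w π)⁻¹ * survK w Δ (hitK O) (m + 1) u := hmain
    _ ≤ (w π)⁻¹ * (C * survK w Δ (hitK O) (m + 1 + ℓ) D00) := by gcongr; exact hℓ _
    _ = (w π)⁻¹ * C * survK w Δ (hitK O) (m + (ℓ + 1)) D00 := by
      rw [mul_assoc]
      congr 3
      ring

/-- The punctured plane is connected for the unit moves. -/
lemma reach_all (hw : ∑' π, w π = 1) (hr : HasForce w Δ O (1, 0)) (hl : HasForce w Δ O (-1, 0))
    (hd : HasForce w Δ O (0, 1)) (hb : HasForce w Δ O (0, -1)) (v : ℤ × ℤ) (hv : v ≠ 0) :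
    Reach w Δ O v := by
  have ne1 : ∀ a b : ℤ, a ≠ 0 → ((a, b) : ℤ × ℤ) ≠ 0 := fun a b ha h => ha (congrArg Prod.fst h)
  have ne2 : ∀ a b : ℤ, b ≠ 0 → ((a, b) : ℤ × ℤ) ≠ 0 := fun a b hb h => hb (congrArg Prod.snd h)
  have addr : ∀ a b : ℤ, ((a, b) : ℤ × ℤ) + (1, 0) = (a + 1, b) := fun a b => by simp
  have addl : ∀ a b : ℤ, ((a, b) : ℤ × ℤ) + (-1, 0) = (a - 1, b) := fun a b => by
    ext <;> simp [sub_eq_add_neg]
  have addu : ∀ a b : ℤ, ((a, b) : ℤ × ℤ) + (0, 1) = (a, b + 1) := fun a b => by simp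
  have addd : ∀ a b : ℤ, ((a, b) : ℤ × ℤ) + (0, -1) = (a, b - 1) := fun a b => by
    ext <;> simp [sub_eq_add_neg]
  -- the line at height one
  have h11 : Reach w Δ O (1, 1) := by
    have := reach_step hw hd (u := (1, 0)) (ne1 _ _ one_ne_zero)
      (by rw [addu]; exact ne1 _ _ one_ne_zero) reach_base
    rwa [addu] at this
  have hline : ∀ a : ℤ, Reach w Δ O (a, 1) := by
    intro a
    have hp : ∀ n : ℕ, Reach w Δ O ((1 : ℤ) + n, 1) := by
      intro n
      induction n with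
      | zero => simpa using h11
      | succ n ih =>
        have := reach_step hw hr (u := ((1 : ℤ) + n, 1)) (ne2 _ _ one_ne_zero)
          (by rw [addr]; exact ne2 _ _ one_ne_zero) ih
        rw [addr] at this
        have e : (1 : ℤ) + ((n + 1 : ℕ) : ℤ) = 1 + n + 1 := by push_cast; ring
        rwa [e]
    have hm : ∀ n : ℕ, Reach w Δ O ((1 : ℤ) - n, 1) := by
      intro n
      induction n with
      | zero => simpa using h11
      | succ n ih =>
        have := reach_step hw hl (u := ((1 : ℤ) - n, 1)) (ne2 _ _ one_ne_zero)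
          (by rw [addl]; exact ne2 _ _ one_ne_zero) ih
        rw [addl] at this
        have e : (1 : ℤ) - ((n + 1 : ℕ) : ℤ) = 1 - n - 1 := by push_cast; ring
        rwa [e]
    by_cases ha : 1 ≤ a
    · have := hp (a - 1).toNat
      have e : (1 : ℤ) + ((a - 1).toNat : ℤ) = a := by omega
      rwa [e] at this
    · have := hm (1 - a).toNat
      have e : (1 : ℤ) - ((1 - a).toNat : ℤ) = a := by omega
      rwa [e] at this
  have hup : ∀ a b : ℤ, 1 ≤ b → Reach w Δ O (a, b) := by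
    intro a b hb1
    have hp : ∀ n : ℕ, Reach w Δ O (a, (1 : ℤ) + n) := by
      intro n
      induction n with
      | zero => simpa using hline a
      | succ n ih =>
        have := reach_step hw hd (u := (a, (1 : ℤ) + n)) (ne2 _ _ (by omega))
          (by rw [addu]; exact ne2 _ _ (by omega)) ih
        rw [addu] at this
        have e : (1 : ℤ) + ((n + 1 : ℕ) : ℤ) = 1 + n + 1 := by push_cast; ring
        rwa [e]
    have := hp (b - 1).toNat
    have e : (1 : ℤ) + ((b - 1).toNat : ℤ) = b := by omega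
    rwa [e] at this
  have haxis : ∀ a : ℤ, a ≠ 0 → Reach w Δ O (a, 0) := by
    intro a ha
    have := reach_step hw hb (u := (a, 1)) (ne2 _ _ one_ne_zero)
      (by rw [addd]; exact ne1 _ _ ha) (hline a)
    rw [addd] at this
    simpa using this
  have hdown : ∀ a b : ℤ, a ≠ 0 → b ≤ 0 → Reach w Δ O (a, b) := by
    intro a b ha hb0
    have hp : ∀ n : ℕ, Reach w Δ O (a, -(n : ℤ)) := by
      intro n
      induction n with
      | zero => simpa using haxis a ha
      | succ n ih =>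
        have := reach_step hw hb (u := (a, -(n : ℤ))) (ne1 _ _ ha)
          (by rw [addd]; exact ne1 _ _ ha) ih
        rw [addd] at this
        have e : -((n + 1 : ℕ) : ℤ) = -(n : ℤ) - 1 := by push_cast; ring
        rwa [e]
    have := hp (-b).toNat
    have e : -(((-b).toNat : ℕ) : ℤ) = b := by omega
    rwa [e] at this
  obtain ⟨a, b⟩ := v
  by_cases hb1 : 1 ≤ b
  · exact hup a b hb1
  by_cases ha : a = 0
  · subst ha
    have hb0 : b ≠ 0 := fun h => hv (by rw [h]; rfl)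
    have := reach_step hw hl (u := (1, b)) (ne1 _ _ one_ne_zero)
      (by rw [addl]; exact ne2 _ _ hb0) (hdown 1 b one_ne_zero (by omega))
    rw [addl] at this
    simpa using this
  · exact hdown a b ha (by omega)

/-- Uniform comparison on a finite box. -/
lemma reach_box (hw : ∑' π, w π = 1) (hr : HasForce w Δ O (1, 0)) (hl : HasForce w Δ O (-1, 0))
    (hd : HasForce w Δ O (0, 1)) (hb : HasForce w Δ O (0, -1)) (box : Finset (ℤ × ℤ)) :
    ∃ C : ℝ≥0∞, C ≠ ⊤ ∧ ∀ v ∈ box, v ≠ 0 → ∀ m,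
      survK w Δ (hitK O) m v ≤ C * survK w Δ (hitK O) m D00 := by
  classical
  have h : ∀ v : ℤ × ℤ, ∃ C : ℝ≥0∞, C ≠ ⊤ ∧ (v ≠ 0 → ∀ m,
      survK w Δ (hitK O) m v ≤ C * survK w Δ (hitK O) m D00) := by
    intro v
    by_cases hv : v = 0
    · exact ⟨0, by simp, fun h => absurd hv h⟩
    · obtain ⟨C, hC, ℓ, hℓ⟩ := reach_all hw hr hl hd hb v hv
      refine ⟨C, hC, fun _ m => (hℓ m).trans ?_⟩
      gcongr
      exact survK_antitone _ hw _ (Nat.le_add_right m ℓ)
  choose C hC hCv using h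
  refine ⟨∑ v ∈ box, C v, ?_, ?_⟩
  · exact ENNReal.sum_ne_top.mpr fun v _ => hC v
  · intro v hv hv0 m
    refine (hCv v hv0 m).trans ?_
    gcongr
    exact Finset.single_le_sum (f := C) (fun _ _ => zero_le) hv

end Reach

end Vale.Agent.Lib.P147
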