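import Mathlib

/-!
# Abstract monotone-flow zero-one law

An abstract walker on a countable abelian group `V` driven by an iid environment `q : V → A`
and iid noise `ξ : ℕ → Ξ`, whose increments at the same noise value differ by `0` or `±w`.
-/

open MeasureTheory ProbabilityTheory Filter Set
open scoped symmDiff ENNReal

namespace Vale.Agent.Lib.P147

section Walk

variable {V A Ξ : Type*} [AddCommGroup V]

/-- The walker started at `x`, in environment `q`, with noise `ξ`. -/
def walk (inc : A → Ξ → V) (q : V → A) (ξ : ℕ → Ξ) (x : V) : ℕ → V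
  | 0 => x
  | n + 1 => walk inc q ξ x n + inc (q (walk inc q ξ x n)) (ξ n)

variable (inc : A → Ξ → V) (q : V → A) (ξ : ℕ → Ξ) (x : V)

@[simp] lemma walk_zero : walk inc q ξ x 0 = x := rfl

lemma walk_succ (n : ℕ) :
    walk inc q ξ x (n + 1) = walk inc q ξ x n + inc (q (walk inc q ξ x n)) (ξ n) := rfl

/-- Cocycle property. -/
lemma walk_add (n m : ℕ) :
    walk inc q ξ x (n + m) = walk inc q (fun i => ξ (i + n)) (walk inc q ξ x n) m := by
  induction m with
  | zero => rfl
  | succ m ih =>
    rw [← Nat.add_assoc, walk_succ, walk_succ, ih, Nat.add_comm n m]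

/-- Translation covariance. -/
lemma walk_translate (z : V) (n : ℕ) :
    walk inc (fun y => q (y + z)) ξ x n + z = walk inc q ξ (x + z) n := by
  induction n with
  | zero => rfl
  | succ n ih =>
    rw [walk_succ, walk_succ, ← ih]
    abel

/-- Order preservation along `w`. -/
lemma walk_order {w : V} (hinc : ∀ a a' u, inc a u - inc a' u = 0 ∨ inc a u - inc a' u = w ∨
    inc a u - inc a' u = -w) (k : ℕ) (n : ℕ) :
    ∃ j : ℕ, walk inc q ξ (x + k • w) n = walk inc q ξ x n + j • w := by
  induction n with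
  | zero => exact ⟨k, rfl⟩
  | succ n ih =>
    obtain ⟨j, hj⟩ := ih
    rw [walk_succ, walk_succ, hj]
    rcases Nat.eq_zero_or_pos j with rfl | hjpos
    · exact ⟨0, by simp⟩
    · set a := q (walk inc q ξ x n + j • w)
      set a' := q (walk inc q ξ x n)
      set u := ξ n
      rcases hinc a a' u with h | h | h
      · refine ⟨j, ?_⟩
        have : inc a u = inc a' u := sub_eq_zero.mp h
        rw [this]; abel
      · refine ⟨j + 1, ?_⟩
        have : inc a u = inc a' u + w := by rw [← h]; abel
        rw [this, add_smul, one_smul]; abel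
      · obtain ⟨i, rfl⟩ : ∃ i, j = i + 1 := ⟨j - 1, by omega⟩
        refine ⟨i, ?_⟩
        have : inc a u = inc a' u - w := by rw [sub_eq_add_neg, ← h]; abel
        rw [this, add_smul, one_smul]; abel

end Walk

section Measurable

variable {V A Ξ : Type*} [AddCommGroup V] [Countable V] [MeasurableSpace V]
  [MeasurableSingletonClass V] [MeasurableSpace A] [MeasurableSpace Ξ]
  {inc : A → Ξ → V}

lemma measurable_walk (hinc : Measurable (Function.uncurry inc)) (x : V) (n : ℕ) :
    Measurable (fun s : (ℕ → Ξ) × (V → A) => walk inc s.2 s.1 x n) := by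
  induction n with
  | zero => exact measurable_const
  | succ n ih =>
    refine measurable_to_countable' fun z => ?_
    have : (fun s : (ℕ → Ξ) × (V → A) => walk inc s.2 s.1 x (n + 1)) ⁻¹' {z} =
        ⋃ y : V, ((fun s : (ℕ → Ξ) × (V → A) => walk inc s.2 s.1 x n) ⁻¹' {y} ∩
          {s | y + inc (s.2 y) (s.1 n) = z}) := by
      ext s
      simp only [mem_preimage, mem_singleton_iff, mem_iUnion, mem_inter_iff, Set.mem_ofPred_eq,
        walk_succ, exists_eq_left']
    rw [this]
    refine MeasurableSet.iUnion fun y => (ih (measurableSet_singleton y)).inter ?_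
    have hm : Measurable (fun s : (ℕ → Ξ) × (V → A) => y + inc (s.2 y) (s.1 n)) := by
      have h0 : Measurable (fun s : (ℕ → Ξ) × (V → A) => (s.2 y, s.1 n)) :=
        ((measurable_pi_apply y).comp measurable_snd).prodMk
          ((measurable_pi_apply n).comp measurable_fst)
      have h1 : Measurable (fun s : (ℕ → Ξ) × (V → A) => inc (s.2 y) (s.1 n)) := hinc.comp h0
      exact (measurable_of_countable (fun v : V => y + v)).comp h1
    exact hm (measurableSet_singleton z)

end Measurable

section Ergodic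

set_option linter.unusedSectionVars false

variable {V A : Type*} [AddCommGroup V] [Countable V] [MeasurableSpace A]

/-- Translation of the environment. -/
def shiftEnv (z : V) (q : V → A) : V → A := fun y => q (y + z)

lemma measurable_shiftEnv (z : V) : Measurable (shiftEnv z : (V → A) → V → A) :=
  measurable_pi_lambda _ fun y => measurable_pi_apply (y + z)

lemma map_shiftEnv (ν : Measure A) [IsProbabilityMeasure ν] (z : V) :
    (Measure.infinitePi (fun _ : V => ν)).map (shiftEnv z) = Measure.infinitePi (fun _ : V => ν) :=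
  Measure.map_infinitePi_infinitePi_of_inj (f := fun y : V => y + z) (add_left_injective z)

lemma measurePreserving_shiftEnv (ν : Measure A) [IsProbabilityMeasure ν] (z : V) :
    MeasurePreserving (shiftEnv z : (V → A) → V → A) (Measure.infinitePi (fun _ : V => ν))
      (Measure.infinitePi (fun _ : V => ν)) :=
  ⟨measurable_shiftEnv z, map_shiftEnv ν z⟩

lemma shiftEnv_add (z z' : V) (q : V → A) :
    shiftEnv z (shiftEnv z' q) = shiftEnv (z + z') q := by
  funext y
  simp only [shiftEnv]
  congr 1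
  abel

/-- Independence of a cylinder and a far translate of it. -/
lemma indep_cylinder_shift (ν : Measure A) [IsProbabilityMeasure ν] (S : Finset V)
    (T : Set (∀ i : S, A)) (hT : MeasurableSet T) (z : V) (hz : ∀ a ∈ S, a + z ∉ S) :
    (Measure.infinitePi (fun _ : V => ν)) (cylinder S T ∩ (shiftEnv z) ⁻¹' (cylinder S T)) =
      (Measure.infinitePi (fun _ : V => ν)) (cylinder S T) *
      (Measure.infinitePi (fun _ : V => ν)) ((shiftEnv z) ⁻¹' (cylinder S T)) := by
  classical
  set P := Measure.infinitePi (fun _ : V => ν)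
  let S' : Finset V := S.image (fun a => a + z)
  have hdisj : Disjoint S S' := by
    rw [Finset.disjoint_left]
    intro a ha ha'
    obtain ⟨b, hb, rfl⟩ := Finset.mem_image.mp ha'
    exact hz b hb ha
  have hind : iIndepFun (fun (i : V) (q : V → A) => q i) P :=
    iIndepFun_infinitePi (P := fun _ : V => ν) (X := fun _ a => a) (fun _ => measurable_id)
  have h2 := hind.indepFun_finset S S' hdisj (fun i => measurable_pi_apply i)
  have hmem : ∀ a : S, a.1 + z ∈ S' := fun a => Finset.mem_image_of_mem _ a.2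
  let φ : (∀ i : S', A) → (∀ i : S, A) := fun g a => g ⟨a.1 + z, hmem a⟩
  have hφ : Measurable φ := measurable_pi_lambda _ fun a => measurable_pi_apply _
  have h3 := h2.measure_inter_preimage_eq_mul T (φ ⁻¹' T) hT (hφ hT)
  exact h3

/-- Zero-one law for translation invariant events of an iid field. -/
lemma zero_or_one_of_shift_invariant [MeasurableSpace V] (ν : Measure A) [IsProbabilityMeasure ν]
    (δ : V) (hδ : Function.Injective (fun k : ℕ => k • δ)) (B : Set (V → A))
    (hB : MeasurableSet B)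
    (hinv : (Measure.infinitePi (fun _ : V => ν)) ((shiftEnv δ ⁻¹' B) ∆ B) = 0) :
    (Measure.infinitePi (fun _ : V => ν)) B = 0 ∨ (Measure.infinitePi (fun _ : V => ν)) B = 1 := by
  classical
  set P := Measure.infinitePi (fun _ : V => ν) with hP
  have hmp : ∀ z : V, MeasurePreserving (shiftEnv z : (V → A) → V → A) P P :=
    measurePreserving_shiftEnv ν
  -- invariance under all multiples
  have hinvk : ∀ k : ℕ, P ((shiftEnv (k • δ) ⁻¹' B) ∆ B) = 0 := by
    intro k
    induction k with
    | zero =>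
      have : (shiftEnv ((0 : ℕ) • δ) : (V → A) → V → A) = id := by
        funext q y; simp [shiftEnv]
      rw [this, Set.preimage_id]
      simp
    | succ k ih =>
      have h1 : shiftEnv ((k + 1) • δ) ⁻¹' B = shiftEnv (k • δ) ⁻¹' (shiftEnv δ ⁻¹' B) := by
        ext q
        simp only [mem_preimage, shiftEnv_add]
        have : (k + 1) • δ = k • δ + δ := by rw [add_smul, one_smul]
        rw [this, add_comm (k • δ) δ]
      have h2 : P ((shiftEnv (k • δ) ⁻¹' (shiftEnv δ ⁻¹' B)) ∆ (shiftEnv (k • δ) ⁻¹' B)) = 0 := by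
        have : (shiftEnv (k • δ) ⁻¹' (shiftEnv δ ⁻¹' B)) ∆ (shiftEnv (k • δ) ⁻¹' B) =
            shiftEnv (k • δ) ⁻¹' ((shiftEnv δ ⁻¹' B) ∆ B) := by
          ext q; simp [symmDiff_def, Set.mem_union, Set.mem_sdiff]
        rw [this]
        exact (hmp _).quasiMeasurePreserving.preimage_null hinv
      rw [h1]
      refine le_antisymm ?_ zero_le
      calc P ((shiftEnv (k • δ) ⁻¹' (shiftEnv δ ⁻¹' B)) ∆ B)
          ≤ P ((shiftEnv (k • δ) ⁻¹' (shiftEnv δ ⁻¹' B)) ∆ (shiftEnv (k • δ) ⁻¹' B)) +
            P ((shiftEnv (k • δ) ⁻¹' B) ∆ B) := measure_symmDiff_le _ _ _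
        _ = 0 := by rw [h2, ih, add_zero]
  -- real valued statement
  have key : ∀ ε : ℝ, 0 < ε → |P.real B - P.real B ^ 2| ≤ 4 * ε := by
    intro ε hε
    obtain ⟨C, hC, hCε⟩ := exists_measure_symmDiff_lt_of_generateFrom_isSetRing
      (μ := P) (C := measurableCylinders (fun _ : V => A)) isSetRing_measurableCylinders
      ⟨{univ}, countable_singleton _, by
        simpa using univ_mem_measurableCylinders (fun _ : V => A), by simp⟩
      generateFrom_measurableCylinders.symm hB (ε := ENNReal.ofReal ε)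
      (ENNReal.ofReal_pos.mpr hε)
    have hCm : MeasurableSet C := MeasurableSet.of_mem_measurableCylinders hC
    have hCε' : P.real (C ∆ B) ≤ ε := by
      have := ENNReal.toReal_le_of_le_ofReal hε.le hCε.le
      simpa [Measure.real] using this
    obtain ⟨S, T, hT, rfl⟩ := (mem_measurableCylinders C).mp hC
    -- choose a far translate
    obtain ⟨k, hk⟩ : ∃ k : ℕ, ∀ a ∈ S, a + k • δ ∉ S := by
      by_contra hcon
      push Not at hcon
      have hfin : (⋃ a ∈ S, ⋃ b ∈ S, {k : ℕ | a + k • δ = b}).Finite := by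
        refine Set.Finite.biUnion S.finite_toSet fun a _ => Set.Finite.biUnion S.finite_toSet
          fun b _ => Set.Subsingleton.finite ?_
        intro k hk k' hk'
        apply hδ
        have h1 : a + k • δ = b := hk
        have h2 : a + k' • δ = b := hk'
        exact add_left_cancel (h1.trans h2.symm)
      obtain ⟨k, hk⟩ := hfin.exists_notMem
      obtain ⟨a, ha, ha'⟩ := hcon k
      exact hk (by
        simp only [mem_iUnion]
        exact ⟨a, ha, _, ha', rfl⟩)
    set C : Set (V → A) := cylinder S T with hCdef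
    have hind := indep_cylinder_shift ν S T hT (k • δ) hk
    rw [← hP] at hind
    set τ := shiftEnv (k • δ) (A := A)
    have hτm : Measurable τ := measurable_shiftEnv _
    have hmpτ : MeasurePreserving τ P P := hmp _
    have hBm' : MeasurableSet (τ ⁻¹' B) := hτm hB
    have hCm' : MeasurableSet (τ ⁻¹' C) := hτm hCm
    have hc' : P.real (τ ⁻¹' C) = P.real C := by
      simp only [Measure.real]
      rw [hmpτ.measure_preimage hCm.nullMeasurableSet]
    have hind' : P.real (C ∩ τ ⁻¹' C) = P.real C * P.real C := by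
      simp only [Measure.real] at hc' ⊢
      rw [hind, ENNReal.toReal_mul, hc']
    have hBB : P.real (B ∩ τ ⁻¹' B) = P.real B := by
      have h0 : (τ ⁻¹' B) =ᵐ[P] B := measure_symmDiff_eq_zero_iff.mp (hinvk k)
      have h1 : (B ∩ τ ⁻¹' B : Set (V → A)) =ᵐ[P] B := by
        filter_upwards [h0] with q hq
        simp only [eq_iff_iff] at hq ⊢
        exact ⟨fun h => h.1, fun h => ⟨h, hq.mpr h⟩⟩
      simp only [Measure.real]
      rw [measure_congr h1]
    have hsym' : P.real ((τ ⁻¹' C) ∆ (τ ⁻¹' B)) ≤ ε := by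
      have : (τ ⁻¹' C) ∆ (τ ⁻¹' B) = τ ⁻¹' (C ∆ B) := by
        ext q; simp [symmDiff_def, Set.mem_union, Set.mem_sdiff]
      rw [this]
      simp only [Measure.real] at hCε' ⊢
      rw [hmpτ.measure_preimage (hCm.symmDiff hB).nullMeasurableSet]
      exact hCε'
    have hdiff1 : |P.real C - P.real B| ≤ ε :=
      (abs_measureReal_sub_le_measureReal_symmDiff hCm.nullMeasurableSet hB.nullMeasurableSet).trans hCε'
    have hsub : (C ∩ τ ⁻¹' C) ∆ (B ∩ τ ⁻¹' B) ⊆ (C ∆ B) ∪ ((τ ⁻¹' C) ∆ (τ ⁻¹' B)) := by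
      intro q hq
      simp only [symmDiff_def, Set.mem_union, Set.mem_sdiff, Set.mem_inter_iff, Set.mem_preimage,
        Set.sup_eq_union] at hq ⊢
      tauto
    have hdiff2 : |P.real (C ∩ τ ⁻¹' C) - P.real (B ∩ τ ⁻¹' B)| ≤ 2 * ε := by
      refine (abs_measureReal_sub_le_measureReal_symmDiff (hCm.inter hCm').nullMeasurableSet
        (hB.inter hBm').nullMeasurableSet).trans ?_
      refine (measureReal_mono hsub (by finiteness)).trans ?_
      refine (measureReal_union_le _ _).trans ?_
      linarith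
    rw [hind', hBB] at hdiff2
    set p := P.real B
    set c := P.real C
    have hp0 : 0 ≤ p := measureReal_nonneg
    have hp1 : p ≤ 1 := measureReal_le_one
    have hc0 : 0 ≤ c := measureReal_nonneg
    have hc1 : c ≤ 1 := measureReal_le_one
    have h3 : |c * c - p ^ 2| ≤ 2 * ε := by
      have : c * c - p ^ 2 = (c - p) * (c + p) := by ring
      rw [this, abs_mul, abs_of_nonneg (add_nonneg hc0 hp0)]
      have h4 : c + p ≤ 2 := by linarith
      calc |c - p| * (c + p) ≤ ε * 2 := mul_le_mul hdiff1 h4 (add_nonneg hc0 hp0) hε.le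
        _ = 2 * ε := by ring
    calc |p - p ^ 2| = |(p - c * c) + (c * c - p ^ 2)| := by ring_nf
      _ ≤ |p - c * c| + |c * c - p ^ 2| := abs_add_le _ _
      _ ≤ 2 * ε + 2 * ε := by
          refine add_le_add ?_ h3
          rw [abs_sub_comm]; exact hdiff2
      _ = 4 * ε := by ring
  have hzero : P.real B - P.real B ^ 2 = 0 := by
    by_contra hne
    have hpos := abs_pos.mpr hne
    have := key (|P.real B - P.real B ^ 2| / 8) (by positivity)
    linarith
  have hfac : P.real B * (1 - P.real B) = 0 := by nlinarith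
  rcases mul_eq_zero.mp hfac with h | h
  · left
    have := (measureReal_eq_zero_iff (by finiteness)).mp h
    exact this
  · right
    have h1 : P.real B = 1 := by linarith
    simp only [Measure.real] at h1
    rw [ENNReal.toReal_eq_one_iff] at h1
    exact h1

end Ergodic

section Main

set_option linter.unusedSectionVars false

variable {V A Ξ : Type*} [AddCommGroup V] [Countable V] [MeasurableSpace V]
  [MeasurableSingletonClass V] [MeasurableSpace A] [MeasurableSpace Ξ]

/-- Time shift of the noise. -/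
def shiftNoise (n : ℕ) (ξ : ℕ → Ξ) : ℕ → Ξ := fun i => ξ (i + n)

lemma measurable_shiftNoise (n : ℕ) : Measurable (shiftNoise n : (ℕ → Ξ) → ℕ → Ξ) :=
  measurable_pi_lambda _ fun i => measurable_pi_apply (i + n)

lemma measurePreserving_shiftNoise (ρ : Measure Ξ) [IsProbabilityMeasure ρ] (n : ℕ) :
    MeasurePreserving (shiftNoise n : (ℕ → Ξ) → ℕ → Ξ) (Measure.infinitePi (fun _ : ℕ => ρ))
      (Measure.infinitePi (fun _ : ℕ => ρ)) :=
  ⟨measurable_shiftNoise n,
    Measure.map_infinitePi_infinitePi_of_inj (f := fun i : ℕ => i + n) (add_left_injective n)⟩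

/-- The escape event for the walker started at `x`. -/
def Esc (inc : A → Ξ → V) (L : V →+ ℝ) (x : V) : Set ((ℕ → Ξ) × (V → A)) :=
  {s | Tendsto (fun n => L (walk inc s.2 s.1 x n)) atTop atTop}

variable {inc : A → Ξ → V} {L : V →+ ℝ}

lemma measurableSet_Esc (hincm : Measurable (Function.uncurry inc)) (x : V) :
    MeasurableSet (Esc inc L x) := by
  refine measurableSet_tendsto (atTop : Filter ℝ) fun n => ?_
  exact (measurable_of_countable (fun v : V => L v)).comp (measurable_walk hincm x n)

lemma mem_Esc_add_iff (x z : V) (s : (ℕ → Ξ) × (V → A)) :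
    s ∈ Esc inc L (x + z) ↔ (s.1, shiftEnv z s.2) ∈ Esc inc L x := by
  simp only [Esc, Set.mem_ofPred_eq]
  have : ∀ n, L (walk inc s.2 s.1 (x + z) n) = L (walk inc (shiftEnv z s.2) s.1 x n) + L z := by
    intro n
    rw [← walk_translate inc s.2 s.1 x z n, map_add]
    rfl
  simp_rw [this]
  constructor
  · intro h
    have := tendsto_atTop_add_const_right atTop (-(L z)) h
    simpa using this
  · exact tendsto_atTop_add_const_right atTop (L z)

lemma mem_Esc_shift_iff (x : V) (n : ℕ) (s : (ℕ → Ξ) × (V → A)) :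
    s ∈ Esc inc L x ↔ (shiftNoise n s.1, s.2) ∈ Esc inc L (walk inc s.2 s.1 x n) := by
  simp only [Esc, Set.mem_ofPred_eq]
  rw [← tendsto_add_atTop_iff_nat n]
  have : ∀ m, L (walk inc s.2 s.1 x (m + n)) =
      L (walk inc s.2 (shiftNoise n s.1) (walk inc s.2 s.1 x n) m) := by
    intro m
    rw [Nat.add_comm m n, walk_add]
    rfl
  simp_rw [this]

lemma Esc_subset_of_nonneg {w : V}
    (hinc : ∀ a a' u, inc a u - inc a' u = 0 ∨ inc a u - inc a' u = w ∨ inc a u - inc a' u = -w)
    (hL : 0 ≤ L w) (x : V) : Esc inc L x ⊆ Esc inc L (x + w) := by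
  intro s hs
  simp only [Esc, Set.mem_ofPred_eq] at hs ⊢
  refine tendsto_atTop_mono (fun n => ?_) hs
  obtain ⟨j, hj⟩ := walk_order inc s.2 s.1 x hinc 1 n
  rw [one_smul] at hj
  rw [hj, map_add, map_nsmul]
  have : 0 ≤ j • L w := nsmul_nonneg hL j
  linarith

lemma Esc_subset_of_nonpos {w : V}
    (hinc : ∀ a a' u, inc a u - inc a' u = 0 ∨ inc a u - inc a' u = w ∨ inc a u - inc a' u = -w)
    (hL : L w ≤ 0) (x : V) : Esc inc L (x + w) ⊆ Esc inc L x := by
  intro s hs
  simp only [Esc, Set.mem_ofPred_eq] at hs ⊢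
  refine tendsto_atTop_mono (fun n => ?_) hs
  obtain ⟨j, hj⟩ := walk_order inc s.2 s.1 x hinc 1 n
  rw [one_smul] at hj
  rw [hj, map_add, map_nsmul]
  have : j • L w ≤ 0 := nsmul_nonpos hL j
  linarith

variable (ν : Measure A) [IsProbabilityMeasure ν] (ρ : Measure Ξ) [IsProbabilityMeasure ρ]

/-- The joint law of the noise and of the environment. -/
noncomputable def jointLaw : Measure ((ℕ → Ξ) × (V → A)) :=
  (Measure.infinitePi (fun _ : ℕ => ρ)).prod (Measure.infinitePi (fun _ : V => ν))

instance : IsProbabilityMeasure (jointLaw (V := V) ν ρ) := by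
  unfold jointLaw; infer_instance

lemma measurePreserving_envShift (z : V) :
    MeasurePreserving (fun s : (ℕ → Ξ) × (V → A) => (s.1, shiftEnv z s.2))
      (jointLaw ν ρ) (jointLaw ν ρ) :=
  (MeasurePreserving.id _).prod (measurePreserving_shiftEnv ν z)

lemma measurePreserving_noiseShift (n : ℕ) :
    MeasurePreserving (fun s : (ℕ → Ξ) × (V → A) => (shiftNoise n s.1, s.2))
      (jointLaw ν ρ) (jointLaw ν ρ) :=
  (measurePreserving_shiftNoise ρ n).prod (MeasurePreserving.id _)

/-- The iid sequence tail zero-one law, for the tail set built from a measurable `D`. -/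
lemma tail_zero_or_one (D : Set (ℕ → Ξ)) (hD : MeasurableSet D) :
    (Measure.infinitePi (fun _ : ℕ => ρ)) {ξ | ∃ᶠ n in atTop, shiftNoise n ξ ∈ D} = 0 ∨
    (Measure.infinitePi (fun _ : ℕ => ρ)) {ξ | ∃ᶠ n in atTop, shiftNoise n ξ ∈ D} = 1 := by
  set R := Measure.infinitePi (fun _ : ℕ => ρ)
  let s : ℕ → MeasurableSpace (ℕ → Ξ) := fun n =>
    MeasurableSpace.comap (fun ξ : ℕ → Ξ => ξ n) inferInstance
  have h_le : ∀ n, s n ≤ MeasurableSpace.pi := fun n =>
    (measurable_pi_apply n).comap_le
  have h_indep : iIndep s R := by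
    have := iIndepFun_infinitePi (P := fun _ : ℕ => ρ) (X := fun _ a => a)
      (fun _ => measurable_id)
    exact this
  refine measure_zero_or_one_of_measurableSet_limsup_atTop h_le h_indep ?_
  rw [limsup_eq_iInf_iSup_of_nat]
  refine MeasurableSpace.measurableSet_iInf.mpr fun i => ?_
  set mi : MeasurableSpace (ℕ → Ξ) := ⨆ j, ⨆ (_ : j ≥ i), s j
  have hshift : ∀ n, i ≤ n → MeasurableSet[mi] {ξ : ℕ → Ξ | shiftNoise n ξ ∈ D} := by
    intro n hn
    have hmeas : @Measurable _ _ mi MeasurableSpace.pi (shiftNoise n : (ℕ → Ξ) → ℕ → Ξ) := by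
      refine @measurable_pi_lambda _ _ _ mi _ _ fun k => ?_
      have h1 : s (k + n) ≤ mi := by
        refine le_iSup_of_le (k + n) (le_iSup_of_le (by omega) le_rfl)
      exact (comap_measurable (fun ξ : ℕ → Ξ => ξ (k + n))).mono h1 le_rfl
    exact hmeas hD
  have heq : {ξ | ∃ᶠ n in atTop, shiftNoise n ξ ∈ D} =
      ⋂ m : ℕ, ⋃ n : ℕ, ⋃ (_ : m + i ≤ n), {ξ : ℕ → Ξ | shiftNoise n ξ ∈ D} := by
    ext ξ
    simp only [Set.mem_ofPred_eq, Filter.frequently_atTop, Set.mem_iInter, Set.mem_iUnion,
      exists_prop]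
    constructor
    · intro h m; exact h (m + i)
    · intro h m
      obtain ⟨n, hn, hD'⟩ := h m
      exact ⟨n, by omega, hD'⟩
  rw [heq]
  refine MeasurableSet.iInter fun m => MeasurableSet.iUnion fun n => MeasurableSet.iUnion fun h => ?_
  exact hshift n (by omega)

/-- **Abstract theorem.** A walker driven by iid environment and iid noise whose increments for
the same noise value differ by `0` or `±w` (with `w` of infinite order) satisfies a zero-one law
for directional escape. -/
theorem escape_zero_or_one (hincm : Measurable (Function.uncurry inc)) {w : V}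
    (hw : Function.Injective (fun k : ℕ => k • w))
    (hinc : ∀ a a' u, inc a u - inc a' u = 0 ∨ inc a u - inc a' u = w ∨ inc a u - inc a' u = -w) :
    jointLaw ν ρ (Esc inc L 0) = 0 ∨ jointLaw ν ρ (Esc inc L 0) = 1 := by
  classical
  set M := jointLaw (V := V) ν ρ with hM
  set Nz := Measure.infinitePi (fun _ : ℕ => ρ) with hNz
  set P := Measure.infinitePi (fun _ : V => ν) with hP
  have hEm : ∀ x, MeasurableSet (Esc inc L x) := measurableSet_Esc hincm
  -- translation invariance of the measure of the escape event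
  have hsec : ∀ (x z : V), (fun s : (ℕ → Ξ) × (V → A) => (s.1, shiftEnv z s.2)) ⁻¹' Esc inc L x =
      Esc inc L (x + z) := by
    intro x z; ext s; exact (mem_Esc_add_iff x z s).symm
  have hmeas_eq : ∀ x z, M (Esc inc L (x + z)) = M (Esc inc L x) := by
    intro x z
    rw [← hsec, (measurePreserving_envShift ν ρ z).measure_preimage (hEm x).nullMeasurableSet]
  -- the events for `x` and `x + w` agree almost surely
  have hae : ∀ x, M ((Esc inc L x) ∆ (Esc inc L (x + w))) = 0 := by
    intro x
    rcases le_total 0 (L w) with hLw | hLw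
    · have hsub := Esc_subset_of_nonneg hinc hLw x
      have h1 : Esc inc L x =ᵐ[M] Esc inc L (x + w) :=
        ae_eq_of_subset_of_measure_ge hsub (hmeas_eq x w).le (hEm _).nullMeasurableSet
          (measure_ne_top _ _)
      exact measure_symmDiff_eq_zero_iff.mpr h1
    · have hsub := Esc_subset_of_nonpos hinc hLw x
      have h1 : Esc inc L (x + w) =ᵐ[M] Esc inc L x :=
        ae_eq_of_subset_of_measure_ge hsub (hmeas_eq x w).ge (hEm _).nullMeasurableSet
          (measure_ne_top _ _)
      exact measure_symmDiff_eq_zero_iff.mpr h1.symm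
  -- sections
  let B : (ℕ → Ξ) → Set (V → A) := fun ξ => Prod.mk ξ ⁻¹' Esc inc L 0
  have hBm : ∀ ξ, MeasurableSet (B ξ) := fun ξ => measurable_prodMk_left (hEm 0)
  have hBshift : ∀ ξ, Prod.mk ξ ⁻¹' Esc inc L (0 + w) = shiftEnv w ⁻¹' B ξ := by
    intro ξ; ext q; exact mem_Esc_add_iff 0 w (ξ, q)
  have hA : ∀ᵐ ξ ∂Nz, P (B ξ) = 0 ∨ P (B ξ) = 1 := by
    have h0 := hae 0
    have h1 := Measure.measure_ae_null_of_prod_null (μ := Nz) (ν := P) h0
    filter_upwards [h1] with ξ hξ
    apply zero_or_one_of_shift_invariant ν w hw (B ξ) (hBm ξ)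
    rw [← hP, ← hBshift]
    have : (B ξ) ∆ (Prod.mk ξ ⁻¹' Esc inc L (0 + w)) =
        Prod.mk ξ ⁻¹' ((Esc inc L 0) ∆ (Esc inc L (0 + w))) := by
      ext q; simp only [B, symmDiff_def, Set.mem_union, Set.mem_sdiff, Set.mem_preimage,
        Set.sup_eq_union]
    rw [symmDiff_comm, this]
    exact hξ
  -- the set of noises with probability one
  let D : Set (ℕ → Ξ) := {ξ | P (B ξ) = 1}
  have hDm : MeasurableSet D :=
    (measurable_measure_prodMk_left (hEm 0)) (measurableSet_singleton (1 : ℝ≥0∞))
  -- almost surely, the escape event at `0` is determined by `D`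
  have hG0 : ∀ᵐ s ∂M, s ∈ Esc inc L 0 ↔ s.1 ∈ D := by
    have hmeasG : MeasurableSet {s : (ℕ → Ξ) × (V → A) | ¬ (s ∈ Esc inc L 0 ↔ s.1 ∈ D)} := by
      have hD' : MeasurableSet ((fun s : (ℕ → Ξ) × (V → A) => s.1) ⁻¹' D) := measurable_fst hDm
      have : {s : (ℕ → Ξ) × (V → A) | ¬ (s ∈ Esc inc L 0 ↔ s.1 ∈ D)} =
          (Esc inc L 0) ∆ ((fun s : (ℕ → Ξ) × (V → A) => s.1) ⁻¹' D) := by
        ext s
        simp only [symmDiff_def, Set.mem_union, Set.mem_sdiff, Set.mem_preimage,
          Set.sup_eq_union, Set.mem_ofPred_eq]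
        tauto
      rw [this]
      exact (hEm 0).symmDiff hD'
    rw [ae_iff]
    refine Measure.measure_prod_null_of_ae_null hmeasG ?_
    filter_upwards [hA] with ξ hξ
    by_cases hξD : ξ ∈ D
    · have h1 : Prod.mk ξ ⁻¹' {s : (ℕ → Ξ) × (V → A) | ¬ (s ∈ Esc inc L 0 ↔ s.1 ∈ D)} = (B ξ)ᶜ := by
        ext q
        simp only [Set.mem_preimage, Set.mem_ofPred_eq, Set.mem_compl_iff, B]
        tauto
      simp only [Pi.zero_apply]
      rw [h1, prob_compl_eq_zero_iff (hBm ξ)]
      exact hξD
    · have h1 : Prod.mk ξ ⁻¹' {s : (ℕ → Ξ) × (V → A) | ¬ (s ∈ Esc inc L 0 ↔ s.1 ∈ D)} = B ξ := by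
        ext q
        simp only [Set.mem_preimage, Set.mem_ofPred_eq, B]
        tauto
      simp only [Pi.zero_apply]
      rw [h1]
      exact hξ.resolve_right hξD
  -- all starting points
  have hGz : ∀ z : V, ∀ᵐ s ∂M, s ∈ Esc inc L z ↔ s.1 ∈ D := by
    intro z
    have := (measurePreserving_envShift ν ρ z).quasiMeasurePreserving.ae hG0
    filter_upwards [this] with s hs
    have h2 := mem_Esc_add_iff (inc := inc) (L := L) 0 z s
    rw [zero_add] at h2
    rw [h2]
    exact hs
  have hGall : ∀ᵐ s ∂M, ∀ z : V, s ∈ Esc inc L z ↔ s.1 ∈ D := ae_all_iff.mpr hGz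
  -- all times
  have hGtime : ∀ n : ℕ, ∀ᵐ s ∂M, ∀ z : V, (shiftNoise n s.1, s.2) ∈ Esc inc L z ↔
      shiftNoise n s.1 ∈ D := fun n =>
    (measurePreserving_noiseShift ν ρ n).quasiMeasurePreserving.ae hGall
  have hGtimes : ∀ᵐ s ∂M, ∀ n : ℕ, ∀ z : V, (shiftNoise n s.1, s.2) ∈ Esc inc L z ↔
      shiftNoise n s.1 ∈ D := ae_all_iff.mpr hGtime
  -- the tail event
  let Dt : Set (ℕ → Ξ) := {ξ | ∃ᶠ n in atTop, shiftNoise n ξ ∈ D}
  have hDtm : MeasurableSet Dt := by
    have : Dt = ⋂ m : ℕ, ⋃ n : ℕ, ⋃ (_ : m ≤ n), {ξ : ℕ → Ξ | shiftNoise n ξ ∈ D} := by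
      ext ξ
      simp only [Dt, Set.mem_ofPred_eq, Filter.frequently_atTop, Set.mem_iInter, Set.mem_iUnion,
        exists_prop]
    rw [this]
    exact MeasurableSet.iInter fun m => MeasurableSet.iUnion fun n => MeasurableSet.iUnion fun _ =>
      (measurable_shiftNoise n) hDm
  have hEt : Esc inc L 0 =ᵐ[M] ((fun s : (ℕ → Ξ) × (V → A) => s.1) ⁻¹' Dt) := by
    filter_upwards [hGtimes] with s hs
    simp only [eq_iff_iff]
    have key : ∀ n, s ∈ Esc inc L 0 ↔ shiftNoise n s.1 ∈ D := by
      intro n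
      rw [mem_Esc_shift_iff (inc := inc) (L := L) 0 n s]
      exact hs n _
    constructor
    · intro h
      exact Filter.Frequently.of_forall fun n => (key n).mp h
    · intro h
      obtain ⟨n, hn⟩ := h.exists
      exact (key n).mpr hn
  have hval : M (Esc inc L 0) = Nz Dt := by
    rw [measure_congr hEt]
    have : (fun s : (ℕ → Ξ) × (V → A) => s.1) ⁻¹' Dt = Dt ×ˢ (univ : Set (V → A)) := by
      ext s; simp
    rw [this, hM, jointLaw, Measure.prod_prod, measure_univ, mul_one]
  rw [hval]
  exact tail_zero_or_one ρ D hDm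

end Main

end Vale.Agent.Lib.P147
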