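import Vale.Agent.Lib.P147.FluxCore
import Vale.Agent.Lib.P147.Apply

/-!
# The flux inequality for the annealed law of the walk
-/

open MeasureTheory ProbabilityTheory Filter Set
open scoped symmDiff ENNReal

namespace Vale.Agent.Lib.P147

variable {d : ℕ}

section Pick

/-- Inverse distribution function selection of a step along a list of steps. -/
noncomputable def pick (p : Row d) : List (Step d) → ℝ → Site d
  | [], _ => 0
  | e :: l, u => if u < p.1 e then stepVec e else pick p l (u - p.1 e)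

lemma measurable_pick (l : List (Step d)) :
    Measurable (fun s : Row d × ℝ => pick s.1 l s.2) := by
  induction l with
  | nil => exact measurable_const
  | cons e l ih =>
    have hset : MeasurableSet {s : Row d × ℝ | s.2 < s.1.1 e} :=
      measurableSet_lt measurable_snd ((measurable_row_apply e).comp measurable_fst)
    have h2 : Measurable (fun s : Row d × ℝ => (s.1, s.2 - s.1.1 e)) :=
      measurable_fst.prodMk (measurable_snd.sub ((measurable_row_apply e).comp measurable_fst))
    exact Measurable.ite hset measurable_const (ih.comp h2)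

lemma stepVec_ne_zero (f : Step d) : stepVec f ≠ 0 := by
  intro h
  have := congrFun h f.1
  rw [stepVec_self] at this
  by_cases hb : f.2 = true <;> simp [hb] at this

lemma pick_mem (p : Row d) (f : Step d) :
    ∀ (l : List (Step d)) (u : ℝ), pick p l u = stepVec f → f ∈ l := by
  intro l
  induction l with
  | nil =>
    intro u h
    exact absurd h.symm (stepVec_ne_zero f)
  | cons e l ih =>
    intro u h
    simp only [pick] at h
    split_ifs at h with hu
    · rw [stepVec_injective h]
      exact List.mem_cons_self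
    · exact List.mem_cons_of_mem _ (ih _ h)

lemma pick_law (p : Row d) (f : Step d) :
    ∀ (l : List (Step d)), l.Nodup → f ∈ l → ∀ M : ℝ, (l.map p.1).sum ≤ M →
      volume (Set.Ico 0 M ∩ {u | pick p l u = stepVec f}) = ENNReal.ofReal (p.1 f) := by
  intro l
  induction l with
  | nil =>
    intro _ hf
    simp at hf
  | cons e l ih =>
    intro hnd hf M hM
    have hnd' := List.nodup_cons.mp hnd
    have hsum : p.1 e + (l.map p.1).sum ≤ M := by simpa using hM
    have hsum0 : 0 ≤ (l.map p.1).sum :=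
      List.sum_nonneg (by
        intro x hx
        obtain ⟨y, _, rfl⟩ := List.mem_map.mp hx
        exact row_nonneg p y)
    have he0 := row_nonneg p e
    rcases List.mem_cons.mp hf with rfl | hfl
    · -- the selected step is the head
      have : Set.Ico 0 M ∩ {u | pick p (f :: l) u = stepVec f} = Set.Ico 0 (p.1 f) := by
        ext u
        simp only [Set.mem_inter_iff, Set.mem_Ico, Set.mem_ofPred_eq, pick]
        constructor
        · rintro ⟨⟨h0, _⟩, h⟩
          split_ifs at h with hu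
          · exact ⟨h0, hu⟩
          · exact absurd (pick_mem p f l _ h) hnd'.1
        · rintro ⟨h0, hu⟩
          refine ⟨⟨h0, by linarith⟩, ?_⟩
          rw [if_pos hu]
      rw [this, Real.volume_Ico, sub_zero]
    · have hfe : f ≠ e := fun h => hnd'.1 (h ▸ hfl)
      have hset : Set.Ico 0 M ∩ {u | pick p (e :: l) u = stepVec f} =
          (fun u => u + (- p.1 e)) ⁻¹' (Set.Ico 0 (M - p.1 e) ∩ {v | pick p l v = stepVec f}) := by
        ext u
        simp only [Set.mem_inter_iff, Set.mem_Ico, Set.mem_ofPred_eq, Set.mem_preimage, pick,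
          ← sub_eq_add_neg]
        constructor
        · rintro ⟨⟨h0, h1⟩, h⟩
          split_ifs at h with hu
          · exact absurd (stepVec_injective h).symm hfe
          · exact ⟨⟨by linarith, by linarith⟩, h⟩
        · rintro ⟨⟨h0, h1⟩, h⟩
          have hu : ¬ u < p.1 e := by linarith
          refine ⟨⟨by linarith, by linarith⟩, ?_⟩
          rw [if_neg hu]
          exact h
      rw [hset, measure_preimage_add_right]
      exact ih hnd'.2 hfl _ (by linarith)

/-- The uniform law on `[0, 1)`. -/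
noncomputable def unif0 : Measure ℝ := volume.restrict (Set.Ico (0 : ℝ) 1)

instance : IsProbabilityMeasure unif0 := ⟨by simp [unif0]⟩

/-- The step taken from a site with row `p` when the noise is `u`. -/
noncomputable def inc0 (p : Row d) (u : ℝ) : Site d := pick p (Finset.univ : Finset (Step d)).toList u

lemma measurable_inc0 : Measurable (Function.uncurry (inc0 (d := d))) :=
  measurable_pick _

lemma measurableSet_inc0 (p : Row d) (v : Site d) : MeasurableSet {u | inc0 p u = v} := by
  have h1 : Measurable (fun u : ℝ => inc0 p u) :=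
    measurable_inc0.comp (measurable_const.prodMk measurable_id)
  exact h1 (measurableSet_singleton v)

lemma inc0_stepVec (p : Row d) (f : Step d) :
    unif0 {u | inc0 p u = stepVec f} = ENNReal.ofReal (p.1 f) := by
  rw [unif0, Measure.restrict_apply (measurableSet_inc0 p _), Set.inter_comm]
  refine pick_law p f _ (Finset.nodup_toList _) (by simp) 1 ?_
  rw [Finset.sum_map_toList, row_sum]

lemma inc0_other (p : Row d) (v : Site d) (hv : ∀ f : Step d, stepVec f ≠ v) :
    unif0 {u | inc0 p u = v} = 0 := by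
  classical
  have hunion : unif0 (⋃ f ∈ (Finset.univ : Finset (Step d)), {u | inc0 p u = stepVec f}) = 1 := by
    rw [measure_biUnion_finset]
    · simp_rw [inc0_stepVec]
      rw [← ENNReal.ofReal_sum_of_nonneg fun e _ => row_nonneg p e, row_sum]
      simp
    · intro f _ f' _ hne
      rw [Function.onFun, Set.disjoint_left]
      intro u h h'
      exact hne (stepVec_injective (h.symm.trans h'))
    · exact fun f _ => measurableSet_inc0 p _
  have hcompl := (prob_compl_eq_zero_iff
    (Finset.measurableSet_biUnion _ fun f _ => measurableSet_inc0 p (stepVec f))).mpr hunion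
  refine measure_mono_null ?_ hcompl
  intro u hu
  simp only [Set.mem_compl_iff, Set.mem_iUnion, not_exists, Set.mem_ofPred_eq] at hu ⊢
  intro f _ hf
  exact hv f (hf.symm.trans hu)

lemma inc0_eq (ω : Env d) (x y : Site d) :
    unif0 {u | inc0 (ω x) u = y - x} = ENNReal.ofReal (quenchedStep ω x y) := by
  classical
  unfold quenchedStep
  by_cases hf : ∃ f : Step d, stepVec f = y - x
  · obtain ⟨f, hf⟩ := hf
    rw [← hf, inc0_stepVec]
    congr 1
    rw [Finset.sum_eq_single f]
    · rw [if_pos]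
      rw [hf]; abel
    · intro e _ he
      rw [if_neg]
      intro h
      apply he
      apply stepVec_injective
      rw [hf, ← h]; abel
    · simp
  · push Not at hf
    have h1 : ∑ e : Step d, (if x + stepVec e = y then (ω x).1 e else 0) = 0 := by
      refine Finset.sum_eq_zero fun e _ => ?_
      rw [if_neg]
      intro h
      exact hf e (by rw [← h]; abel)
    rw [inc0_other _ _ hf, h1]
    simp

end Pick

section Transfer

variable {μ : Measure (Row d)} [IsProbabilityMeasure μ]

/-- The walker with the general noise. -/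
noncomputable def pathMap0 : (ℕ → ℝ) × (Site d → Row d) → (ℕ → Site d) :=
  fun s n => walk inc0 s.2 s.1 0 n

lemma measurable_pathMap0 : Measurable (pathMap0 (d := d)) :=
  measurable_pi_lambda _ fun n => measurable_walk measurable_inc0 0 n

lemma jointLaw0_cylinder (n : ℕ) (x : ℕ → Site d) (hx : x 0 = 0) :
    (jointLaw μ unif0).map pathMap0 {X | ∀ i ≤ n, X i = x i} =
      ∫⁻ ω, ∏ i ∈ Finset.range n, ENNReal.ofReal (quenchedStep ω (x i) (x (i + 1))) ∂(iidLaw μ) := by
  have hcyl : MeasurableSet {X : ℕ → Site d | ∀ i ≤ n, X i = x i} := by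
    have : {X : ℕ → Site d | ∀ i ≤ n, X i = x i} = ⋂ i ∈ Finset.range (n + 1), {X | X i = x i} := by
      ext X
      simp only [Set.mem_ofPred_eq, Set.mem_iInter, Finset.mem_range]
      exact ⟨fun h i hi => h i (by omega), fun h i hi => h i (by omega)⟩
    rw [this]
    exact Finset.measurableSet_biInter _ fun i _ => measurableSet_coord i (x i)
  rw [Measure.map_apply measurable_pathMap0 hcyl, jointLaw,
    Measure.prod_apply_symm (measurable_pathMap0 hcyl)]
  refine lintegral_congr fun q => ?_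
  have hset : (fun ξ : ℕ → ℝ => (ξ, q)) ⁻¹' (pathMap0 ⁻¹' {X | ∀ i ≤ n, X i = x i}) =
      Set.pi (Finset.range n : Set ℕ) (fun i => {u | inc0 (q (x i)) u = x (i + 1) - x i}) := by
    ext ξ
    simp only [Set.mem_preimage, Set.mem_ofPred_eq, Set.mem_pi, Finset.mem_coe, Finset.mem_range,
      pathMap0]
    exact walk_follow_iff inc0 q ξ x hx n
  rw [hset, Measure.infinitePi_pi]
  · exact Finset.prod_congr rfl fun i _ => inc0_eq q (x i) (x (i + 1))
  · exact fun i _ => measurableSet_inc0 _ _

lemma isAnnealedLaw_map0 : IsAnnealedLaw μ ((jointLaw μ unif0).map pathMap0) :=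
  ⟨Measure.isProbabilityMeasure_map measurable_pathMap0.aemeasurable, jointLaw0_cylinder⟩

end Transfer

/-- The event: the first point of the path on the level `s` of `ℓ` (that is, with `ℓ · x ≥ s`)
lies in the finite window `S`. -/
def firstHit (ℓ : Fin d → ℝ) (s : ℝ) (S : Finset (Site d)) : Set (ℕ → Site d) :=
  {X | ∃ n, (∀ k < n, ∑ i, ℓ i * (X k i : ℝ) < s) ∧ s ≤ ∑ i, ℓ i * (X n i : ℝ) ∧ X n ∈ S}

lemma preimage_firstHit (ℓ : Fin d → ℝ) (s : ℝ) (S : Finset (Site d)) :
    pathMap0 ⁻¹' firstHit ℓ s S = ⋃ z ∈ S, Land inc0 (linFun ℓ) (0 : Site d) s z := by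
  ext σ
  simp only [Set.mem_preimage, firstHit, Set.mem_ofPred_eq, Set.mem_iUnion, Land, LandAt,
    exists_prop]
  constructor
  · rintro ⟨n, h1, h2, h3⟩
    exact ⟨_, h3, n, rfl, h2, h1⟩
  · rintro ⟨z, hz, n, h1, h2, h3⟩
    have h1' : pathMap0 σ n = z := h1
    refine ⟨n, h3, ?_, ?_⟩
    · rw [h1']; exact h2
    · rw [h1']; exact hz

lemma preimage_escapeEvent (ℓ : Fin d → ℝ) :
    pathMap0 ⁻¹' escapeEvent ℓ = Esc inc0 (linFun ℓ) (0 : Site d) := rfl

lemma linFun_neg (ℓ : Fin d → ℝ) : linFun (-ℓ) = -linFun ℓ := by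
  ext x
  simp [linFun, Finset.sum_neg_distrib]

lemma measurableSet_escapeEvent (ℓ : Fin d → ℝ) : MeasurableSet (escapeEvent ℓ) := by
  refine measurableSet_tendsto (atTop : Filter ℝ) fun n => ?_
  exact (measurable_of_countable (fun v : Site d => ∑ i, ℓ i * (v i : ℝ))).comp
    (measurable_pi_apply n)

lemma measurableSet_firstHit (ℓ : Fin d → ℝ) (s : ℝ) (S : Finset (Site d)) :
    MeasurableSet (firstHit ℓ s S) := by
  have hm : ∀ n, Measurable (fun X : ℕ → Site d => ∑ i, ℓ i * (X n i : ℝ)) := fun n =>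
    (measurable_of_countable (fun v : Site d => ∑ i, ℓ i * (v i : ℝ))).comp (measurable_pi_apply n)
  have : firstHit ℓ s S = ⋃ n, (⋂ k ∈ Finset.range n, {X | ∑ i, ℓ i * (X k i : ℝ) < s}) ∩
      ({X | s ≤ ∑ i, ℓ i * (X n i : ℝ)} ∩ {X | X n ∈ (S : Set (Site d))}) := by
    ext X
    simp [firstHit]
  rw [this]
  refine MeasurableSet.iUnion fun n => MeasurableSet.inter ?_ (MeasurableSet.inter ?_ ?_)
  · exact Finset.measurableSet_biInter _ fun k _ => measurableSet_lt (hm k) measurable_const
  · exact measurableSet_le measurable_const (hm n)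
  · exact (measurable_pi_apply n) (Set.to_countable _).measurableSet

/-- **Flux inequality for the walk in an arbitrary iid environment.** -/
theorem flux_main (μ : Measure (Row d)) [IsProbabilityMeasure μ] :
    (∃ Q, IsAnnealedLaw μ Q) ∧ ∀ Q, IsAnnealedLaw μ Q → ∀ (ℓ : Fin d → ℝ) (s s' : ℝ)
      (S S' : Finset (Site d)),
      Q (firstHit ℓ s S) * Q (firstHit (-ℓ) s' S') ≤
        (S'.card : ℝ≥0∞) * Q (firstHit ℓ s S \ escapeEvent ℓ) +
        (S.card : ℝ≥0∞) * Q (firstHit (-ℓ) s' S' \ escapeEvent (-ℓ)) := by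
  refine ⟨⟨_, isAnnealedLaw_map0⟩, fun Q hQ ℓ s s' S S' => ?_⟩
  rw [hQ.unique isAnnealedLaw_map0]
  have hmp : Measurable (pathMap0 (d := d)) := measurable_pathMap0
  rw [Measure.map_apply hmp (measurableSet_firstHit _ _ _),
    Measure.map_apply hmp (measurableSet_firstHit _ _ _),
    Measure.map_apply hmp ((measurableSet_firstHit _ _ _).diff (measurableSet_escapeEvent _)),
    Measure.map_apply hmp ((measurableSet_firstHit _ _ _).diff (measurableSet_escapeEvent _)),
    Set.preimage_sdiff, Set.preimage_sdiff, preimage_firstHit, preimage_firstHit,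
    preimage_escapeEvent, preimage_escapeEvent, linFun_neg]
  exact flux_inequality μ unif0 measurable_inc0 s s' S S'

section Windows

open Classical in
/-- Sites of sup norm at most `t` in the slab `s ≤ ℓ · z < s + |ℓ i|`. -/
noncomputable def slabWindow (ℓ : Fin d → ℝ) (i : Fin d) (s : ℝ) (t : ℕ) : Finset (Site d) :=
  (Fintype.piFinset fun _ : Fin d => Finset.Icc (-(t : ℤ)) t).filter fun z =>
    s ≤ ∑ j, ℓ j * (z j : ℝ) ∧ ∑ j, ℓ j * (z j : ℝ) < s + |ℓ i|

lemma card_slabWindow_le (ℓ : Fin d → ℝ) (i : Fin d) (hi : ℓ i ≠ 0) (s : ℝ) (t : ℕ) :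
    (slabWindow ℓ i s t).card ≤ (2 * t + 1) ^ (d - 1) := by
  classical
  let T : Finset ({j : Fin d // j ≠ i} → ℤ) :=
    Fintype.piFinset fun _ => Finset.Icc (-(t : ℤ)) t
  have hT : T.card = (2 * t + 1) ^ (d - 1) := by
    have hc : Fintype.card {j : Fin d // j ≠ i} = d - 1 := by
      rw [Fintype.card_subtype_compl, Fintype.card_subtype_eq, Fintype.card_fin]
    simp only [T, Fintype.card_piFinset, Finset.prod_const, Finset.card_univ, Int.card_Icc, hc]
    congr 1
    omega
  rw [← hT]
  refine Finset.card_le_card_of_injOn (fun z j => z j.1) ?_ ?_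
  · intro z hz
    simp only [slabWindow, Finset.coe_filter, Set.mem_ofPred_eq, Fintype.mem_piFinset] at hz
    simp only [T, Finset.mem_coe, Fintype.mem_piFinset]
    exact fun j => hz.1 j.1
  · intro z hz z' hz' heq
    simp only [slabWindow, Finset.coe_filter, Set.mem_ofPred_eq] at hz hz'
    have hoff : ∀ j, j ≠ i → z j = z' j := fun j hj => congrFun heq ⟨j, hj⟩
    have hsum : ∑ j, ℓ j * (z j : ℝ) - ∑ j, ℓ j * (z' j : ℝ) = ℓ i * ((z i : ℝ) - z' i) := by
      rw [← Finset.sum_sub_distrib, Finset.sum_eq_single i]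
      · ring
      · intro j _ hj
        rw [hoff j hj]; ring
      · simp
    have habs : |ℓ i * ((z i : ℝ) - z' i)| < |ℓ i| := by
      rw [← hsum, abs_lt]
      constructor <;> linarith [hz.2.1, hz.2.2, hz'.2.1, hz'.2.2]
    rw [abs_mul] at habs
    have hpos : 0 < |ℓ i| := abs_pos.mpr hi
    have h1 : |(z i : ℝ) - z' i| < 1 := by
      by_contra hcon
      push Not at hcon
      nlinarith
    have h2 : z i = z' i := by
      have : |z i - z' i| < 1 := by exact_mod_cast h1
      have := Int.abs_lt_one_iff.mp this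
      omega
    funext j
    by_cases hj : j = i
    · rw [hj]; exact h2
    · exact hoff j hj

lemma inc0_bound (p : Row d) (u : ℝ) : inc0 p u = 0 ∨ ∃ f : Step d, inc0 p u = stepVec f := by
  have : ∀ (l : List (Step d)) (v : ℝ), pick p l v = 0 ∨ ∃ f : Step d, pick p l v = stepVec f := by
    intro l
    induction l with
    | nil => intro v; exact Or.inl rfl
    | cons e l ih =>
      intro v
      simp only [pick]
      split_ifs
      · exact Or.inr ⟨e, rfl⟩
      · exact ih _
  exact this _ u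

lemma path_coord_bound (σ : (ℕ → ℝ) × (Site d → Row d)) (n : ℕ) (j : Fin d) :
    |pathMap0 σ n j| ≤ n := by
  induction n with
  | zero => simp [pathMap0]
  | succ n ih =>
    have h1 : pathMap0 σ (n + 1) = pathMap0 σ n + inc0 (σ.2 (pathMap0 σ n)) (σ.1 n) := rfl
    rw [h1, Pi.add_apply]
    have h2 : |inc0 (σ.2 (pathMap0 σ n)) (σ.1 n) j| ≤ 1 := by
      rcases inc0_bound (σ.2 (pathMap0 σ n)) (σ.1 n) with h | ⟨f, h⟩
      · rw [h]; simp
      · rw [h]
        have := stepVec_abs_le f j
        rw [abs_le]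
        exact this
    calc |pathMap0 σ n j + inc0 (σ.2 (pathMap0 σ n)) (σ.1 n) j|
        ≤ |pathMap0 σ n j| + |inc0 (σ.2 (pathMap0 σ n)) (σ.1 n) j| := abs_add_le _ _
      _ ≤ n + 1 := add_le_add ih h2
      _ = ((n + 1 : ℕ) : ℤ) := by push_cast; ring

lemma path_level_step (ℓ : Fin d → ℝ) (i : Fin d) (hi : ∀ j, |ℓ j| ≤ |ℓ i|)
    (σ : (ℕ → ℝ) × (Site d → Row d)) (n : ℕ) :
    ∑ j, ℓ j * (pathMap0 σ (n + 1) j : ℝ) ≤ ∑ j, ℓ j * (pathMap0 σ n j : ℝ) + |ℓ i| := by
  have h1 : pathMap0 σ (n + 1) = pathMap0 σ n + inc0 (σ.2 (pathMap0 σ n)) (σ.1 n) := rfl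
  rw [h1]
  simp only [Pi.add_apply, Int.cast_add, mul_add]
  rw [Finset.sum_add_distrib]
  refine add_le_add le_rfl ?_
  rcases inc0_bound (σ.2 (pathMap0 σ n)) (σ.1 n) with h | ⟨f, h⟩
  · rw [h]
    simp only [Pi.zero_apply, Int.cast_zero, mul_zero, Finset.sum_const_zero]
    exact abs_nonneg _
  · rw [h, Finset.sum_eq_single f.1]
    · rw [stepVec_self]
      have h2 := hi f.1
      by_cases hb : f.2 = true
      · simp only [hb, if_true, Int.cast_one, mul_one]
        exact (le_abs_self _).trans h2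
      · have hb' : f.2 = false := by simpa using hb
        simp only [hb', Bool.false_eq_true, if_false, Int.cast_neg, Int.cast_one, mul_neg, mul_one]
        exact (neg_le_abs _).trans h2
    · intro j _ hj
      rw [stepVec_apply, if_neg hj]
      simp
    · simp

/-- Reaching the level `s > 0` by time `t` means landing in the slab window. -/
lemma reach_subset_firstHit (ℓ : Fin d → ℝ) (i : Fin d) (hi : ∀ j, |ℓ j| ≤ |ℓ i|) {s : ℝ}
    (hs : 0 < s) (t : ℕ) :
    pathMap0 ⁻¹' {X | ∃ n ≤ t, s ≤ ∑ j, ℓ j * (X n j : ℝ)} ⊆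
      pathMap0 ⁻¹' firstHit ℓ s (slabWindow ℓ i s t) := by
  classical
  intro σ hσ
  simp only [Set.mem_preimage, Set.mem_ofPred_eq] at hσ ⊢
  have hex : ∃ n, s ≤ ∑ j, ℓ j * (pathMap0 σ n j : ℝ) := by
    obtain ⟨n, _, hn⟩ := hσ
    exact ⟨n, hn⟩
  have hmin : ∀ m, m < Nat.find hex → ¬ s ≤ ∑ j, ℓ j * (pathMap0 σ m j : ℝ) :=
    fun m hm => Nat.find_min hex hm
  have hspec := Nat.find_spec hex
  have hle : Nat.find hex ≤ t := by
    obtain ⟨n, hn, hn'⟩ := hσ
    exact (Nat.find_min' hex hn').trans hn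
  set n0 := Nat.find hex with hn0
  refine ⟨n0, fun k hk => not_le.mp (hmin k hk), hspec, ?_⟩
  simp only [slabWindow, Finset.mem_filter, Fintype.mem_piFinset, Finset.mem_Icc]
  refine ⟨fun j => ?_, hspec, ?_⟩
  · have h1 := path_coord_bound σ n0 j
    have h2 : ((n0 : ℕ) : ℤ) ≤ t := by exact_mod_cast hle
    rw [abs_le] at h1
    constructor <;> linarith [h1.1, h1.2]
  · rcases Nat.eq_zero_or_pos n0 with h0 | hpos
    · exfalso
      rw [h0] at hspec
      have h00 : pathMap0 σ 0 = 0 := rfl
      rw [h00] at hspec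
      simp only [Pi.zero_apply, Int.cast_zero, mul_zero, Finset.sum_const_zero] at hspec
      linarith
    · obtain ⟨m, hm⟩ : ∃ m, n0 = m + 1 := ⟨n0 - 1, by omega⟩
      rw [hm]
      have h1 := path_level_step ℓ i hi σ m
      have h2 : ∑ j, ℓ j * (pathMap0 σ m j : ℝ) < s := not_le.mp (hmin m (by omega))
      linarith

/-- Reach event for the level `s`. -/
def reachBy (ℓ : Fin d → ℝ) (s : ℝ) (t : ℕ) : Set (ℕ → Site d) :=
  {X | ∃ n ≤ t, s ≤ ∑ j, ℓ j * (X n j : ℝ)}

/-- Reach event for the level `s` at some time. -/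
def reachEver (ℓ : Fin d → ℝ) (s : ℝ) : Set (ℕ → Site d) :=
  {X | ∃ n, s ≤ ∑ j, ℓ j * (X n j : ℝ)}

lemma measurableSet_reachBy (ℓ : Fin d → ℝ) (s : ℝ) (t : ℕ) : MeasurableSet (reachBy ℓ s t) := by
  have : reachBy ℓ s t = ⋃ n ∈ Finset.range (t + 1), {X | s ≤ ∑ j, ℓ j * (X n j : ℝ)} := by
    ext X
    simp only [reachBy, Set.mem_ofPred_eq, Set.mem_iUnion, Finset.mem_range, exists_prop]
    exact exists_congr fun n => and_congr_left fun _ => by omega
  rw [this]
  refine Finset.measurableSet_biUnion _ fun n _ => measurableSet_le measurable_const ?_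
  exact (measurable_of_countable (fun v : Site d => ∑ j, ℓ j * (v j : ℝ))).comp
    (measurable_pi_apply n)

lemma measurableSet_reachEver (ℓ : Fin d → ℝ) (s : ℝ) : MeasurableSet (reachEver ℓ s) := by
  have : reachEver ℓ s = ⋃ n, {X | s ≤ ∑ j, ℓ j * (X n j : ℝ)} := by
    ext X
    simp [reachEver]
  rw [this]
  refine MeasurableSet.iUnion fun n => measurableSet_le measurable_const ?_
  exact (measurable_of_countable (fun v : Site d => ∑ j, ℓ j * (v j : ℝ))).comp
    (measurable_pi_apply n)

lemma firstHit_subset_reachEver (ℓ : Fin d → ℝ) (s : ℝ) (S : Finset (Site d)) :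
    firstHit ℓ s S ⊆ reachEver ℓ s := by
  rintro X ⟨n, _, h2, _⟩
  exact ⟨n, h2⟩

/-- **Polynomial lower bound for wrong way probabilities.** -/
theorem backtrack_main (μ : Measure (Row d)) [IsProbabilityMeasure μ] (Q : Measure (ℕ → Site d))
    (hQ : IsAnnealedLaw μ Q) (ℓ : Fin d → ℝ) (hℓ : ℓ ≠ 0) {s s' : ℝ} (hs : 0 < s) (hs' : 0 < s')
    (t t' : ℕ) :
    Q (reachBy ℓ s t) * Q (reachBy (-ℓ) s' t') ≤
      ((2 * t' + 1 : ℝ≥0∞)) ^ (d - 1) * Q (reachEver ℓ s \ escapeEvent ℓ) +
      ((2 * t + 1 : ℝ≥0∞)) ^ (d - 1) * Q (reachEver (-ℓ) s' \ escapeEvent (-ℓ)) := by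
  classical
  have hd : Nonempty (Fin d) := by
    by_contra hcon
    rw [not_nonempty_iff] at hcon
    exact hℓ (Subsingleton.elim _ _)
  obtain ⟨i, -, hi⟩ := Finset.exists_max_image (Finset.univ : Finset (Fin d)) (fun j => |ℓ j|)
    Finset.univ_nonempty
  have hi' : ∀ j, |ℓ j| ≤ |ℓ i| := fun j => hi j (Finset.mem_univ j)
  have hi0 : ℓ i ≠ 0 := by
    intro h0
    apply hℓ
    funext j
    have := hi' j
    rw [h0, abs_zero] at this
    exact abs_nonpos_iff.mp this
  have hi'' : ∀ j, |(-ℓ) j| ≤ |(-ℓ) i| := fun j => by simpa using hi' j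
  have hi0' : (-ℓ) i ≠ 0 := by simpa using hi0
  set S := slabWindow ℓ i s t with hS
  set S' := slabWindow (-ℓ) i s' t' with hS'
  have hcard : (S.card : ℝ≥0∞) ≤ (2 * t + 1 : ℝ≥0∞) ^ (d - 1) := by
    have := card_slabWindow_le ℓ i hi0 s t
    exact_mod_cast this
  have hcard' : (S'.card : ℝ≥0∞) ≤ (2 * t' + 1 : ℝ≥0∞) ^ (d - 1) := by
    have := card_slabWindow_le (-ℓ) i hi0' s' t'
    exact_mod_cast this
  have hflux := (flux_main μ).2 Q hQ ℓ s s' S S'
  rw [hQ.unique isAnnealedLaw_map0] at hflux ⊢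
  have hmp : Measurable (pathMap0 (d := d)) := measurable_pathMap0
  have h1 : ((jointLaw μ unif0).map pathMap0) (reachBy ℓ s t) ≤
      ((jointLaw μ unif0).map pathMap0) (firstHit ℓ s S) := by
    rw [Measure.map_apply hmp (measurableSet_reachBy _ _ _),
      Measure.map_apply hmp (measurableSet_firstHit _ _ _)]
    exact measure_mono (reach_subset_firstHit ℓ i hi' hs t)
  have h2 : ((jointLaw μ unif0).map pathMap0) (reachBy (-ℓ) s' t') ≤
      ((jointLaw μ unif0).map pathMap0) (firstHit (-ℓ) s' S') := by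
    rw [Measure.map_apply hmp (measurableSet_reachBy _ _ _),
      Measure.map_apply hmp (measurableSet_firstHit _ _ _)]
    exact measure_mono (reach_subset_firstHit (-ℓ) i hi'' hs' t')
  calc _ ≤ _ := mul_le_mul' h1 h2
    _ ≤ _ := hflux
    _ ≤ _ := by
      refine add_le_add (mul_le_mul' hcard' (measure_mono ?_))
        (mul_le_mul' hcard (measure_mono ?_))
      · exact Set.sdiff_subset_sdiff_left (firstHit_subset_reachEver _ _ _)
      · exact Set.sdiff_subset_sdiff_left (firstHit_subset_reachEver _ _ _)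

end Windows

end Vale.Agent.Lib.P147
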