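import Vale.Agent.Lib.P147.Core

/-!
# The flux inequality: abstract part

For the walker with iid environment and iid noise, landings on a level from the two sides are
driven by the two independent half spaces.
-/

open MeasureTheory ProbabilityTheory Filter Set
open scoped symmDiff ENNReal

namespace Vale.Agent.Lib.P147

section Depends

variable {ι α β : Type*} [MeasurableSpace α] [MeasurableSpace β]

/-- A measurable function depending only on the coordinates in `I` is measurable with respect to
the sigma algebra generated by those coordinates. -/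
lemma measurable_iSup_of_depends [Nonempty α] (I : Set ι) (F : (ι → α) → β) (hF : Measurable F)
    (hdep : ∀ a b : ι → α, (∀ i ∈ I, a i = b i) → F a = F b) :
    Measurable[⨆ i ∈ I, MeasurableSpace.comap (fun a : ι → α => a i) inferInstance] F := by
  classical
  set m : MeasurableSpace (ι → α) :=
    ⨆ i ∈ I, MeasurableSpace.comap (fun a : ι → α => a i) inferInstance with hm
  let α0 : α := Classical.arbitrary α
  let π : (ι → α) → (ι → α) := fun a i => if i ∈ I then a i else α0
  have hπ : @Measurable _ _ m MeasurableSpace.pi π := by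
    refine @measurable_pi_lambda _ _ _ m _ _ fun i => ?_
    by_cases hi : i ∈ I
    · have : (fun a : ι → α => π a i) = fun a => a i := by
        funext a; simp [π, hi]
      rw [this]
      have h1 : MeasurableSpace.comap (fun a : ι → α => a i) inferInstance ≤ m :=
        le_iSup₂_of_le i hi le_rfl
      exact (comap_measurable (fun a : ι → α => a i)).mono h1 le_rfl
    · have : (fun a : ι → α => π a i) = fun _ => α0 := by
        funext a; simp [π, hi]
      rw [this]
      exact @measurable_const _ _ _ m α0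
  have heq : F = F ∘ π := by
    funext a
    exact hdep a (π a) fun i hi => by simp [π, hi]
  rw [heq]
  exact hF.comp hπ

/-- A measurable set depending only on the coordinates in `I`. -/
lemma measurableSet_iSup_of_depends [Nonempty α] (I : Set ι) (B : Set (ι → α))
    (hB : MeasurableSet B) (hdep : ∀ a b : ι → α, (∀ i ∈ I, a i = b i) → (a ∈ B ↔ b ∈ B)) :
    MeasurableSet[⨆ i ∈ I, MeasurableSpace.comap (fun a : ι → α => a i) inferInstance] B := by
  classical
  have h := measurable_iSup_of_depends (β := Prop) I (fun a => a ∈ B)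
    (measurable_mem.mpr hB) (fun a b hab => propext (hdep a b hab))
  have : B = (fun a => a ∈ B) ⁻¹' {True} := by
    ext a; simp
  rw [this]
  exact h (measurableSet_singleton True)

/-- Independence of two disjoint blocks of coordinates of a product measure. -/
lemma indep_blocks (ρ : Measure α) [IsProbabilityMeasure ρ] {I J : Set ι} (hIJ : Disjoint I J) :
    Indep (⨆ i ∈ I, MeasurableSpace.comap (fun a : ι → α => a i) inferInstance)
      (⨆ i ∈ J, MeasurableSpace.comap (fun a : ι → α => a i) inferInstance)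
      (Measure.infinitePi (fun _ : ι => ρ)) := by
  have h_le : ∀ i, MeasurableSpace.comap (fun a : ι → α => a i) inferInstance ≤
      (MeasurableSpace.pi : MeasurableSpace (ι → α)) := fun i =>
    (measurable_pi_apply i).comap_le
  have h_indep : iIndep (fun i => MeasurableSpace.comap (fun a : ι → α => a i) inferInstance)
      (Measure.infinitePi (fun _ : ι => ρ)) :=
    iIndepFun_infinitePi (P := fun _ : ι => ρ) (X := fun _ a => a) (fun _ => measurable_id)
  exact indep_iSup_of_disjoint h_le h_indep hIJ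

lemma iSup_comap_le (I : Set ι) :
    (⨆ i ∈ I, MeasurableSpace.comap (fun a : ι → α => a i) inferInstance) ≤
      (MeasurableSpace.pi : MeasurableSpace (ι → α)) :=
  iSup₂_le fun i _ => (measurable_pi_apply i).comap_le

end Depends

section Land

variable {V A Ξ : Type*} [AddCommGroup V]

/-- First landing at time `n` on the level `r`, at the site `z`. -/
def LandAt (inc : A → Ξ → V) (L : V →+ ℝ) (x : V) (r : ℝ) (z : V) (n : ℕ) :
    Set ((ℕ → Ξ) × (V → A)) :=
  {s | walk inc s.2 s.1 x n = z ∧ r ≤ L z ∧ ∀ k < n, L (walk inc s.2 s.1 x k) < r}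

/-- First landing on the level `r`, at the site `z`. -/
def Land (inc : A → Ξ → V) (L : V →+ ℝ) (x : V) (r : ℝ) (z : V) : Set ((ℕ → Ξ) × (V → A)) :=
  ⋃ n, LandAt inc L x r z n

variable {inc : A → Ξ → V} {L : V →+ ℝ}

lemma LandAt_time_unique {x z z' : V} {r : ℝ} {n n' : ℕ} {s : (ℕ → Ξ) × (V → A)}
    (h : s ∈ LandAt inc L x r z n) (h' : s ∈ LandAt inc L x r z' n') : n = n' := by
  obtain ⟨h1, h2, h3⟩ := h
  obtain ⟨h1', h2', h3'⟩ := h'
  rcases lt_trichotomy n n' with hlt | heq | hgt
  · have := h3' n hlt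
    rw [h1] at this
    exact absurd h2 (not_le.mpr this)
  · exact heq
  · have := h3 n' hgt
    rw [h1'] at this
    exact absurd h2' (not_le.mpr this)

lemma LandAt_site_unique {x z z' : V} {r : ℝ} {n n' : ℕ} {s : (ℕ → Ξ) × (V → A)}
    (h : s ∈ LandAt inc L x r z n) (h' : s ∈ LandAt inc L x r z' n') : z = z' := by
  have := LandAt_time_unique h h'
  subst this
  rw [← h.1, ← h'.1]

lemma Land_disjoint {x z z' : V} {r : ℝ} (hz : z ≠ z') :
    Disjoint (Land inc L x r z) (Land inc L x r z') := by
  rw [Set.disjoint_left]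
  intro s hs hs'
  obtain ⟨n, hn⟩ := Set.mem_iUnion.mp hs
  obtain ⟨n', hn'⟩ := Set.mem_iUnion.mp hs'
  exact hz (LandAt_site_unique hn hn')

/-- Translation of a landing. -/
lemma mem_LandAt_add (x y z : V) (r : ℝ) (n : ℕ) (s : (ℕ → Ξ) × (V → A)) :
    s ∈ LandAt inc L (x + z) r (y + z) n ↔
      (s.1, shiftEnv z s.2) ∈ LandAt inc L x (r - L z) y n := by
  have hw : ∀ k, walk inc s.2 s.1 (x + z) k = walk inc (shiftEnv z s.2) s.1 x k + z := fun k =>
    (walk_translate inc s.2 s.1 x z k).symm
  simp only [LandAt, Set.mem_ofPred_eq, hw, map_add]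
  refine and_congr ?_ (and_congr ?_ ?_)
  · exact add_left_inj z
  · constructor <;> intro h <;> linarith
  · refine forall₂_congr fun k _ => ?_
    constructor <;> intro h <;> linarith

lemma walk_congr_env {q q' : V → A} {ξ : ℕ → Ξ} {x : V} {n : ℕ}
    (h : ∀ k < n, q (walk inc q ξ x k) = q' (walk inc q ξ x k)) :
    ∀ k ≤ n, walk inc q' ξ x k = walk inc q ξ x k := by
  intro k
  induction k with
  | zero => intro _; rfl
  | succ k ih =>
    intro hk
    rw [walk_succ, walk_succ, ih (by omega), ← h k (by omega)]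

lemma walk_congr_noise {q : V → A} {ξ ξ' : ℕ → Ξ} {x : V} {n : ℕ} (h : ∀ k < n, ξ k = ξ' k) :
    ∀ k ≤ n, walk inc q ξ x k = walk inc q ξ' x k := by
  intro k
  induction k with
  | zero => intro _; rfl
  | succ k ih =>
    intro hk
    rw [walk_succ, walk_succ, ih (by omega), h k (by omega)]

/-- Landing at time `n` depends only on the environment behind the level. -/
lemma LandAt_congr_env {q q' : V → A} {ξ : ℕ → Ξ} {x y : V} {r : ℝ} {n : ℕ}
    (hq : ∀ v, L v < r → q v = q' v) (h : (ξ, q) ∈ LandAt inc L x r y n) :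
    (ξ, q') ∈ LandAt inc L x r y n := by
  obtain ⟨h1, h2, h3⟩ := h
  simp only at h1 h3
  have hw := walk_congr_env (inc := inc) (q := q) (q' := q') (ξ := ξ) (x := x) (n := n)
    fun k hk => hq _ (h3 k hk)
  refine ⟨?_, h2, ?_⟩
  · simp only
    rw [hw n le_rfl]; exact h1
  · intro k hk
    simp only
    rw [hw k hk.le]; exact h3 k hk

/-- Landing at time `n` depends only on the noise before time `n`. -/
lemma LandAt_congr_noise {q : V → A} {ξ ξ' : ℕ → Ξ} {x y : V} {r : ℝ} {n : ℕ}
    (hξ : ∀ k < n, ξ k = ξ' k) (h : (ξ, q) ∈ LandAt inc L x r y n) :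
    (ξ', q) ∈ LandAt inc L x r y n := by
  obtain ⟨h1, h2, h3⟩ := h
  simp only at h1 h3
  have hw := walk_congr_noise (inc := inc) (q := q) (x := x) hξ
  refine ⟨?_, h2, ?_⟩
  · simp only
    rw [← hw n le_rfl]; exact h1
  · intro k hk
    simp only
    rw [← hw k hk.le]; exact h3 k hk

end Land

section Measurable

variable {V A Ξ : Type*} [AddCommGroup V] [Countable V] [MeasurableSpace V]
  [MeasurableSingletonClass V] [MeasurableSpace A] [MeasurableSpace Ξ]
  {inc : A → Ξ → V} {L : V →+ ℝ}

/-- Escape can be read off after the landing. -/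
lemma mem_Esc_of_LandAt {x y : V} {r : ℝ} {n : ℕ} {s : (ℕ → Ξ) × (V → A)}
    (h : s ∈ LandAt inc L x r y n) :
    s ∈ Esc inc L x ↔ (shiftNoise n s.1, s.2) ∈ Esc inc L y := by
  rw [mem_Esc_shift_iff x n s, h.1]

lemma measurableSet_LandAt (hincm : Measurable (Function.uncurry inc)) (x z : V) (r : ℝ) (n : ℕ) :
    MeasurableSet (LandAt inc L x r z n) := by
  have h1 : MeasurableSet {s : (ℕ → Ξ) × (V → A) | walk inc s.2 s.1 x n = z} :=
    (measurable_walk hincm x n) (measurableSet_singleton z)
  have h2 : MeasurableSet {s : (ℕ → Ξ) × (V → A) | r ≤ L z} := MeasurableSet.const _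
  have h3 : MeasurableSet {s : (ℕ → Ξ) × (V → A) | ∀ k < n, L (walk inc s.2 s.1 x k) < r} := by
    have : {s : (ℕ → Ξ) × (V → A) | ∀ k < n, L (walk inc s.2 s.1 x k) < r} =
        ⋂ k ∈ Finset.range n, {s | L (walk inc s.2 s.1 x k) < r} := by
      ext s
      simp
    rw [this]
    refine Finset.measurableSet_biInter _ fun k _ => ?_
    have hm : Measurable (fun s : (ℕ → Ξ) × (V → A) => L (walk inc s.2 s.1 x k)) :=
      (measurable_of_countable (fun v : V => L v)).comp (measurable_walk hincm x k)
    exact measurableSet_lt hm measurable_const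
  exact h1.inter (h2.inter h3)

lemma measurableSet_Land (hincm : Measurable (Function.uncurry inc)) (x z : V) (r : ℝ) :
    MeasurableSet (Land inc L x r z) :=
  MeasurableSet.iUnion fun n => measurableSet_LandAt hincm x z r n

end Measurable

section Noise

variable {V A Ξ : Type*} [AddCommGroup V] [Countable V] [MeasurableSpace V]
  [MeasurableSingletonClass V] [MeasurableSpace A] [MeasurableSpace Ξ]
  {inc : A → Ξ → V} {L : V →+ ℝ}

variable (ν : Measure A) [IsProbabilityMeasure ν] (ρ : Measure Ξ) [IsProbabilityMeasure ρ]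

/-- The Markov property at the landing: given the environment, the noise before and after the
landing time are independent. -/
lemma noise_markov [Nonempty Ξ] (hincm : Measurable (Function.uncurry inc)) (x y : V) (r : ℝ)
    (n : ℕ) (q : V → A) (B : Set (ℕ → Ξ)) (hB : MeasurableSet B) :
    (Measure.infinitePi (fun _ : ℕ => ρ))
      {ξ | (ξ, q) ∈ LandAt inc L x r y n ∧ shiftNoise n ξ ∈ B} =
    (Measure.infinitePi (fun _ : ℕ => ρ)) {ξ | (ξ, q) ∈ LandAt inc L x r y n} *
      (Measure.infinitePi (fun _ : ℕ => ρ)) B := by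
  set R := Measure.infinitePi (fun _ : ℕ => ρ)
  have hInd := indep_blocks (ι := ℕ) ρ (I := Set.Iio n) (J := Set.Ici n)
    (Set.disjoint_left.mpr fun i hi hi' => absurd (show i < n from hi) (not_lt.mpr hi'))
  have hA : MeasurableSet[⨆ i ∈ Set.Iio n,
      MeasurableSpace.comap (fun a : ℕ → Ξ => a i) inferInstance]
      {ξ | (ξ, q) ∈ LandAt inc L x r y n} := by
    refine measurableSet_iSup_of_depends _ _ ?_ ?_
    · exact measurable_prodMk_right (measurableSet_LandAt hincm x y r n)
    · intro a b hab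
      exact ⟨fun h => LandAt_congr_noise (fun k hk => hab k hk) h,
        fun h => LandAt_congr_noise (fun k hk => (hab k hk).symm) h⟩
  have hC : MeasurableSet[⨆ i ∈ Set.Ici n,
      MeasurableSpace.comap (fun a : ℕ → Ξ => a i) inferInstance]
      (shiftNoise n ⁻¹' B) := by
    refine measurableSet_iSup_of_depends _ _ (measurable_shiftNoise n hB) ?_
    intro a b hab
    have : shiftNoise n a = shiftNoise n b := by
      funext i
      exact hab (i + n) (by simp)
    simp only [Set.mem_preimage, this]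
  have h1 := (Indep_iff _ _ _).mp hInd _ _ hA hC
  have h2 : R (shiftNoise n ⁻¹' B) = R B :=
    (measurePreserving_shiftNoise ρ n).measure_preimage hB.nullMeasurableSet
  rw [h2] at h1
  exact h1

/-- The noise integrated Markov property at the landing. -/
lemma noise_land_not_esc [Nonempty Ξ] (hincm : Measurable (Function.uncurry inc)) (x y : V) (r : ℝ)
    (q : V → A) :
    (Measure.infinitePi (fun _ : ℕ => ρ))
      {ξ | (ξ, q) ∈ Land inc L x r y ∧ (ξ, q) ∉ Esc inc L x} =
    (Measure.infinitePi (fun _ : ℕ => ρ)) {ξ | (ξ, q) ∈ Land inc L x r y} *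
      (Measure.infinitePi (fun _ : ℕ => ρ)) {ξ | (ξ, q) ∉ Esc inc L y} := by
  set R := Measure.infinitePi (fun _ : ℕ => ρ)
  set B : Set (ℕ → Ξ) := {ξ | (ξ, q) ∉ Esc inc L y} with hBdef
  have hB : MeasurableSet B := measurable_prodMk_right (measurableSet_Esc hincm y).compl
  have hm : ∀ n, MeasurableSet {ξ : ℕ → Ξ | (ξ, q) ∈ LandAt inc L x r y n} := fun n =>
    measurable_prodMk_right (measurableSet_LandAt hincm x y r n)
  have hset : {ξ | (ξ, q) ∈ Land inc L x r y ∧ (ξ, q) ∉ Esc inc L x} =
      ⋃ n, {ξ | (ξ, q) ∈ LandAt inc L x r y n ∧ shiftNoise n ξ ∈ B} := by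
    ext ξ
    simp only [Set.mem_ofPred_eq, Set.mem_iUnion, Land]
    constructor
    · rintro ⟨⟨n, hn⟩, h2⟩
      refine ⟨n, hn, ?_⟩
      have := mem_Esc_of_LandAt hn
      simp only at this
      simp only [hBdef, Set.mem_ofPred_eq]
      rwa [← this]
    · rintro ⟨n, hn, h2⟩
      refine ⟨⟨n, hn⟩, ?_⟩
      have := mem_Esc_of_LandAt hn
      simp only at this
      rw [this]
      exact h2
  have hset2 : {ξ | (ξ, q) ∈ Land inc L x r y} = ⋃ n, {ξ | (ξ, q) ∈ LandAt inc L x r y n} := by
    ext ξ
    simp only [Set.mem_ofPred_eq, Set.mem_iUnion, Land]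
  have hshift : ∀ n, MeasurableSet (shiftNoise n ⁻¹' B) := fun n => measurable_shiftNoise n hB
  rw [hset, hset2, measure_iUnion, measure_iUnion, ← ENNReal.tsum_mul_right]
  · exact tsum_congr fun n => noise_markov ρ hincm x y r n q B hB
  · intro n n' hne
    exact Set.disjoint_left.mpr fun ξ h h' => hne (LandAt_time_unique h h')
  · exact hm
  · intro n n' hne
    exact Set.disjoint_left.mpr fun ξ h h' => hne (LandAt_time_unique h.1 h'.1)
  · exact fun n => (hm n).inter (hshift n)

end Noise

section Flux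

set_option linter.unusedSectionVars false

variable {V A Ξ : Type*} [AddCommGroup V] [Countable V] [MeasurableSpace V]
  [MeasurableSingletonClass V] [MeasurableSpace A] [MeasurableSpace Ξ]

/-- The probability, given the environment, of a landing at the origin from the translated
start. -/
noncomputable def gFlux (inc : A → Ξ → V) (L : V →+ ℝ) (ρ : Measure Ξ) (s : ℝ) (z : V)
    (q : V → A) : ℝ≥0∞ :=
  (Measure.infinitePi (fun _ : ℕ => ρ)) {ξ | (ξ, q) ∈ Land inc L (-z) (s - L z) 0}

/-- The probability, given the environment, of not escaping from the origin. -/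
noncomputable def aFlux (inc : A → Ξ → V) (L : V →+ ℝ) (ρ : Measure Ξ) (q : V → A) : ℝ≥0∞ :=
  (Measure.infinitePi (fun _ : ℕ => ρ)) {ξ | (ξ, q) ∉ Esc inc L 0}

/-- The total flux through the window `S`. -/
noncomputable def fluxSum (inc : A → Ξ → V) (L : V →+ ℝ) (ρ : Measure Ξ) (s : ℝ) (S : Finset V)
    (q : V → A) : ℝ≥0∞ :=
  ∑ z ∈ S, gFlux inc L ρ s z q

variable {inc : A → Ξ → V} {L : V →+ ℝ}
variable (ν : Measure A) [IsProbabilityMeasure ν] (ρ : Measure Ξ) [IsProbabilityMeasure ρ]

lemma measurable_gFlux (hincm : Measurable (Function.uncurry inc)) (s : ℝ) (z : V) :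
    Measurable (gFlux inc L ρ s z) :=
  measurable_measure_prodMk_right (measurableSet_Land hincm (-z) 0 (s - L z))

lemma measurable_aFlux (hincm : Measurable (Function.uncurry inc)) :
    Measurable (aFlux inc L ρ) :=
  measurable_measure_prodMk_right (measurableSet_Esc hincm 0).compl

lemma measurable_fluxSum (hincm : Measurable (Function.uncurry inc)) (s : ℝ) (S : Finset V) :
    Measurable (fluxSum inc L ρ s S) :=
  Finset.measurable_fun_sum S fun z _ => measurable_gFlux ρ hincm s z

lemma gFlux_le_one (s : ℝ) (z : V) (q : V → A) : gFlux inc L ρ s z q ≤ 1 := prob_le_one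

lemma fluxSum_le_card (s : ℝ) (S : Finset V) (q : V → A) :
    fluxSum inc L ρ s S q ≤ S.card := by
  unfold fluxSum
  calc ∑ z ∈ S, gFlux inc L ρ s z q ≤ ∑ _z ∈ S, (1 : ℝ≥0∞) :=
        Finset.sum_le_sum fun z _ => gFlux_le_one ρ s z q
    _ = S.card := by simp

lemma gFlux_congr (s : ℝ) (z : V) {q q' : V → A} (h : ∀ v, L v < 0 → q v = q' v) :
    gFlux inc L ρ s z q = gFlux inc L ρ s z q' := by
  unfold gFlux
  congr 1
  ext ξ
  simp only [Set.mem_ofPred_eq, Land, Set.mem_iUnion]
  refine exists_congr fun n => ?_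
  constructor
  · intro hl
    have hr : s - L z ≤ 0 := by simpa using hl.2.1
    exact LandAt_congr_env (fun v hv => h v (lt_of_lt_of_le hv hr)) hl
  · intro hl
    have hr : s - L z ≤ 0 := by simpa using hl.2.1
    exact LandAt_congr_env (fun v hv => (h v (lt_of_lt_of_le hv hr)).symm) hl

lemma fluxSum_congr (s : ℝ) (S : Finset V) {q q' : V → A} (h : ∀ v, L v < 0 → q v = q' v) :
    fluxSum inc L ρ s S q = fluxSum inc L ρ s S q' :=
  Finset.sum_congr rfl fun z _ => gFlux_congr ρ s z h

lemma aFlux_add_ge_one (q : V → A) :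
    1 ≤ aFlux inc L ρ q + aFlux inc (-L) ρ q := by
  unfold aFlux
  set R := Measure.infinitePi (fun _ : ℕ => ρ)
  have hcover : (Set.univ : Set (ℕ → Ξ)) ⊆
      {ξ | (ξ, q) ∉ Esc inc L 0} ∪ {ξ | (ξ, q) ∉ Esc inc (-L) 0} := by
    intro ξ _
    by_contra hcon
    simp only [Set.mem_union, Set.mem_ofPred_eq, not_or, not_not] at hcon
    obtain ⟨h1, h2⟩ := hcon
    simp only [Esc, Set.mem_ofPred_eq] at h1 h2
    obtain ⟨n, hn1, hn2⟩ := ((h1.eventually_ge_atTop 1).and (h2.eventually_ge_atTop 1)).exists
    simp only [AddMonoidHom.neg_apply] at hn2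
    linarith
  calc (1 : ℝ≥0∞) = R Set.univ := measure_univ.symm
    _ ≤ R ({ξ | (ξ, q) ∉ Esc inc L 0} ∪ {ξ | (ξ, q) ∉ Esc inc (-L) 0}) := measure_mono hcover
    _ ≤ _ := measure_union_le _ _

lemma land_preimage (s : ℝ) (z : V) :
    Land inc L (0 : V) s z =
      (fun σ : (ℕ → Ξ) × (V → A) => (σ.1, shiftEnv z σ.2)) ⁻¹' Land inc L (-z) (s - L z) 0 := by
  ext σ
  simp only [Land, Set.mem_iUnion, Set.mem_preimage]
  refine exists_congr fun n => ?_
  have := mem_LandAt_add (inc := inc) (L := L) (-z) 0 z s n σ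
  rwa [neg_add_cancel, zero_add] at this

lemma esc_preimage (z : V) :
    Esc inc L (0 : V) =
      (fun σ : (ℕ → Ξ) × (V → A) => (σ.1, shiftEnv z σ.2)) ⁻¹' Esc inc L (-z) := by
  ext σ
  simp only [Set.mem_preimage]
  have := mem_Esc_add_iff (inc := inc) (L := L) (-z) z σ
  rwa [neg_add_cancel] at this

lemma joint_land (hincm : Measurable (Function.uncurry inc)) (s : ℝ) (z : V) :
    jointLaw ν ρ (Land inc L (0 : V) s z) =
      ∫⁻ q, gFlux inc L ρ s z q ∂(Measure.infinitePi (fun _ : V => ν)) := by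
  rw [land_preimage, (measurePreserving_envShift ν ρ z).measure_preimage
    (measurableSet_Land hincm (-z) 0 (s - L z)).nullMeasurableSet, jointLaw,
    Measure.prod_apply_symm (measurableSet_Land hincm (-z) 0 (s - L z))]
  rfl

lemma joint_land_diff [Nonempty Ξ] (hincm : Measurable (Function.uncurry inc)) (s : ℝ) (z : V) :
    jointLaw ν ρ (Land inc L (0 : V) s z \ Esc inc L 0) =
      ∫⁻ q, gFlux inc L ρ s z q * aFlux inc L ρ q ∂(Measure.infinitePi (fun _ : V => ν)) := by
  have hm : MeasurableSet (Land inc L (-z) (s - L z) 0 \ Esc inc L (-z)) :=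
    (measurableSet_Land hincm (-z) 0 (s - L z)).diff (measurableSet_Esc hincm (-z))
  have hset : Land inc L (0 : V) s z \ Esc inc L 0 =
      (fun σ : (ℕ → Ξ) × (V → A) => (σ.1, shiftEnv z σ.2)) ⁻¹'
        (Land inc L (-z) (s - L z) 0 \ Esc inc L (-z)) := by
    rw [Set.preimage_sdiff, ← land_preimage, ← esc_preimage]
  rw [hset, (measurePreserving_envShift ν ρ z).measure_preimage hm.nullMeasurableSet, jointLaw,
    Measure.prod_apply_symm hm]
  refine lintegral_congr fun q => ?_
  exact noise_land_not_esc ρ hincm (-z) 0 (s - L z) q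

lemma joint_union (hincm : Measurable (Function.uncurry inc)) (s : ℝ) (S : Finset V) :
    jointLaw ν ρ (⋃ z ∈ S, Land inc L (0 : V) s z) =
      ∫⁻ q, fluxSum inc L ρ s S q ∂(Measure.infinitePi (fun _ : V => ν)) := by
  classical
  rw [measure_biUnion_finset]
  · unfold fluxSum
    rw [lintegral_finsetSum' _ fun z _ => (measurable_gFlux ρ hincm s z).aemeasurable]
    exact Finset.sum_congr rfl fun z _ => joint_land ν ρ hincm s z
  · intro z _ z' _ hne
    exact Land_disjoint hne
  · exact fun z _ => measurableSet_Land hincm 0 z s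

lemma joint_union_diff [Nonempty Ξ] (hincm : Measurable (Function.uncurry inc)) (s : ℝ)
    (S : Finset V) :
    jointLaw ν ρ ((⋃ z ∈ S, Land inc L (0 : V) s z) \ Esc inc L 0) =
      ∫⁻ q, fluxSum inc L ρ s S q * aFlux inc L ρ q ∂(Measure.infinitePi (fun _ : V => ν)) := by
  classical
  have hset : (⋃ z ∈ S, Land inc L (0 : V) s z) \ Esc inc L 0 =
      ⋃ z ∈ S, (Land inc L (0 : V) s z \ Esc inc L 0) := by
    ext σ
    simp only [Set.mem_sdiff, Set.mem_iUnion, exists_prop]
    tauto
  rw [hset, measure_biUnion_finset]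
  · unfold fluxSum
    simp_rw [Finset.sum_mul]
    rw [lintegral_finsetSum' S fun z _ =>
      ((measurable_gFlux ρ hincm s z).fun_mul (measurable_aFlux ρ hincm)).aemeasurable]
    exact Finset.sum_congr rfl fun z _ => joint_land_diff ν ρ hincm s z
  · intro z _ z' _ hne
    exact (Land_disjoint hne).mono Set.sdiff_subset Set.sdiff_subset
  · exact fun z _ => (measurableSet_Land hincm 0 z s).diff (measurableSet_Esc hincm 0)

/-- **The flux inequality.** -/
theorem flux_inequality (hincm : Measurable (Function.uncurry inc)) (s s' : ℝ) (S S' : Finset V) :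
    jointLaw ν ρ (⋃ z ∈ S, Land inc L (0 : V) s z) *
        jointLaw ν ρ (⋃ z ∈ S', Land inc (-L) (0 : V) s' z) ≤
      (S'.card : ℝ≥0∞) * jointLaw ν ρ ((⋃ z ∈ S, Land inc L (0 : V) s z) \ Esc inc L 0) +
      (S.card : ℝ≥0∞) * jointLaw ν ρ ((⋃ z ∈ S', Land inc (-L) (0 : V) s' z) \ Esc inc (-L) 0) := by
  classical
  have : Nonempty A := ν.nonempty_of_neZero
  have : Nonempty Ξ := ρ.nonempty_of_neZero
  set P := Measure.infinitePi (fun _ : V => ν) with hP
  rw [joint_union ν ρ hincm, joint_union ν ρ hincm, joint_union_diff ν ρ hincm,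
    joint_union_diff ν ρ hincm]
  rw [← hP]
  set Φ := fluxSum inc L ρ s S with hΦ
  set Φ' := fluxSum inc (-L) ρ s' S' with hΦ'
  set a := aFlux inc L ρ with ha
  set a' := aFlux inc (-L) ρ with ha'
  have hΦm : Measurable Φ := measurable_fluxSum ρ hincm s S
  have hΦ'm : Measurable Φ' := measurable_fluxSum ρ hincm s' S'
  have ham : Measurable a := measurable_aFlux ρ hincm
  have ha'm : Measurable a' := measurable_aFlux ρ hincm
  have hI : Disjoint {v : V | L v < 0} {v : V | (-L) v < 0} := by
    rw [Set.disjoint_left]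
    intro v h1 h2
    simp only [Set.mem_ofPred_eq, AddMonoidHom.neg_apply] at h1 h2
    linarith
  have hind := indep_blocks (ι := V) ν hI
  have hfac : ∫⁻ q, Φ q * Φ' q ∂P = (∫⁻ q, Φ q ∂P) * ∫⁻ q, Φ' q ∂P :=
    lintegral_mul_eq_lintegral_mul_lintegral_of_independent_measurableSpace
      (iSup_comap_le _) (iSup_comap_le _) hind
      (measurable_iSup_of_depends _ _ hΦm fun q q' h => fluxSum_congr ρ s S fun v hv => h v hv)
      (measurable_iSup_of_depends _ _ hΦ'm fun q q' h => fluxSum_congr ρ s' S' fun v hv => h v hv)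
  rw [← hfac]
  calc ∫⁻ q, Φ q * Φ' q ∂P
      ≤ ∫⁻ q, (Φ q * Φ' q * a q + Φ q * Φ' q * a' q) ∂P := by
        refine lintegral_mono fun q => ?_
        rw [← mul_add]
        calc Φ q * Φ' q = Φ q * Φ' q * 1 := (mul_one _).symm
          _ ≤ _ := mul_le_mul_right (aFlux_add_ge_one ρ q) _
    _ = ∫⁻ q, Φ q * Φ' q * a q ∂P + ∫⁻ q, Φ q * Φ' q * a' q ∂P :=
        lintegral_add_left ((hΦm.mul hΦ'm).mul ham) _
    _ ≤ ∫⁻ q, (S'.card : ℝ≥0∞) * (Φ q * a q) ∂P + ∫⁻ q, (S.card : ℝ≥0∞) * (Φ' q * a' q) ∂P := by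
        refine add_le_add (lintegral_mono fun q => ?_) (lintegral_mono fun q => ?_)
        · calc Φ q * Φ' q * a q = Φ' q * (Φ q * a q) := by ring
            _ ≤ _ := mul_le_mul_left (fluxSum_le_card ρ s' S' q) _
        · calc Φ q * Φ' q * a' q = Φ q * (Φ' q * a' q) := by ring
            _ ≤ _ := mul_le_mul_left (fluxSum_le_card ρ s S q) _
    _ = _ := by
        rw [lintegral_const_mul _ (hΦm.fun_mul ham), lintegral_const_mul _ (hΦ'm.fun_mul ha'm)]

end Flux

end Vale.Agent.Lib.P147
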