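import Vale.Agent.Lib.P147.ProbLevel

/-!
# The hazard inequality: disjoint upward and downward excursions
-/

open MeasureTheory ProbabilityTheory Filter Set
open scoped ENNReal

namespace Vale.Agent.Lib.P147

variable {d : ℕ} {i₀ : Fin d} {μ : Measure (Row d)} [IsProbabilityMeasure μ]

section Tail

variable (L : Site d →+ ℤ)

lemma DL_congr {ξ : ℕ → ℝ} {q q' : Site d → Row d} (h : ∀ v, 0 ≤ L v → q v = q' v)
    (hs : (ξ, q) ∈ DL i₀ L) : (ξ, q') ∈ DL i₀ L := by
  have hw : ∀ n, W i₀ (ξ, q') n = W i₀ (ξ, q) n := by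
    intro n
    exact walk_congr_env (n := n) (fun k _ => h _ (hs.1 k)) n le_rfl
  refine ⟨fun n => ?_, fun K => ?_⟩
  · rw [hw]
    exact hs.1 n
  · obtain ⟨N, hN⟩ := hs.2 K
    exact ⟨N, fun n hn => by rw [hw]; exact hN n hn⟩

lemma DL_congr_iff (ξ : ℕ → ℝ) (q q' : Site d → Row d) (h : ∀ v ∈ {v | 0 ≤ L v}, q v = q' v) :
    (ξ, q) ∈ DL i₀ L ↔ (ξ, q') ∈ DL i₀ L :=
  ⟨DL_congr L h, DL_congr L fun v hv => (h v hv).symm⟩

end Tail

section Hazard

variable (L : Site d →+ ℤ) (proj : Site d →+ ℤ × ℤ) (e1 f1 : Step d)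

/-- The word of the whole path attached to a pair. -/
def pathWord (x y : List (Step d)) : List (Step d) := x ++ ([e1, f1] ++ y)

variable {L proj e1 f1}
variable (hL1 : L (stepVec e1) = 0) (hLf : L (stepVec f1) = -1)
  (hp1 : proj (stepVec e1) = D00) (hpf : proj (stepVec f1) = 0)

include hL1 hLf in
/-- Position of the start of the downward excursion. -/
lemma level_start (x : List (Step d)) :
    L (endP (endP 0 x) [e1, f1]) = L (endP 0 x) - 1 := by
  simp only [endP_cons, endP_nil, map_add, hL1, hLf]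
  ring

include hL1 hLf hp1 hpf in
/-- If the two excursions overlap, then the base point is an obstacle. -/
lemma overlap_mem (g : RM.PairT (wordM L).rev (wordM (-L))) {v : Site d}
    (hx : v ∈ posL 0 g.1.1.1) (hy : v ∈ posL (endP (endP 0 g.1.1.1) [e1, f1]) g.1.2.1) :
    D00 ∈ RM.pairO (profA L proj) (profB (-L) proj) g := by
  rw [RM.mem_pairO]
  set E := endP 0 g.1.1.1 with hE
  have hYs : endP E [e1, f1] = E + stepVec e1 + stepVec f1 := rfl
  rw [mem_posL_iff] at hy
  set z' := v - endP E [e1, f1] with hz'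
  obtain ⟨m₁, h₁⟩ := g.1.1.2
  refine ⟨(L E - L v - 1).toNat, proj (v - E), proj z', ?_, ?_, ?_⟩
  · refine List.mem_map.mpr ⟨v, List.mem_reverse.mpr hx, rfl⟩
  · refine List.mem_map.mpr ⟨z', hy, ?_⟩
    refine Prod.ext ?_ rfl
    simp only [hz', hYs, AddMonoidHom.neg_apply, map_sub, map_add, hL1, hLf]
    congr 1
    ring
  · rw [hz', hYs]
    simp only [map_sub, map_add, hp1, hpf]
    abel

include hL1 hLf hp1 hpf in
lemma disjoint_first (g : RM.PairT (wordM L).rev (wordM (-L)))
    (hg : D00 ∉ RM.pairO (profA L proj) (profB (-L) proj) g) :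
    ∀ v ∈ posL 0 g.1.1.1, v ∉ posL (endP 0 g.1.1.1) ([e1, f1] ++ g.1.2.1) := by
  intro v hv hv'
  obtain ⟨m, hm⟩ := g.1.1.2
  have h1 := (hm.1 v hv).2
  rw [posL_append, List.mem_append] at hv'
  rcases hv' with hv' | hv'
  · simp only [posL_cons, posL_nil, List.mem_cons, List.not_mem_nil, or_false] at hv'
    rcases hv' with rfl | rfl
    · rw [hm.2] at h1
      omega
    · rw [map_add, hm.2, hL1] at h1
      omega
  · exact hg (overlap_mem hL1 hLf hp1 hpf g hv hv')

include hL1 hLf in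
lemma disjoint_second (y : List (Step d)) (hy : ∃ m : ℕ, Strip (-L) m y) :
    ∀ v ∈ posL 0 [e1, f1], v ∉ posL (endP 0 [e1, f1]) y := by
  intro v hv hv'
  obtain ⟨m, hm⟩ := hy
  have h0 : L v = 0 := by
    simp only [posL_cons, posL_nil, List.mem_cons, List.not_mem_nil, or_false, zero_add] at hv
    rcases hv with rfl | rfl
    · simp
    · exact hL1
  rw [mem_posL_iff] at hv'
  have h1 := (hm.1 _ hv').1
  have hYs : endP (0 : Site d) [e1, f1] = 0 + stepVec e1 + stepVec f1 := rfl
  rw [hYs] at h1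
  simp only [AddMonoidHom.neg_apply, map_sub, map_add, map_zero, hL1, hLf, h0] at h1
  omega

lemma disjoint_pair (hne : stepVec e1 ≠ 0) : ∀ v ∈ posL 0 [e1], v ∉ posL (endP 0 [e1]) [f1] := by
  intro v hv hv'
  simp only [posL_cons, posL_nil, List.mem_cons, List.not_mem_nil, or_false, endP_cons,
    endP_nil, zero_add] at hv hv'
  exact hne (hv'.symm.trans hv)

include hL1 hLf hp1 hpf in
/-- The annealed weight of the whole word factorizes when the excursions do not overlap. -/
lemma wt_pathWord (g : RM.PairT (wordM L).rev (wordM (-L)))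
    (hg : D00 ∉ RM.pairO (profA L proj) (profB (-L) proj) g) :
    wt μ (pathWord e1 f1 g.1.1.1 g.1.2.1) = wt μ g.1.1.1 * (wt μ [e1, f1] * wt μ g.1.2.1) := by
  rw [pathWord, wt_append (disjoint_first hL1 hLf hp1 hpf g hg),
    wt_append (disjoint_second hL1 hLf _ g.1.2.2)]

include hL1 hLf in
/-- The end of the whole word is on the level `-1`. -/
lemma level_end (g : RM.PairT (wordM L).rev (wordM (-L))) :
    L (endP 0 (pathWord e1 f1 g.1.1.1 g.1.2.1)) = -1 := by
  obtain ⟨m₁, h₁⟩ := g.1.1.2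
  obtain ⟨m₂, h₂⟩ := g.1.2.2
  have hm : m₁ = m₂ := by
    have h3 := g.2
    have e1' : (wordM L).rev.lev g.1.1 = m₁ := h₁.lev
    have e2' : (wordM (-L)).lev g.1.2 = m₂ := h₂.lev
    rw [e1', e2'] at h3
    exact h3
  subst hm
  rw [pathWord, endP_append, endP_append, endP_eq_add, map_add, level_start hL1 hLf, h₁.2]
  have h3 := h₂.2
  simp only [AddMonoidHom.neg_apply] at h3
  omega

include hL1 hLf in
/-- All departure points of the whole word are on nonnegative levels. -/
lemma level_pos (g : RM.PairT (wordM L).rev (wordM (-L))) {v : Site d}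
    (hv : v ∈ posL 0 (pathWord e1 f1 g.1.1.1 g.1.2.1)) : 0 ≤ L v := by
  obtain ⟨m₁, h₁⟩ := g.1.1.2
  obtain ⟨m₂, h₂⟩ := g.1.2.2
  have hm : m₁ = m₂ := by
    have h3 := g.2
    have e1' : (wordM L).rev.lev g.1.1 = m₁ := h₁.lev
    have e2' : (wordM (-L)).lev g.1.2 = m₂ := h₂.lev
    rw [e1', e2'] at h3
    exact h3
  subst hm
  rw [pathWord, posL_append, List.mem_append, posL_append, List.mem_append] at hv
  rcases hv with hv | hv | hv
  · exact (h₁.1 v hv).1
  · simp only [posL_cons, posL_nil, List.mem_cons, List.not_mem_nil, or_false] at hv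
    rcases hv with rfl | rfl
    · rw [h₁.2]
      omega
    · rw [map_add, h₁.2, hL1]
      omega
  · rw [mem_posL_iff] at hv
    have h3 := (h₂.1 _ hv).2
    simp only [AddMonoidHom.neg_apply, map_sub] at h3
    rw [level_start hL1 hLf, h₁.2] at h3
    omega

include hL1 hLf in
/-- All departure points of the whole word are below the level of the top. -/
lemma level_top (g : RM.PairT (wordM L).rev (wordM (-L))) {v : Site d}
    (hv : v ∈ posL 0 (pathWord e1 f1 g.1.1.1 g.1.2.1)) : L v ≤ L (endP 0 g.1.1.1) := by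
  obtain ⟨m₁, h₁⟩ := g.1.1.2
  obtain ⟨m₂, h₂⟩ := g.1.2.2
  rw [pathWord, posL_append, List.mem_append, posL_append, List.mem_append] at hv
  rw [h₁.2]
  rcases hv with hv | hv | hv
  · exact (h₁.1 v hv).2.le
  · simp only [posL_cons, posL_nil, List.mem_cons, List.not_mem_nil, or_false] at hv
    rcases hv with rfl | rfl
    · rw [h₁.2]
    · rw [map_add, h₁.2, hL1]
      omega
  · rw [mem_posL_iff] at hv
    have h3 := (h₂.1 _ hv).1
    simp only [AddMonoidHom.neg_apply, map_sub] at h3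
    rw [level_start hL1 hLf, h₁.2] at h3
    omega

/-- The event attached to a pair. -/
def hazEvent (i₀ : Fin d) (L : Site d →+ ℤ) (e1 f1 : Step d) (x y : List (Step d)) : Set (Om d) :=
  {s | Foll i₀ s.2 s.1 0 (pathWord e1 f1 x y) ∧
    (shiftNoise (pathWord e1 f1 x y).length s.1,
      shiftEnv (endP 0 (pathWord e1 f1 x y)) s.2) ∈ DL i₀ (-L)}

lemma measurableSet_hazEvent (x y : List (Step d)) : MeasurableSet (hazEvent i₀ L e1 f1 x y) := by
  have hτ : Measurable (fun s : Om d =>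
      (shiftNoise (pathWord e1 f1 x y).length s.1,
        shiftEnv (endP 0 (pathWord e1 f1 x y)) s.2)) :=
    ((measurable_shiftNoise _).comp measurable_fst).prodMk
      ((measurable_shiftEnv _).comp measurable_snd)
  exact (measurableSet_foll 0 _).inter (hτ (measurableSet_DL (-L)))

include hL1 hLf hp1 hpf in
/-- The probability of the event attached to a pair without overlap. -/
lemma joint_hazEvent (g : RM.PairT (wordM L).rev (wordM (-L)))
    (hg : D00 ∉ RM.pairO (profA L proj) (profB (-L) proj) g) :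
    jointLaw μ unif0 (hazEvent i₀ L e1 f1 g.1.1.1 g.1.2.1) =
      (wt μ g.1.1.1 * wt μ g.1.2.1) * (wt μ [e1, f1] * jointLaw μ unif0 (DL i₀ (-L))) := by
  have h1 := joint_foll_tail (μ := μ) i₀ (pathWord e1 f1 g.1.1.1 g.1.2.1) (DL i₀ (-L))
    (measurableSet_DL (-L)) {v | 0 ≤ (-L) v} (DL_congr_iff (-L))
    (fun v hv => by
      have h2 := level_pos hL1 hLf g hv
      have h3 := level_end hL1 hLf g
      simp only [Set.mem_ofPred_eq, AddMonoidHom.neg_apply, map_sub, h3]
      omega)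
  unfold hazEvent
  rw [h1, wt_pathWord hL1 hLf hp1 hpf g hg]
  ring

/-- Levels of the walker on the event attached to a pair. -/
lemma level_le_top_of_hazEvent (hL1 : L (stepVec e1) = 0) (hLf : L (stepVec f1) = -1)
    (g : RM.PairT (wordM L).rev (wordM (-L))) {s : Om d}
    (hs : s ∈ hazEvent i₀ L e1 f1 g.1.1.1 g.1.2.1) (n : ℕ) :
    L (W i₀ s n) ≤ L (endP 0 g.1.1.1) := by
  obtain ⟨hf, ht⟩ := hs
  set l := pathWord e1 f1 g.1.1.1 g.1.2.1 with hl
  by_cases hn : n < l.length
  · exact level_top hL1 hLf g (walk_foll_mem hf hn)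
  · obtain ⟨k, rfl⟩ : ∃ k, n = l.length + k := ⟨n - l.length, by omega⟩
    have h1 := W_shiftOm (i₀ := i₀) s l.length k
    have h2 : W i₀ s l.length = endP 0 l := walk_foll_end hf
    rw [h2] at h1
    have h3 := ht.1 k
    have h4 : (shiftNoise l.length s.1, shiftEnv (endP 0 l) s.2) = shiftOm l.length (endP 0 l) s := rfl
    rw [h4] at h3
    rw [← h1, map_add, level_end hL1 hLf g]
    simp only [AddMonoidHom.neg_apply] at h3
    obtain ⟨m₁, h₁⟩ := g.1.1.2
    rw [h₁.2]
    omega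

/-- The events attached to different pairs are disjoint. -/
lemma hazEvent_disjoint (hL1 : L (stepVec e1) = 0) (hLf : L (stepVec f1) = -1)
    {g g' : RM.PairT (wordM L).rev (wordM (-L))} (hne : g ≠ g') :
    Disjoint (hazEvent i₀ L e1 f1 g.1.1.1 g.1.2.1) (hazEvent i₀ L e1 f1 g'.1.1.1 g'.1.2.1) := by
  rw [Set.disjoint_left]
  intro s hs hs'
  apply hne
  obtain ⟨m₁, h₁⟩ := g.1.1.2
  obtain ⟨m₂, h₂⟩ := g.1.2.2
  obtain ⟨m₁', h₁'⟩ := g'.1.1.2
  obtain ⟨m₂', h₂'⟩ := g'.1.2.2
  have hf := hs.1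
  have hf' := hs'.1
  rw [pathWord, foll_append] at hf hf'
  -- the maximal levels coincide
  have htop : ∀ {a b : RM.PairT (wordM L).rev (wordM (-L))},
      s ∈ hazEvent i₀ L e1 f1 a.1.1.1 a.1.2.1 → Foll i₀ s.2 s.1 0 b.1.1.1 →
      L (endP 0 b.1.1.1) ≤ L (endP 0 a.1.1.1) := by
    intro a b ha hb
    have h3 := level_le_top_of_hazEvent hL1 hLf a ha b.1.1.1.length
    have h4 : W i₀ s b.1.1.1.length = endP 0 b.1.1.1 := walk_foll_end hb
    rwa [h4] at h3
  have h5 := htop hs hf'.1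
  have h6 := htop hs' hf.1
  rw [h₁.2, h₁'.2] at h5 h6
  have hm : m₁ = m₁' := by omega
  subst hm
  have hx : g.1.1.1 = g'.1.1.1 := foll_strip_unique hf.1 hf'.1 h₁ h₁'
  -- the equal levels of the two components
  have hm₂ : m₁ = m₂ := by
    have h3 := g.2
    have e1' : (wordM L).rev.lev g.1.1 = m₁ := h₁.lev
    have e2' : (wordM (-L)).lev g.1.2 = m₂ := h₂.lev
    rw [e1', e2'] at h3
    exact h3
  have hm₂' : m₁ = m₂' := by
    have h3 := g'.2
    have e1' : (wordM L).rev.lev g'.1.1 = m₁ := h₁'.lev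
    have e2' : (wordM (-L)).lev g'.1.2 = m₂' := h₂'.lev
    rw [e1', e2'] at h3
    exact h3
  subst hm₂
  subst hm₂'
  have hf2 := hf.2
  have hf2' := hf'.2
  rw [← hx] at hf2'
  rw [foll_append] at hf2 hf2'
  have hy1 := hf2.2
  have hy2 := hf2'.2
  set Ys := endP (endP 0 g.1.1.1) [e1, f1] with hYs
  set ξ' := shiftNoise [e1, f1].length (shiftNoise g.1.1.1.length s.1) with hξ'
  have hy1' : Foll i₀ (shiftEnv Ys s.2) ξ' 0 g.1.2.1 := by
    have : Foll i₀ s.2 ξ' (0 + Ys) g.1.2.1 := by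
      rw [zero_add]
      exact hy1
    exact foll_translate.mp this
  have hy2' : Foll i₀ (shiftEnv Ys s.2) ξ' 0 g'.1.2.1 := by
    have : Foll i₀ s.2 ξ' (0 + Ys) g'.1.2.1 := by
      rw [zero_add]
      exact hy2
    exact foll_translate.mp this
  have hy : g.1.2.1 = g'.1.2.1 := foll_strip_unique hy1' hy2' h₂ h₂'
  exact Subtype.ext (Prod.ext (Subtype.ext hx) (Subtype.ext hy))

include hL1 hLf hp1 hpf in
/-- **The hazard inequality.** -/
theorem hazard (i₀ : Fin d) :
    RM.Vbar (profA L proj) (profB (-L) proj) (wtW L μ) (wtW (-L) μ) D00 *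
      (wt μ [e1, f1] * jointLaw μ unif0 (DL i₀ (-L))) ≤ 1 := by
  classical
  set c := wt μ [e1, f1] * jointLaw μ unif0 (DL i₀ (-L)) with hc
  let A : RM.PairT (wordM L).rev (wordM (-L)) → Set (Om d) := fun g =>
    if D00 ∈ RM.pairO (profA L proj) (profB (-L) proj) g then ∅
    else hazEvent i₀ L e1 f1 g.1.1.1 g.1.2.1
  have hAm : ∀ g, MeasurableSet (A g) := by
    intro g
    by_cases hg : D00 ∈ RM.pairO (profA L proj) (profB (-L) proj) g
    · simp [A, hg]
    · simp only [A, if_neg hg]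
      exact measurableSet_hazEvent _ _
  have hdisj : Pairwise (Function.onFun Disjoint A) := by
    intro g g' hgg
    rw [Function.onFun]
    by_cases hg : D00 ∈ RM.pairO (profA L proj) (profB (-L) proj) g
    · simp [A, hg]
    · by_cases hg' : D00 ∈ RM.pairO (profA L proj) (profB (-L) proj) g'
      · simp [A, hg']
      · simp only [A, if_neg hg, if_neg hg']
        exact hazEvent_disjoint hL1 hLf hgg
  have h1 := tsum_meas_le_meas_iUnion_of_disjoint (jointLaw (V := Site d) μ unif0) hAm hdisj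
  have h2 : RM.Vbar (profA L proj) (profB (-L) proj) (wtW L μ) (wtW (-L) μ) D00 * c =
      ∑' g, jointLaw (V := Site d) μ unif0 (A g) := by
    unfold RM.Vbar
    rw [← ENNReal.tsum_mul_right]
    refine tsum_congr fun g => ?_
    by_cases hg : D00 ∈ RM.pairO (profA L proj) (profB (-L) proj) g
    · simp [A, hg]
    · simp only [A, if_neg hg, mul_one]
      rw [joint_hazEvent hL1 hLf hp1 hpf g hg]
      rfl
  rw [h2]
  exact h1.trans prob_le_one

end Hazard

end Vale.Agent.Lib.P147
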