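import Vale.Agent.Lib.P147.Words
import Vale.Agent.Lib.P147.Flux

/-!
# Walks following words: weights and independence
-/

open MeasureTheory ProbabilityTheory Filter Set
open scoped ENNReal

namespace Vale.Agent.Lib.P147

variable {d : ℕ}

section Inc

variable (i₀ : Fin d)

open Classical in
/-- The step selected by the noise `u` at a site with row `p`. -/
noncomputable def stepOf (p : Row d) (u : ℝ) : Step d :=
  if h : ∃ f : Step d, inc0 p u = stepVec f then h.choose else (i₀, true)

/-- The increment selected by the noise: always a unit step. -/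
noncomputable def inc1 (p : Row d) (u : ℝ) : Site d := stepVec (stepOf i₀ p u)

variable {i₀}

lemma stepOf_eq_iff {p : Row d} {u : ℝ} {f : Step d} :
    stepOf i₀ p u = f ↔ inc1 i₀ p u = stepVec f :=
  ⟨fun h => by rw [inc1, h], fun h => stepVec_injective h⟩

lemma inc1_eq_ite (p : Row d) (u : ℝ) :
    inc1 i₀ p u = if inc0 p u = 0 then stepVec (i₀, true) else inc0 p u := by
  classical
  unfold inc1 stepOf
  rcases inc0_bound p u with h | h
  · have h2 : ¬ ∃ f : Step d, inc0 p u = stepVec f := by
      rintro ⟨f, hf⟩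
      exact stepVec_ne_zero f (hf.symm.trans h)
    rw [dif_neg h2, if_pos h]
  · rw [dif_pos h, if_neg, ← h.choose_spec]
    intro h0
    obtain ⟨f, hf⟩ := h
    exact stepVec_ne_zero f (hf.symm.trans h0)

lemma measurable_inc1 : Measurable (Function.uncurry (inc1 (d := d) i₀)) := by
  have h : Function.uncurry (inc1 (d := d) i₀) =
      fun s : Row d × ℝ => if inc0 s.1 s.2 = 0 then stepVec (i₀, true) else inc0 s.1 s.2 := by
    funext s
    exact inc1_eq_ite s.1 s.2
  rw [h]
  have h2 : Measurable (fun s : Row d × ℝ => inc0 s.1 s.2) := measurable_inc0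
  exact Measurable.ite (h2 (measurableSet_singleton 0)) measurable_const h2

lemma measurableSet_inc1 (p : Row d) (v : Site d) : MeasurableSet {u | inc1 i₀ p u = v} := by
  have h1 : Measurable (fun u : ℝ => inc1 i₀ p u) :=
    measurable_inc1.comp (measurable_const.prodMk measurable_id)
  exact h1 (measurableSet_singleton v)

lemma inc1_ae (p : Row d) : ∀ᵐ u ∂unif0, inc1 i₀ p u = inc0 p u := by
  have h0 : unif0 {u | inc0 p u = 0} = 0 :=
    inc0_other p 0 stepVec_ne_zero
  have : {u | ¬ (inc1 i₀ p u = inc0 p u)} ⊆ {u | inc0 p u = 0} := by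
    intro u hu
    by_contra h2
    have h3 : ¬ inc0 p u = 0 := h2
    apply hu
    show inc1 i₀ p u = inc0 p u
    rw [inc1_eq_ite, if_neg h3]
  exact measure_mono_null this h0

lemma unif0_inc1 (p : Row d) (v : Site d) :
    unif0 {u | inc1 i₀ p u = v} = unif0 {u | inc0 p u = v} := by
  refine measure_congr ?_
  filter_upwards [inc1_ae (i₀ := i₀) p] with u hu
  simp only [eq_iff_iff]
  show inc1 i₀ p u = v ↔ inc0 p u = v
  rw [hu]

lemma unif0_stepOf (p : Row d) (f : Step d) :
    unif0 {u | stepOf i₀ p u = f} = ENNReal.ofReal (p.1 f) := by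
  have : {u | stepOf i₀ p u = f} = {u | inc1 i₀ p u = stepVec f} := by
    ext u
    exact stepOf_eq_iff
  rw [this, unif0_inc1, inc0_stepVec]

lemma measurableSet_stepOf (p : Row d) (f : Step d) : MeasurableSet {u | stepOf i₀ p u = f} := by
  have : {u | stepOf i₀ p u = f} = {u | inc1 i₀ p u = stepVec f} := by
    ext u
    exact stepOf_eq_iff
  rw [this]
  exact measurableSet_inc1 p _

end Inc

section Law

variable {i₀ : Fin d} {μ : Measure (Row d)} [IsProbabilityMeasure μ]

/-- The walker with the noise `inc1`. -/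
noncomputable def pathMap1 (i₀ : Fin d) : (ℕ → ℝ) × (Site d → Row d) → (ℕ → Site d) :=
  fun s n => walk (inc1 i₀) s.2 s.1 0 n

lemma measurable_pathMap1 : Measurable (pathMap1 (d := d) i₀) :=
  measurable_pi_lambda _ fun n => measurable_walk measurable_inc1 0 n

lemma jointLaw1_cylinder (n : ℕ) (x : ℕ → Site d) (hx : x 0 = 0) :
    (jointLaw μ unif0).map (pathMap1 i₀) {X | ∀ i ≤ n, X i = x i} =
      ∫⁻ ω, ∏ i ∈ Finset.range n, ENNReal.ofReal (quenchedStep ω (x i) (x (i + 1))) ∂(iidLaw μ) := by
  have hcyl : MeasurableSet {X : ℕ → Site d | ∀ i ≤ n, X i = x i} := by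
    have : {X : ℕ → Site d | ∀ i ≤ n, X i = x i} = ⋂ i ∈ Finset.range (n + 1), {X | X i = x i} := by
      ext X
      simp only [Set.mem_ofPred_eq, Set.mem_iInter, Finset.mem_range]
      exact ⟨fun h i hi => h i (by omega), fun h i hi => h i (by omega)⟩
    rw [this]
    exact Finset.measurableSet_biInter _ fun i _ => measurableSet_coord i (x i)
  rw [Measure.map_apply measurable_pathMap1 hcyl, jointLaw,
    Measure.prod_apply_symm (measurable_pathMap1 hcyl)]
  refine lintegral_congr fun q => ?_
  have hset : (fun ξ : ℕ → ℝ => (ξ, q)) ⁻¹' (pathMap1 i₀ ⁻¹' {X | ∀ i ≤ n, X i = x i}) =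
      Set.pi (Finset.range n : Set ℕ) (fun i => {u | inc1 i₀ (q (x i)) u = x (i + 1) - x i}) := by
    ext ξ
    simp only [Set.mem_preimage, Set.mem_ofPred_eq, Set.mem_pi, Finset.mem_coe, Finset.mem_range,
      pathMap1]
    exact walk_follow_iff (inc1 i₀) q ξ x hx n
  rw [hset, Measure.infinitePi_pi]
  · refine Finset.prod_congr rfl fun i _ => ?_
    rw [unif0_inc1]
    exact inc0_eq q (x i) (x (i + 1))
  · exact fun i _ => measurableSet_inc1 _ _

lemma isAnnealedLaw_map1 : IsAnnealedLaw μ ((jointLaw μ unif0).map (pathMap1 i₀)) :=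
  ⟨Measure.isProbabilityMeasure_map measurable_pathMap1.aemeasurable, jointLaw1_cylinder⟩

end Law

section Follow

variable (i₀ : Fin d)

/-- The word of the first `n` steps of the walker. -/
noncomputable def traj (q : Site d → Row d) : (ℕ → ℝ) → Site d → ℕ → List (Step d)
  | _, _, 0 => []
  | ξ, z, n + 1 => stepOf i₀ (q z) (ξ 0) ::
      traj q (shiftNoise 1 ξ) (z + stepVec (stepOf i₀ (q z) (ξ 0))) n

/-- The walker started at `z` follows the word `l`. -/
def Foll (q : Site d → Row d) : (ℕ → ℝ) → Site d → List (Step d) → Prop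
  | _, _, [] => True
  | ξ, z, e :: t => stepOf i₀ (q z) (ξ 0) = e ∧ Foll q (shiftNoise 1 ξ) (z + stepVec e) t

variable {i₀} {q : Site d → Row d}

@[simp] lemma foll_nil (ξ : ℕ → ℝ) (z : Site d) : Foll i₀ q ξ z [] := trivial

lemma foll_cons (ξ : ℕ → ℝ) (z : Site d) (e : Step d) (t : List (Step d)) :
    Foll i₀ q ξ z (e :: t) ↔
      stepOf i₀ (q z) (ξ 0) = e ∧ Foll i₀ q (shiftNoise 1 ξ) (z + stepVec e) t := Iff.rfl

lemma foll_traj (ξ : ℕ → ℝ) (z : Site d) (n : ℕ) : Foll i₀ q ξ z (traj i₀ q ξ z n) := by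
  induction n generalizing ξ z with
  | zero => trivial
  | succ n ih => exact ⟨rfl, ih _ _⟩

lemma length_traj (ξ : ℕ → ℝ) (z : Site d) (n : ℕ) : (traj i₀ q ξ z n).length = n := by
  induction n generalizing ξ z with
  | zero => rfl
  | succ n ih =>
    simp only [traj, List.length_cons, ih]

lemma shiftNoise_comp (n : ℕ) (ξ : ℕ → ℝ) :
    shiftNoise n (shiftNoise 1 ξ) = shiftNoise (n + 1) ξ := rfl

lemma foll_append (ξ : ℕ → ℝ) (z : Site d) (l₁ l₂ : List (Step d)) :
    Foll i₀ q ξ z (l₁ ++ l₂) ↔
      Foll i₀ q ξ z l₁ ∧ Foll i₀ q (shiftNoise l₁.length ξ) (endP z l₁) l₂ := by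
  induction l₁ generalizing ξ z with
  | nil =>
    have : shiftNoise 0 ξ = ξ := rfl
    simp [this]
  | cons e t ih =>
    simp only [List.cons_append, foll_cons, ih, and_assoc, endP_cons, List.length_cons]
    rfl

/-- Two words followed by the same walker are comparable. -/
lemma foll_prefix {ξ : ℕ → ℝ} {z : Site d} {l l' : List (Step d)} (h : Foll i₀ q ξ z l)
    (h' : Foll i₀ q ξ z l') (hl : l.length ≤ l'.length) : l <+: l' := by
  induction l generalizing ξ z l' with
  | nil => exact List.nil_prefix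
  | cons e t ih =>
    cases l' with
    | nil => simp at hl
    | cons e' t' =>
      obtain ⟨h1, h2⟩ := h
      obtain ⟨h1', h2'⟩ := h'
      have he : e = e' := h1.symm.trans h1'
      subst he
      have := ih h2 h2' (by simpa using hl)
      exact List.cons_prefix_cons.mpr ⟨rfl, this⟩

/-- The walker driven by `inc1`. -/
lemma walk1_succ (ξ : ℕ → ℝ) (z : Site d) (n : ℕ) :
    walk (inc1 i₀) q ξ z (n + 1) =
      walk (inc1 i₀) q (shiftNoise 1 ξ) (z + stepVec (stepOf i₀ (q z) (ξ 0))) n := by
  rw [Nat.add_comm, walk_add]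
  rfl

lemma walk_foll_end {ξ : ℕ → ℝ} {z : Site d} {l : List (Step d)} (h : Foll i₀ q ξ z l) :
    walk (inc1 i₀) q ξ z l.length = endP z l := by
  induction l generalizing ξ z with
  | nil => rfl
  | cons e t ih =>
    obtain ⟨h1, h2⟩ := h
    rw [List.length_cons, walk1_succ, h1]
    exact ih h2

lemma walk_foll_mem {ξ : ℕ → ℝ} {z : Site d} {l : List (Step d)} (h : Foll i₀ q ξ z l) {k : ℕ}
    (hk : k < l.length) : walk (inc1 i₀) q ξ z k ∈ posL z l := by
  induction l generalizing ξ z k with
  | nil => simp at hk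
  | cons e t ih =>
    obtain ⟨h1, h2⟩ := h
    cases k with
    | zero => simp
    | succ k =>
      rw [walk1_succ, h1, posL_cons]
      exact List.mem_cons_of_mem _ (ih h2 (by simpa using hk))

lemma walk_eq_end_traj (ξ : ℕ → ℝ) (z : Site d) (n : ℕ) :
    walk (inc1 i₀) q ξ z n = endP z (traj i₀ q ξ z n) := by
  have := walk_foll_end (foll_traj (i₀ := i₀) (q := q) ξ z n)
  rwa [length_traj] at this

lemma mem_posL_traj {ξ : ℕ → ℝ} {z v : Site d} {n : ℕ} (h : v ∈ posL z (traj i₀ q ξ z n)) :
    ∃ k < n, walk (inc1 i₀) q ξ z k = v := by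
  induction n generalizing ξ z with
  | zero => simp [traj] at h
  | succ n ih =>
    simp only [traj, posL_cons, List.mem_cons] at h
    rcases h with rfl | h
    · exact ⟨0, by omega, rfl⟩
    · obtain ⟨k, hk, hv⟩ := ih h
      exact ⟨k + 1, by omega, by rw [walk1_succ]; exact hv⟩

lemma foll_congr_env {q' : Site d → Row d} {ξ : ℕ → ℝ} {z : Site d} {l : List (Step d)}
    (h : ∀ v ∈ posL z l, q v = q' v) : Foll i₀ q ξ z l ↔ Foll i₀ q' ξ z l := by
  induction l generalizing ξ z with
  | nil => simp
  | cons e t ih =>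
    simp only [foll_cons]
    rw [h z (by simp), ih fun v hv => h v (by simp [hv])]

lemma foll_congr_noise {ξ ξ' : ℕ → ℝ} {z : Site d} {l : List (Step d)}
    (h : ∀ k < l.length, ξ k = ξ' k) : Foll i₀ q ξ z l ↔ Foll i₀ q ξ' z l := by
  induction l generalizing ξ ξ' z with
  | nil => simp
  | cons e t ih =>
    simp only [foll_cons]
    rw [h 0 (by simp), ih (ξ := shiftNoise 1 ξ) (ξ' := shiftNoise 1 ξ')]
    intro k hk
    exact h (k + 1) (by simpa using hk)

lemma foll_translate {ξ : ℕ → ℝ} {z w : Site d} {l : List (Step d)} :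
    Foll i₀ q ξ (z + w) l ↔ Foll i₀ (shiftEnv w q) ξ z l := by
  induction l generalizing ξ z with
  | nil => simp
  | cons e t ih =>
    simp only [foll_cons]
    have e1 : z + w + stepVec e = z + stepVec e + w := by abel
    rw [e1, ih]
    rfl

lemma measurableSet_foll (z : Site d) (l : List (Step d)) :
    MeasurableSet {s : (ℕ → ℝ) × (Site d → Row d) | Foll i₀ s.2 s.1 z l} := by
  induction l generalizing z with
  | nil => simp
  | cons e t ih =>
    have h1 : MeasurableSet {s : (ℕ → ℝ) × (Site d → Row d) | stepOf i₀ (s.2 z) (s.1 0) = e} := by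
      have h0 : Measurable (fun s : (ℕ → ℝ) × (Site d → Row d) => (s.2 z, s.1 0)) :=
        ((measurable_pi_apply z).comp measurable_snd).prodMk
          ((measurable_pi_apply 0).comp measurable_fst)
      have h2 : Measurable (fun s : (ℕ → ℝ) × (Site d → Row d) => inc1 i₀ (s.2 z) (s.1 0)) :=
        (measurable_inc1 (i₀ := i₀)).comp h0
      have h3 : {s : (ℕ → ℝ) × (Site d → Row d) | stepOf i₀ (s.2 z) (s.1 0) = e} =
          (fun s : (ℕ → ℝ) × (Site d → Row d) => inc1 i₀ (s.2 z) (s.1 0)) ⁻¹' {stepVec e} := by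
        ext s
        exact stepOf_eq_iff
      rw [h3]
      exact h2 (measurableSet_singleton _)
    have h4 : Measurable (fun s : (ℕ → ℝ) × (Site d → Row d) => (shiftNoise 1 s.1, s.2)) :=
      ((measurable_shiftNoise 1).comp measurable_fst).prodMk measurable_snd
    exact h1.inter (h4 (ih (z + stepVec e)))

end Follow

section Weights

/-- The quenched weight of a word started at `z`. -/
noncomputable def pathW (q : Site d → Row d) : Site d → List (Step d) → ℝ≥0∞
  | _, [] => 1
  | z, e :: t => ENNReal.ofReal ((q z).1 e) * pathW q (z + stepVec e) t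

lemma pathW_append (q : Site d → Row d) (z : Site d) (l₁ l₂ : List (Step d)) :
    pathW q z (l₁ ++ l₂) = pathW q z l₁ * pathW q (endP z l₁) l₂ := by
  induction l₁ generalizing z with
  | nil => simp [pathW]
  | cons e t ih =>
    simp only [List.cons_append, pathW, ih, endP_cons, mul_assoc]

lemma pathW_congr {q q' : Site d → Row d} {z : Site d} {l : List (Step d)}
    (h : ∀ v ∈ posL z l, q v = q' v) : pathW q z l = pathW q' z l := by
  induction l generalizing z with
  | nil => rfl
  | cons e t ih =>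
    simp only [pathW]
    rw [h z (by simp), ih fun v hv => h v (by simp [hv])]

lemma pathW_translate (q : Site d → Row d) (z w : Site d) (l : List (Step d)) :
    pathW q (z + w) l = pathW (shiftEnv w q) z l := by
  induction l generalizing z with
  | nil => rfl
  | cons e t ih =>
    simp only [pathW]
    have e1 : z + w + stepVec e = z + stepVec e + w := by abel
    rw [e1, ih]
    rfl

lemma measurable_pathW (z : Site d) (l : List (Step d)) :
    Measurable (fun q : Site d → Row d => pathW q z l) := by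
  induction l generalizing z with
  | nil => exact measurable_const
  | cons e t ih =>
    simp only [pathW]
    refine Measurable.mul ?_ (ih _)
    exact ENNReal.measurable_ofReal.comp ((measurable_row_apply e).comp (measurable_pi_apply z))

variable (ρ : Measure ℝ) [IsProbabilityMeasure ρ]

/-- Splitting of the noise at a deterministic time. -/
lemma noise_split [Nonempty ℝ] (n : ℕ) (A : Set (ℕ → ℝ)) (hA : MeasurableSet A)
    (hdep : ∀ a b : ℕ → ℝ, (∀ k < n, a k = b k) → (a ∈ A ↔ b ∈ A)) (B : Set (ℕ → ℝ))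
    (hB : MeasurableSet B) :
    (Measure.infinitePi (fun _ : ℕ => ρ)) {ξ | ξ ∈ A ∧ shiftNoise n ξ ∈ B} =
      (Measure.infinitePi (fun _ : ℕ => ρ)) A * (Measure.infinitePi (fun _ : ℕ => ρ)) B := by
  set R := Measure.infinitePi (fun _ : ℕ => ρ)
  have hInd := indep_blocks (ι := ℕ) ρ (I := Set.Iio n) (J := Set.Ici n)
    (Set.disjoint_left.mpr fun i hi hi' => absurd (show i < n from hi) (not_lt.mpr hi'))
  have hA' : MeasurableSet[⨆ i ∈ Set.Iio n,
      MeasurableSpace.comap (fun a : ℕ → ℝ => a i) inferInstance] A :=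
    measurableSet_iSup_of_depends _ _ hA fun a b hab => hdep a b fun k hk => hab k hk
  have hC : MeasurableSet[⨆ i ∈ Set.Ici n,
      MeasurableSpace.comap (fun a : ℕ → ℝ => a i) inferInstance]
      (shiftNoise n ⁻¹' B) := by
    refine measurableSet_iSup_of_depends _ _ (measurable_shiftNoise n hB) ?_
    intro a b hab
    have : shiftNoise n a = shiftNoise n b := by
      funext i
      exact hab (i + n) (by simp)
    simp only [Set.mem_preimage, this]
  have h1 := (Indep_iff _ _ _).mp hInd _ _ hA' hC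
  have h2 : R (shiftNoise n ⁻¹' B) = R B :=
    (measurePreserving_shiftNoise ρ n).measure_preimage hB.nullMeasurableSet
  rw [h2] at h1
  exact h1

variable {i₀ : Fin d}

lemma measurableSet_foll_noise (q : Site d → Row d) (z : Site d) (l : List (Step d)) :
    MeasurableSet {ξ : ℕ → ℝ | Foll i₀ q ξ z l} :=
  measurable_prodMk_right (measurableSet_foll (i₀ := i₀) z l)

/-- The quenched probability of following a word. -/
lemma noise_foll (q : Site d → Row d) (z : Site d) (l : List (Step d)) :
    (Measure.infinitePi (fun _ : ℕ => unif0)) {ξ | Foll i₀ q ξ z l} = pathW q z l := by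
  induction l generalizing z with
  | nil => simp [pathW]
  | cons e t ih =>
    have hS : MeasurableSet {ξ : ℕ → ℝ | stepOf i₀ (q z) (ξ 0) = e} := by
      have h0 : Measurable (fun ξ : ℕ → ℝ => ξ 0) := measurable_pi_apply 0
      exact h0 (measurableSet_stepOf (i₀ := i₀) (q z) e)
    have h1 := noise_split unif0 1 {ξ : ℕ → ℝ | stepOf i₀ (q z) (ξ 0) = e} hS
      (fun a b hab => by
        simp only [Set.mem_ofPred_eq]
        rw [hab 0 (by omega)])
      {ξ | Foll i₀ q ξ (z + stepVec e) t} (measurableSet_foll_noise q _ t)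
    have h2 : (Measure.infinitePi (fun _ : ℕ => unif0)) {ξ : ℕ → ℝ | stepOf i₀ (q z) (ξ 0) = e} =
        ENNReal.ofReal ((q z).1 e) := by
      have : {ξ : ℕ → ℝ | stepOf i₀ (q z) (ξ 0) = e} =
          Set.pi (({0} : Finset ℕ) : Set ℕ) (fun _ => {u | stepOf i₀ (q z) u = e}) := by
        ext ξ
        simp
      rw [this, Measure.infinitePi_pi _ (fun _ _ => measurableSet_stepOf _ _)]
      simp [unif0_stepOf]
    simp only [pathW]
    rw [← ih, ← h2, ← h1]
    rfl

end Weights

end Vale.Agent.Lib.P147
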