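import Vale.Agent.Lib.P147.ProbWt

/-!
# Level masses of words and regeneration events
-/

open MeasureTheory ProbabilityTheory Filter Set
open scoped ENNReal

namespace Vale.Agent.Lib.P147

variable {d : ℕ}

/-- The probability space of the noise and of the environment. -/
abbrev Om (d : ℕ) : Type := (ℕ → ℝ) × (Site d → Row d)

/-- The position of the walker at the time `n`. -/
noncomputable def W (i₀ : Fin d) (s : Om d) (n : ℕ) : Site d := walk (inc1 i₀) s.2 s.1 0 n

variable {i₀ : Fin d} (L : Site d →+ ℤ)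

lemma measurable_W (n : ℕ) : Measurable (fun s : Om d => W i₀ s n) :=
  measurable_walk measurable_inc1 0 n

lemma measurable_level (n : ℕ) : Measurable (fun s : Om d => L (W i₀ s n)) :=
  (measurable_of_countable (fun v : Site d => L v)).comp (measurable_W n)

variable (i₀)

/-- The walker stays on the nonnegative levels and tends to infinite levels. -/
def DL : Set (Om d) := {s | (∀ n, 0 ≤ L (W i₀ s n)) ∧ ∀ K : ℕ, ∃ N, ∀ n, N ≤ n → (K : ℤ) ≤ L (W i₀ s n)}

/-- The walker is ahead of the line of slope `c` from the time `N` on. -/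
def VL (c : ℝ) (N : ℕ) : Set (Om d) := {s | ∀ n, N ≤ n → c * (n : ℝ) ≤ (L (W i₀ s n) : ℝ)}

variable {i₀}

lemma measurableSet_DL : MeasurableSet (DL i₀ L) := by
  have : DL i₀ L = (⋂ n, {s | 0 ≤ L (W i₀ s n)}) ∩
      (⋂ K : ℕ, ⋃ N : ℕ, ⋂ n : ℕ, ⋂ (_ : N ≤ n), {s | (K : ℤ) ≤ L (W i₀ s n)}) := by
    ext s
    simp only [DL, Set.mem_ofPred_eq, Set.mem_inter_iff, Set.mem_iInter, Set.mem_iUnion]
  rw [this]
  refine (MeasurableSet.iInter fun n => ?_).inter (MeasurableSet.iInter fun K =>
    MeasurableSet.iUnion fun N => MeasurableSet.iInter fun n => MeasurableSet.iInter fun _ => ?_)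
  · exact (measurable_level L n) (measurableSet_Ici (a := (0 : ℤ)))
  · exact (measurable_level L n) (measurableSet_Ici (a := (K : ℤ)))

lemma measurableSet_VL (c : ℝ) (N : ℕ) : MeasurableSet (VL i₀ L c N) := by
  have : VL i₀ L c N = ⋂ n : ℕ, ⋂ (_ : N ≤ n), {s | c * (n : ℝ) ≤ (L (W i₀ s n) : ℝ)} := by
    ext s
    simp only [VL, Set.mem_ofPred_eq, Set.mem_iInter]
  rw [this]
  refine MeasurableSet.iInter fun n => MeasurableSet.iInter fun _ => ?_
  have h : Measurable (fun s : Om d => (L (W i₀ s n) : ℝ)) :=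
    (measurable_of_countable (fun k : ℤ => (k : ℝ))).comp (measurable_level L n)
  exact measurableSet_le measurable_const h

lemma W_zero (s : Om d) : W i₀ s 0 = 0 := rfl

lemma W_succ (s : Om d) (n : ℕ) :
    W i₀ s (n + 1) = W i₀ s n + stepVec (stepOf i₀ (s.2 (W i₀ s n)) (s.1 n)) := rfl

lemma W_eq_end (s : Om d) (n : ℕ) : W i₀ s n = endP 0 (traj i₀ s.2 s.1 0 n) :=
  walk_eq_end_traj _ _ _

variable {L}

/-- The word of the first passage at a level above a floor. -/
lemma exists_strip (hNN : ∀ e : Step d, L (stepVec e) ≤ 1) (s : Om d)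
    (h0 : ∀ n, 0 ≤ L (W i₀ s n)) (m : ℕ) (hit : ∃ n, (m : ℤ) ≤ L (W i₀ s n)) :
    ∃ n, (m : ℤ) ≤ L (W i₀ s n) ∧ (∀ k < n, L (W i₀ s k) < m) ∧
      Strip L m (traj i₀ s.2 s.1 0 n) := by
  classical
  refine ⟨Nat.find hit, Nat.find_spec hit, fun k hk => not_le.mp (Nat.find_min hit hk), ?_⟩
  set n := Nat.find hit with hn
  have hmin : ∀ k < n, L (W i₀ s k) < m := fun k hk => not_le.mp (Nat.find_min hit hk)
  constructor
  · intro v hv
    obtain ⟨k, hk, rfl⟩ := mem_posL_traj hv
    exact ⟨h0 k, hmin k hk⟩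
  · rw [← W_eq_end]
    have hs : (m : ℤ) ≤ L (W i₀ s n) := Nat.find_spec hit
    refine le_antisymm ?_ hs
    rcases Nat.eq_zero_or_pos n with h | h
    · rw [h, W_zero, map_zero] at hs ⊢
      omega
    · obtain ⟨k, hk⟩ : ∃ k, n = k + 1 := ⟨n - 1, by omega⟩
      rw [hk, W_succ, map_add]
      have h1 := hmin k (by omega)
      have h2 := hNN (stepOf i₀ (s.2 (W i₀ s k)) (s.1 k))
      omega

/-- Two excursions to the same level followed by the same walker coincide. -/
lemma foll_strip_unique {q : Site d → Row d} {ξ : ℕ → ℝ} {m : ℕ} {l l' : List (Step d)}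
    (h : Foll i₀ q ξ 0 l) (h' : Foll i₀ q ξ 0 l') (hs : Strip L m l) (hs' : Strip L m l') :
    l = l' := by
  have key : ∀ {l l' : List (Step d)}, Foll i₀ q ξ 0 l → Foll i₀ q ξ 0 l' → Strip L m l →
      Strip L m l' → l.length ≤ l'.length → l = l' := by
    intro l l' h h' hs hs' hle
    obtain ⟨c, rfl⟩ := foll_prefix h h' hle
    rcases c with _ | ⟨e, c⟩
    · simp
    · exfalso
      have h3 : endP 0 l ∈ posL 0 (l ++ e :: c) := by
        rw [posL_append, List.mem_append]
        right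
        simp
      have h4 := (hs'.1 _ h3).2
      rw [hs.2] at h4
      omega
  rcases le_total l.length l'.length with hle | hle
  · exact key h h' hs hs' hle
  · exact (key h' h hs' hs hle).symm

variable (L)

variable (μ : Measure (Row d)) [IsProbabilityMeasure μ]

/-- The annealed weight on excursions. -/
noncomputable def wtW (x : XW L) : ℝ≥0∞ := wt μ x.1

variable {μ}

lemma wtW_mult : (wordM L).Mult (wtW L μ) := by
  constructor
  · exact wt_nil μ
  · intro a b
    obtain ⟨m₁, h₁⟩ := a.2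
    obtain ⟨m₂, h₂⟩ := b.2
    refine wt_append fun v hv hv' => ?_
    have h3 := (h₁.1 v hv).2
    rw [mem_posL_iff] at hv'
    have h4 := (h₂.1 _ hv').1
    rw [map_sub, h₁.2] at h4
    omega

lemma wtW_mult_rev : (wordM L).rev.Mult (wtW L μ) := by
  constructor
  · exact (wtW_mult L).map_e
  · intro a b
    rw [mul_comm]
    exact (wtW_mult L).map_op b a

variable (i₀) in
/-- The mass of a family of excursions covering an event. -/
lemma mass_ge (P : XW L → Prop) [DecidablePred P] (S : Set (Om d))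
    (hS : ∀ s ∈ S, ∃ x, P x ∧ Foll i₀ s.2 s.1 0 x.1) :
    jointLaw μ unif0 S ≤ ∑' x, if P x then wtW L μ x else 0 := by
  let A : XW L → Set (Om d) := fun x => if P x then {s | Foll i₀ s.2 s.1 0 x.1} else ∅
  have hsub : S ⊆ ⋃ x, A x := by
    intro s hs
    obtain ⟨x, hx, hf⟩ := hS s hs
    refine Set.mem_iUnion.mpr ⟨x, ?_⟩
    simp only [A, if_pos hx]
    exact hf
  calc jointLaw μ unif0 S ≤ jointLaw μ unif0 (⋃ x, A x) := measure_mono hsub
    _ ≤ ∑' x, jointLaw μ unif0 (A x) := measure_iUnion_le _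
    _ = _ := by
      refine tsum_congr fun x => ?_
      by_cases hx : P x
      · simp only [A, if_pos hx]
        exact joint_foll i₀ x.1
      · simp [A, hx]

/-- The mass of a level is at most one. -/
lemma gsum_le_one (i₀ : Fin d) (m : ℕ) : (wordM L).gsum (wtW L μ) m ≤ 1 := by
  classical
  let A : XW L → Set (Om d) := fun x =>
    if (wordM L).lev x = m then {s | Foll i₀ s.2 s.1 0 x.1} else ∅
  have hAm : ∀ x, MeasurableSet (A x) := by
    intro x
    by_cases hx : (wordM L).lev x = m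
    · simp only [A, if_pos hx]
      exact measurableSet_foll 0 x.1
    · simp [A, hx]
  have hdisj : Pairwise (Function.onFun Disjoint A) := by
    intro x y hxy
    rw [Function.onFun, Set.disjoint_left]
    intro s hsx hsy
    by_cases hx : (wordM L).lev x = m
    · by_cases hy : (wordM L).lev y = m
      · simp only [A, if_pos hx, if_pos hy] at hsx hsy
        obtain ⟨m₁, h₁⟩ := x.2
        obtain ⟨m₂, h₂⟩ := y.2
        have e1 : m₁ = m := by rw [← hx]; exact h₁.lev.symm
        have e2 : m₂ = m := by rw [← hy]; exact h₂.lev.symm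
        subst e1
        subst e2
        exact hxy (Subtype.ext (foll_strip_unique hsx hsy h₁ h₂))
      · simp [A, hy] at hsy
    · simp [A, hx] at hsx
  have h1 := tsum_meas_le_meas_iUnion_of_disjoint (jointLaw (V := Site d) μ unif0) hAm hdisj
  have h2 : (wordM L).gsum (wtW L μ) m = ∑' x, jointLaw (V := Site d) μ unif0 (A x) := by
    unfold RM.gsum
    refine tsum_congr fun x => ?_
    by_cases hx : (wordM L).lev x = m
    · simp only [A, if_pos hx]
      exact (joint_foll i₀ x.1).symm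
    · simp [A, hx]
  rw [h2]
  exact h1.trans prob_le_one

/-- The mass of a level is at least the regeneration probability. -/
lemma DL_le_gsum (hNN : ∀ e : Step d, L (stepVec e) ≤ 1) (m : ℕ) :
    jointLaw μ unif0 (DL i₀ L) ≤ (wordM L).gsum (wtW L μ) m := by
  refine mass_ge (μ := μ) i₀ L (fun x => (wordM L).lev x = m) _ ?_
  intro s hs
  obtain ⟨N, hN⟩ := hs.2 m
  obtain ⟨n, _, _, h3⟩ := exists_strip hNN s hs.1 m ⟨N, hN N le_rfl⟩
  exact ⟨⟨_, m, h3⟩, h3.lev, foll_traj _ _ _⟩

/-- A speed event gives a lower bound for the short excursions. -/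
lemma speed_mass (hNN : ∀ e : Step d, L (stepVec e) ≤ 1) {c : ℝ} (N c' : ℕ)
    (hc' : 1 ≤ c * c') (hc'1 : 1 ≤ c') (m : ℕ) (hm : N ≤ m) :
    jointLaw μ unif0 (DL i₀ L ∩ VL i₀ L c N) ≤
      ∑' x : XW L, if (wordM L).lev x = m ∧ (posL 0 x.1).toFinset.card ≤ c' * m then
        wtW L μ x else 0 := by
  refine mass_ge (μ := μ) i₀ L (fun x => (wordM L).lev x = m ∧
    (posL 0 x.1).toFinset.card ≤ c' * m) _ ?_
  rintro s ⟨hs, hv⟩
  have hn₁ : N ≤ c' * m := by nlinarith
  have h1 : (m : ℤ) ≤ L (W i₀ s (c' * m)) := by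
    have h2 := hv (c' * m) hn₁
    have h3 : (m : ℝ) ≤ c * ((c' * m : ℕ) : ℝ) := by
      push_cast
      have hm0 : (0 : ℝ) ≤ m := by positivity
      nlinarith
    have h4 : (m : ℝ) ≤ (L (W i₀ s (c' * m)) : ℝ) := h3.trans h2
    exact_mod_cast h4
  obtain ⟨n, h2, h3, h4⟩ := exists_strip hNN s hs.1 m ⟨_, h1⟩
  refine ⟨⟨_, m, h4⟩, ⟨h4.lev, (card_posL_le _).trans ?_⟩, foll_traj _ _ _⟩
  rw [length_traj]
  by_contra hcon
  have := h3 (c' * m) (by omega)
  omega

/-- The shift of the time and of the environment. -/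
noncomputable def shiftOm (n : ℕ) (z : Site d) (s : Om d) : Om d := (shiftNoise n s.1, shiftEnv z s.2)

lemma measurePreserving_shiftOm (n : ℕ) (z : Site d) :
    MeasurePreserving (shiftOm (d := d) n z) (jointLaw μ unif0) (jointLaw μ unif0) :=
  (measurePreserving_shiftNoise unif0 n).prod (measurePreserving_shiftEnv μ z)

lemma W_shiftOm (s : Om d) (n k : ℕ) :
    W i₀ (shiftOm n (W i₀ s n) s) k + W i₀ s n = W i₀ s (n + k) := by
  have h1 := walk_translate (inc1 i₀) s.2 (shiftNoise n s.1) 0 (W i₀ s n) k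
  rw [zero_add] at h1
  have h2 := walk_add (inc1 i₀) s.2 s.1 0 n k
  exact h1.trans h2.symm

variable (i₀) in
/-- If the walker has positive speed with positive probability, then with positive probability it
regenerates at the origin with positive speed. -/
theorem speed_regen {c : ℝ} (hc : 0 < c)
    (h : jointLaw μ unif0 {s : Om d | ∃ N : ℕ, ∀ n, N ≤ n → c * (n : ℝ) ≤ (L (W i₀ s n) : ℝ)} ≠ 0) :
    ∃ N : ℕ, jointLaw μ unif0 (DL i₀ L ∩ VL i₀ L (c / 2) N) ≠ 0 := by
  by_contra hcon
  push Not at hcon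
  apply h
  have hcov : {s : Om d | ∃ N : ℕ, ∀ n, N ≤ n → c * (n : ℝ) ≤ (L (W i₀ s n) : ℝ)} ⊆
      ⋃ (n : ℕ) (z : Site d) (N : ℕ), shiftOm n z ⁻¹' (DL i₀ L ∩ VL i₀ L (c / 2) N) := by
    rintro s ⟨N₀, hN₀⟩
    -- a minimum of the level process
    obtain ⟨N₂, hN₂⟩ := exists_nat_gt (((L (W i₀ s 0) : ℝ) + 1) / c + N₀)
    have hN₂a : (N₀ : ℝ) < N₂ := by
      have : 0 ≤ ((L (W i₀ s 0) : ℝ) + 1) / c := by
        have h0 : W i₀ s 0 = 0 := rfl
        rw [h0, map_zero]
        push_cast
        positivity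
      linarith
    have hN₂b : ((L (W i₀ s 0) : ℝ) + 1) < c * N₂ := by
      have : ((L (W i₀ s 0) : ℝ) + 1) / c < N₂ := by
        have h0 : (0 : ℝ) ≤ N₀ := by positivity
        linarith
      rwa [div_lt_iff₀' hc] at this
    obtain ⟨n₁, hn₁, hmin⟩ := Finset.exists_min_image (Finset.range (N₂ + 1))
      (fun n => L (W i₀ s n)) ⟨0, by simp⟩
    have hmin' : ∀ n, L (W i₀ s n₁) ≤ L (W i₀ s n) := by
      intro n
      by_cases hn : n < N₂ + 1
      · exact hmin n (Finset.mem_range.mpr hn)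
      · have h1 : N₀ ≤ n := by
          have : (N₀ : ℝ) < n := by
            have h2 : (N₂ : ℝ) ≤ n := by
              have : N₂ ≤ n := by omega
              exact_mod_cast this
            linarith
          exact_mod_cast this.le
        have h2 := hN₀ n h1
        have h3 : (N₂ : ℝ) ≤ n := by
          have : N₂ ≤ n := by omega
          exact_mod_cast this
        have h4 : ((L (W i₀ s 0) : ℝ) + 1) < (L (W i₀ s n) : ℝ) := by
          have : c * (N₂ : ℝ) ≤ c * n := mul_le_mul_of_nonneg_left h3 hc.le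
          linarith
        have h5 : L (W i₀ s 0) + 1 < L (W i₀ s n) := by exact_mod_cast h4
        have h6 : L (W i₀ s n₁) ≤ L (W i₀ s 0) := hmin 0 (by simp)
        omega
    set z := W i₀ s n₁ with hz
    have hlev : ∀ k, L (W i₀ (shiftOm n₁ z s) k) = L (W i₀ s (n₁ + k)) - L z := by
      intro k
      have := congrArg L (W_shiftOm (i₀ := i₀) s n₁ k)
      rw [map_add] at this
      rw [← this]
      simp [hz]
    obtain ⟨N₃, hN₃⟩ := exists_nat_gt (2 * (L z : ℝ) / c + N₀)
    set N := N₃ with hN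
    have hN3a : (N₀ : ℝ) ≤ N ∨ (L z : ℝ) < 0 := by
      by_cases hz0 : (L z : ℝ) < 0
      · exact Or.inr hz0
      · left
        have : 0 ≤ 2 * (L z : ℝ) / c := by
          have : 0 ≤ (L z : ℝ) := not_lt.mp hz0
          positivity
        linarith
    refine Set.mem_iUnion.mpr ⟨n₁, Set.mem_iUnion.mpr ⟨z, Set.mem_iUnion.mpr ⟨max N N₀, ?_⟩⟩⟩
    have hspeed : ∀ k, max N N₀ ≤ k →
        (c / 2) * (k : ℝ) ≤ (L (W i₀ (shiftOm n₁ z s) k) : ℝ) := by
      intro k hk
      have hk1 : N ≤ k := le_trans (le_max_left _ _) hk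
      have hk2 : N₀ ≤ k := le_trans (le_max_right _ _) hk
      rw [hlev]
      have h1 := hN₀ (n₁ + k) (by omega)
      push_cast at h1 ⊢
      have hk3 : (N : ℝ) ≤ k := by exact_mod_cast hk1
      have hk4 : 2 * (L z : ℝ) / c + N₀ < k := by linarith
      have hk5 : 2 * (L z : ℝ) / c < k := by
        have h0 : (0 : ℝ) ≤ N₀ := by positivity
        linarith
      rw [div_lt_iff₀ hc] at hk5
      have hn1 : (0 : ℝ) ≤ n₁ := by positivity
      nlinarith
    refine ⟨⟨fun n => ?_, fun K => ?_⟩, hspeed⟩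
    · rw [hlev]
      have := hmin' (n₁ + n)
      omega
    · obtain ⟨N₄, hN₄⟩ := exists_nat_gt ((K : ℝ) / (c / 2))
      refine ⟨max (max N N₀) N₄, fun n hn => ?_⟩
      have h1 := hspeed n (le_trans (le_max_left _ _) hn)
      have h2 : (N₄ : ℝ) ≤ n := by
        have : N₄ ≤ n := le_trans (le_max_right _ _) hn
        exact_mod_cast this
      have h3 : (K : ℝ) / (c / 2) < n := by linarith
      rw [div_lt_iff₀' (by positivity)] at h3
      have h4 : (K : ℝ) ≤ (L (W i₀ (shiftOm n₁ z s) n) : ℝ) := by linarith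
      exact_mod_cast h4
  refine measure_mono_null hcov ?_
  refine measure_iUnion_null fun n => measure_iUnion_null fun z => measure_iUnion_null fun N => ?_
  rw [(measurePreserving_shiftOm n z).measure_preimage
    ((measurableSet_DL L).inter (measurableSet_VL L _ N)).nullMeasurableSet]
  exact hcon N

end Vale.Agent.Lib.P147
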