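import Vale.Agent.Lib.P147.ProbLevel

/-!
# Linear growth of the range along the levels
-/

open MeasureTheory ProbabilityTheory Filter Set
open scoped ENNReal

namespace Vale.Agent.Lib.P147

variable {d : ℕ}

/-- The set of the sites visited by a path before the function `L` reaches the value `m`. -/
def sitesBelow (L : Site d → ℤ) (X : ℕ → Site d) (m : ℕ) : Set (Site d) :=
  {v | ∃ k, X k = v ∧ ∀ j ≤ k, L (X j) < m}

lemma measurableSet_mem_sitesBelow (L : Site d → ℤ) (m : ℕ) (v : Site d) :
    MeasurableSet {X : ℕ → Site d | v ∈ sitesBelow L X m} := by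
  have : {X : ℕ → Site d | v ∈ sitesBelow L X m} =
      ⋃ k : ℕ, ({X | X k = v} ∩ ⋂ j : ℕ, ⋂ (_ : j ≤ k), {X | L (X j) < m}) := by
    ext X
    simp only [sitesBelow, Set.mem_ofPred_eq, Set.mem_iUnion, Set.mem_inter_iff, Set.mem_iInter]
  rw [this]
  refine MeasurableSet.iUnion fun k => MeasurableSet.inter ?_ (MeasurableSet.iInter fun j =>
    MeasurableSet.iInter fun _ => ?_)
  · have hf : Measurable (fun X : ℕ → Site d => X k) := measurable_pi_apply k
    exact hf (measurableSet_singleton v)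
  · have hf : Measurable (fun X : ℕ → Site d => L (X j)) :=
      (measurable_of_countable L).comp (measurable_pi_apply j)
    exact hf (measurableSet_Iio (a := (m : ℤ)))

/-- The event that at most `C` sites are visited before the value `m` is reached is measurable. -/
lemma measurableSet_encard_sitesBelow_le (L : Site d → ℤ) (m C : ℕ) :
    MeasurableSet {X : ℕ → Site d | (sitesBelow L X m).encard ≤ (C : ℕ∞)} := by
  classical
  have : {X : ℕ → Site d | (sitesBelow L X m).encard ≤ (C : ℕ∞)} =
      ⋂ F : {F : Finset (Site d) // F.card = C + 1},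
        ({X | ∀ v ∈ F.1, v ∈ sitesBelow L X m})ᶜ := by
    ext X
    simp only [Set.mem_ofPred_eq, Set.mem_iInter, Set.mem_compl_iff]
    constructor
    · rintro h ⟨F, hF⟩ hsub
      have h1 : (F : Set (Site d)) ⊆ sitesBelow L X m := fun v hv => hsub v (Finset.mem_coe.mp hv)
      have h2 := (Set.encard_le_encard h1).trans h
      rw [Set.encard_coe_eq_coe_finsetCard, hF] at h2
      have h3 : C + 1 ≤ C := by exact_mod_cast h2
      omega
    · intro h
      by_contra hcon
      have h1 : ((C + 1 : ℕ) : ℕ∞) ≤ (sitesBelow L X m).encard := by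
        have := not_le.mp hcon
        exact Order.add_one_le_of_lt this
      obtain ⟨t, ht, hte⟩ := Set.exists_subset_encard_eq h1
      have hfin : t.Finite := Set.finite_of_encard_eq_coe hte
      have hcard : hfin.toFinset.card = C + 1 := by
        have h2 := hfin.encard_eq_coe_toFinset_card
        rw [hte] at h2
        exact_mod_cast h2.symm
      exact h ⟨hfin.toFinset, hcard⟩ fun v hv => ht ((Set.Finite.mem_toFinset hfin).mp hv)
  rw [this]
  refine MeasurableSet.iInter fun F => MeasurableSet.compl ?_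
  have h2 : {X : ℕ → Site d | ∀ v ∈ F.1, v ∈ sitesBelow L X m} =
      ⋂ v ∈ F.1, {X | v ∈ sitesBelow L X m} := by
    ext X
    simp only [Set.mem_ofPred_eq, Set.mem_iInter]
  rw [h2]
  exact Finset.measurableSet_biInter _ fun v _ => measurableSet_mem_sitesBelow L m v

variable {i₀ : Fin d} (L : Site d →+ ℤ)

variable (i₀)

/-- The range grows linearly from the level `N` on. -/
def RL (c N : ℕ) : Set (Om d) :=
  {s | ∀ m, N ≤ m → (sitesBelow L (W i₀ s) m).encard ≤ ((c * m : ℕ) : ℕ∞)}

variable {i₀}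

variable {μ : Measure (Row d)} [IsProbabilityMeasure μ]

/-- Linear growth of the range gives a lower bound for the excursions with few sites. -/
lemma range_mass {L : Site d →+ ℤ} (hNN : ∀ e : Step d, L (stepVec e) ≤ 1) (c N m : ℕ) (hm : N ≤ m) :
    jointLaw μ unif0 (DL i₀ L ∩ RL i₀ L c N) ≤
      ∑' x : XW L, if (wordM L).lev x = m ∧ (posL 0 x.1).toFinset.card ≤ c * m then
        wtW L μ x else 0 := by
  classical
  refine mass_ge (μ := μ) i₀ L (fun x => (wordM L).lev x = m ∧
    (posL 0 x.1).toFinset.card ≤ c * m) _ ?_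
  rintro s ⟨hs, hv⟩
  obtain ⟨N₁, hN₁⟩ := hs.2 m
  obtain ⟨n, h2, h3, h4⟩ := exists_strip hNN s hs.1 m ⟨N₁, hN₁ N₁ le_rfl⟩
  refine ⟨⟨_, m, h4⟩, ⟨h4.lev, ?_⟩, foll_traj _ _ _⟩
  have hsub : ((posL 0 (traj i₀ s.2 s.1 0 n)).toFinset : Set (Site d)) ⊆
      sitesBelow L (W i₀ s) m := by
    intro v hv'
    obtain ⟨k, hk, rfl⟩ := mem_posL_traj (List.mem_toFinset.mp (Finset.mem_coe.mp hv'))
    exact ⟨k, rfl, fun j hj => h3 j (by omega)⟩
  have h5 := (Set.encard_le_encard hsub).trans (hv m hm)
  rw [Set.encard_coe_eq_coe_finsetCard] at h5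
  exact_mod_cast h5

variable (i₀) in
/-- Transience with linear range on an event of positive probability gives a regeneration with
linear range on an event of positive probability. -/
theorem range_regen (c : ℕ)
    (h : jointLaw μ unif0 {s : Om d | Tendsto (fun n => L (W i₀ s n)) atTop atTop ∧
      ∀ᶠ m : ℕ in atTop, (sitesBelow L (W i₀ s) m).encard ≤ ((c * m : ℕ) : ℕ∞)} ≠ 0) :
    ∃ N : ℕ, jointLaw μ unif0 (DL i₀ L ∩ RL i₀ L c N) ≠ 0 := by
  by_contra hcon
  push Not at hcon
  apply h
  have hcov : {s : Om d | Tendsto (fun n => L (W i₀ s n)) atTop atTop ∧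
      ∀ᶠ m : ℕ in atTop, (sitesBelow L (W i₀ s) m).encard ≤ ((c * m : ℕ) : ℕ∞)} ⊆
      ⋃ (n : ℕ) (z : Site d) (N : ℕ), shiftOm n z ⁻¹' (DL i₀ L ∩ RL i₀ L c N) := by
    rintro s ⟨ht, hr⟩
    obtain ⟨N₀, hN₀⟩ := eventually_atTop.mp hr
    -- a minimum of the level process
    obtain ⟨N₂, hN₂⟩ := tendsto_atTop_atTop.mp ht (L (W i₀ s 0))
    obtain ⟨n₁, hn₁, hmin⟩ := Finset.exists_min_image (Finset.range (N₂ + 1))
      (fun n => L (W i₀ s n)) ⟨0, by simp⟩
    have hz0 : L (W i₀ s n₁) ≤ L (W i₀ s 0) := hmin 0 (by simp)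
    have hmin' : ∀ n, L (W i₀ s n₁) ≤ L (W i₀ s n) := by
      intro n
      by_cases hn : n < N₂ + 1
      · exact hmin n (Finset.mem_range.mpr hn)
      · exact hz0.trans (hN₂ n (by omega))
    obtain ⟨n₂, _, hmax⟩ := Finset.exists_max_image (Finset.range (n₁ + 1))
      (fun n => L (W i₀ s n)) ⟨0, by simp⟩
    set z := W i₀ s n₁ with hz
    set M := L (W i₀ s n₂) with hM
    have hz1 : L z ≤ 0 := by
      have : W i₀ s 0 = 0 := rfl
      rw [this, map_zero] at hz0
      exact hz0
    have hlev : ∀ k, L (W i₀ (shiftOm n₁ z s) k) = L (W i₀ s (n₁ + k)) - L z := by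
      intro k
      have := congrArg L (W_shiftOm (i₀ := i₀) s n₁ k)
      rw [map_add] at this
      rw [← this]
      simp [hz]
    refine Set.mem_iUnion.mpr ⟨n₁, Set.mem_iUnion.mpr ⟨z, Set.mem_iUnion.mpr
      ⟨(M - L z + 1).toNat + N₀ + (- L z).toNat, ?_⟩⟩⟩
    refine ⟨⟨fun n => ?_, fun K => ?_⟩, fun m hm => ?_⟩
    · rw [hlev]
      have := hmin' (n₁ + n)
      omega
    · obtain ⟨N₄, hN₄⟩ := tendsto_atTop_atTop.mp ht ((K : ℤ) + L z)
      refine ⟨N₄, fun n hn => ?_⟩
      rw [hlev]
      have := hN₄ (n₁ + n) (by omega)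
      omega
    · -- the sites of the shifted walker are sites of the walker
      set m' := ((m : ℤ) + L z).toNat with hm'
      have hm'1 : (m' : ℤ) = (m : ℤ) + L z := by
        rw [hm']
        omega
      have hm'2 : m' ≤ m := by omega
      have hm'3 : N₀ ≤ m' := by omega
      have hm'4 : M < (m' : ℤ) := by omega
      have hsub : Set.MapsTo (fun v => v + z) (sitesBelow L (W i₀ (shiftOm n₁ z s)) m)
          (sitesBelow L (W i₀ s) m') := by
        rintro v ⟨k, rfl, hk⟩
        refine ⟨n₁ + k, (W_shiftOm (i₀ := i₀) s n₁ k).symm, fun j hj => ?_⟩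
        by_cases hj1 : j ≤ n₁
        · have := hmax j (Finset.mem_range.mpr (by omega))
          omega
        · obtain ⟨j', rfl⟩ : ∃ j', j = n₁ + j' := ⟨j - n₁, by omega⟩
          have h1 := hk j' (by omega)
          rw [hlev] at h1
          omega
      have hinj : Set.InjOn (fun v : Site d => v + z) (sitesBelow L (W i₀ (shiftOm n₁ z s)) m) :=
        (add_left_injective z).injOn
      refine (Set.encard_le_encard_of_injOn hsub hinj).trans ((hN₀ m' hm'3).trans ?_)
      have : c * m' ≤ c * m := Nat.mul_le_mul_left c hm'2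
      exact_mod_cast this
  refine measure_mono_null hcov ?_
  refine measure_iUnion_null fun n => measure_iUnion_null fun z => measure_iUnion_null fun N => ?_
  have hle := Measure.le_map_apply (μ := jointLaw μ unif0)
    (measurePreserving_shiftOm (μ := μ) n z).measurable.aemeasurable (DL i₀ L ∩ RL i₀ L c N)
  rw [(measurePreserving_shiftOm (μ := μ) n z).map_eq, hcon N] at hle
  exact le_antisymm hle zero_le

end Vale.Agent.Lib.P147
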