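import Vale.Agent.Lib.P147.ProbCore

/-!
# Annealed weights of words
-/

open MeasureTheory ProbabilityTheory Filter Set
open scoped ENNReal

namespace Vale.Agent.Lib.P147

variable {d : ℕ}

section Wt

variable (μ : Measure (Row d)) [IsProbabilityMeasure μ]

/-- The annealed weight of a word. -/
noncomputable def wt (l : List (Step d)) : ℝ≥0∞ := ∫⁻ q, pathW q 0 l ∂(iidLaw μ)

lemma wt_nil : wt μ ([] : List (Step d)) = 1 := by
  simp only [wt, pathW]
  unfold iidLaw
  simp

variable {μ}

lemma lintegral_shift {f : (Site d → Row d) → ℝ≥0∞} (hf : Measurable f) (z : Site d) :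
    ∫⁻ q, f (shiftEnv z q) ∂(iidLaw μ) = ∫⁻ q, f q ∂(iidLaw μ) := by
  have h := measurePreserving_shiftEnv (V := Site d) μ z
  unfold iidLaw
  exact h.lintegral_comp hf

lemma wt_at (z : Site d) (l : List (Step d)) : ∫⁻ q, pathW q z l ∂(iidLaw μ) = wt μ l := by
  have h1 : ∀ q, pathW q z l = pathW (shiftEnv z q) 0 l := by
    intro q
    have := pathW_translate q 0 z l
    rwa [zero_add] at this
  simp_rw [h1]
  exact lintegral_shift (measurable_pathW 0 l) z

lemma pathW_indep {l₁ l₂ : List (Step d)} {z₁ z₂ : Site d}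
    (h : ∀ v ∈ posL z₁ l₁, v ∉ posL z₂ l₂) :
    ∫⁻ q, pathW q z₁ l₁ * pathW q z₂ l₂ ∂(iidLaw μ) = wt μ l₁ * wt μ l₂ := by
  have hI : Disjoint {v | v ∈ posL z₁ l₁} {v | v ∈ posL z₂ l₂} := by
    rw [Set.disjoint_left]
    exact fun v h1 h2 => h v h1 h2
  have hind := indep_blocks (ι := Site d) μ hI
  have : Nonempty (Row d) := μ.nonempty_of_neZero
  have hfac := lintegral_mul_eq_lintegral_mul_lintegral_of_independent_measurableSpace
    (iSup_comap_le _) (iSup_comap_le _) hind
    (measurable_iSup_of_depends _ (fun q => pathW q z₁ l₁) (measurable_pathW z₁ l₁)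
      fun q q' hqq' => pathW_congr fun v hv => hqq' v hv)
    (measurable_iSup_of_depends _ (fun q => pathW q z₂ l₂) (measurable_pathW z₂ l₂)
      fun q q' hqq' => pathW_congr fun v hv => hqq' v hv)
  rw [← wt_at z₁ l₁, ← wt_at z₂ l₂]
  exact hfac

lemma wt_append {l₁ l₂ : List (Step d)} (h : ∀ v ∈ posL 0 l₁, v ∉ posL (endP 0 l₁) l₂) :
    wt μ (l₁ ++ l₂) = wt μ l₁ * wt μ l₂ := by
  simp only [wt]
  simp_rw [pathW_append]
  exact pathW_indep h

variable (i₀ : Fin d)

lemma joint_foll (l : List (Step d)) :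
    jointLaw μ unif0 {s : (ℕ → ℝ) × (Site d → Row d) | Foll i₀ s.2 s.1 0 l} = wt μ l := by
  rw [jointLaw, Measure.prod_apply_symm (measurableSet_foll (i₀ := i₀) 0 l)]
  exact lintegral_congr fun q => noise_foll q 0 l

/-- **Factorization at the end of a word.** The walker follows a word, and its future belongs to
an event that depends on the environment only through a set of sites that is not visited by the
word. -/
theorem joint_foll_tail (l : List (Step d)) (B : Set ((ℕ → ℝ) × (Site d → Row d)))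
    (hB : MeasurableSet B) (I : Set (Site d))
    (hdep : ∀ ξ q q', (∀ v ∈ I, q v = q' v) → ((ξ, q) ∈ B ↔ (ξ, q') ∈ B))
    (hdisj : ∀ v ∈ posL 0 l, v - endP 0 l ∉ I) :
    jointLaw μ unif0 {s : (ℕ → ℝ) × (Site d → Row d) | Foll i₀ s.2 s.1 0 l ∧
      (shiftNoise l.length s.1, shiftEnv (endP 0 l) s.2) ∈ B} = wt μ l * jointLaw μ unif0 B := by
  set e := endP 0 l with he
  have : Nonempty (Row d) := μ.nonempty_of_neZero
  set S : Set ((ℕ → ℝ) × (Site d → Row d)) := {s | Foll i₀ s.2 s.1 0 l ∧
      (shiftNoise l.length s.1, shiftEnv e s.2) ∈ B} with hS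
  have hτ : Measurable (fun s : (ℕ → ℝ) × (Site d → Row d) =>
      (shiftNoise l.length s.1, shiftEnv e s.2)) :=
    ((measurable_shiftNoise _).comp measurable_fst).prodMk
      ((measurable_shiftEnv e).comp measurable_snd)
  have hSm : MeasurableSet S := (measurableSet_foll (i₀ := i₀) 0 l).inter (hτ hB)
  set R := Measure.infinitePi (fun _ : ℕ => unif0) with hR
  let h : (Site d → Row d) → ℝ≥0∞ := fun q => R {ξ | (ξ, q) ∈ B}
  have hh : Measurable h := measurable_measure_prodMk_right hB
  have h1 : ∀ q, R ((fun ξ => (ξ, q)) ⁻¹' S) = pathW q 0 l * h (shiftEnv e q) := by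
    intro q
    have hA : MeasurableSet {ξ : ℕ → ℝ | Foll i₀ q ξ 0 l} := measurableSet_foll_noise q 0 l
    have hB' : MeasurableSet {ξ : ℕ → ℝ | (ξ, shiftEnv e q) ∈ B} := measurable_prodMk_right hB
    have h2 := noise_split unif0 l.length {ξ : ℕ → ℝ | Foll i₀ q ξ 0 l} hA
      (fun a b hab => foll_congr_noise hab) _ hB'
    rw [noise_foll] at h2
    exact h2
  rw [jointLaw, Measure.prod_apply_symm hSm]
  simp_rw [← hR, h1]
  -- independence of the word and of its future
  have hI : Disjoint {v | v ∈ posL 0 l} {v | v - e ∈ I} := by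
    rw [Set.disjoint_left]
    exact fun v h1 h2 => hdisj v h1 h2
  have hind := indep_blocks (ι := Site d) μ hI
  have hg : Measurable (fun q => h (shiftEnv e q)) := hh.comp (measurable_shiftEnv e)
  have hfac := lintegral_mul_eq_lintegral_mul_lintegral_of_independent_measurableSpace
    (iSup_comap_le _) (iSup_comap_le _) hind
    (measurable_iSup_of_depends _ (fun q => pathW q 0 l) (measurable_pathW 0 l)
      fun q q' hqq' => pathW_congr fun v hv => hqq' v hv)
    (measurable_iSup_of_depends _ (fun q => h (shiftEnv e q)) hg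
      fun q q' hqq' => by
        have : ∀ ξ, (ξ, shiftEnv e q) ∈ B ↔ (ξ, shiftEnv e q') ∈ B := fun ξ =>
          hdep ξ _ _ fun v hv => hqq' (v + e) (by
            show v + e - e ∈ I
            simpa using hv)
        simp only [h, this])
  change ∫⁻ q, pathW q 0 l * h (shiftEnv e q) ∂(Measure.infinitePi fun _ : Site d => μ) = _
  rw [hfac]
  congr 1
  have : ∫⁻ q, h (shiftEnv e q) ∂(Measure.infinitePi fun _ : Site d => μ) =
      ∫⁻ q, h q ∂(Measure.infinitePi fun _ : Site d => μ) :=
    lintegral_shift (μ := μ) hh e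
  rw [this, Measure.prod_apply_symm hB]
  rfl

end Wt

section Single

variable {μ : Measure (Row d)} [IsProbabilityMeasure μ]

/-- The annealed mean of a step. -/
lemma wt_single (e : Step d) : wt μ [e] = ∫⁻ p, ENNReal.ofReal (p.1 e) ∂μ := by
  have hmp : MeasurePreserving (fun q : Site d → Row d => q 0) (iidLaw μ) μ := by
    unfold iidLaw
    exact measurePreserving_eval_infinitePi (fun _ : Site d => μ) 0
  have hf : Measurable (fun p : Row d => ENNReal.ofReal (p.1 e)) :=
    ENNReal.measurable_ofReal.comp (measurable_row_apply e)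
  rw [← hmp.lintegral_comp hf]
  simp [wt, pathW]

lemma wt_single_pos {e : Step d} (h : μ {p | 0 < p.1 e} ≠ 0) : wt μ [e] ≠ 0 := by
  rw [wt_single]
  have hf : Measurable (fun p : Row d => ENNReal.ofReal (p.1 e)) :=
    ENNReal.measurable_ofReal.comp (measurable_row_apply e)
  have h2 : 0 < ∫⁻ p, ENNReal.ofReal (p.1 e) ∂μ := by
    rw [lintegral_pos_iff_support hf]
    have : Function.support (fun p : Row d => ENNReal.ofReal (p.1 e)) = {p | 0 < p.1 e} := by
      ext p
      simp
    rw [this]
    exact pos_iff_ne_zero.mpr h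
  exact h2.ne'

lemma wt_cons_pos {e : Step d} {t : List (Step d)} (h : μ {p | 0 < p.1 e} ≠ 0)
    (ht : wt μ t ≠ 0) (hsites : (0 : Site d) ∉ posL (stepVec e) t) : wt μ (e :: t) ≠ 0 := by
  have h1 : e :: t = [e] ++ t := rfl
  rw [h1, wt_append]
  · exact mul_ne_zero (wt_single_pos h) ht
  · intro v hv
    simp only [posL_cons, posL_nil, List.mem_singleton] at hv
    subst hv
    simpa using hsites

end Single

end Vale.Agent.Lib.P147
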