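import Vale.Agent.Lib.P147.TwoSided
import Vale.Agent.Lib.P147.ProbRange

/-!
# No two opposite escapes with linearly growing range
-/

open MeasureTheory ProbabilityTheory Filter Set
open scoped ENNReal

namespace Vale.Agent.Lib.P147

variable {d : ℕ}

/-- The path event: escape with linearly growing range. -/
def EscLin (L : Site d → ℤ) : Set (ℕ → Site d) :=
  {X | Tendsto (fun n => L (X n)) atTop atTop ∧
    ∃ c : ℕ, ∀ᶠ m : ℕ in atTop, (sitesBelow L X m).encard ≤ ((c * m : ℕ) : ℕ∞)}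

lemma measurableSet_EscLin (L : Site d → ℤ) : MeasurableSet (EscLin L) := by
  have : EscLin L = (⋂ K : ℤ, ⋃ N : ℕ, ⋂ n : ℕ, ⋂ (_ : N ≤ n), {X | K ≤ L (X n)}) ∩
      (⋃ c : ℕ, ⋃ N : ℕ, ⋂ m : ℕ, ⋂ (_ : N ≤ m),
        {X | (sitesBelow L X m).encard ≤ ((c * m : ℕ) : ℕ∞)}) := by
    ext X
    simp only [EscLin, Set.mem_ofPred_eq, Set.mem_inter_iff, Set.mem_iInter, Set.mem_iUnion,
      tendsto_atTop_atTop, eventually_atTop, ge_iff_le]
  rw [this]
  refine MeasurableSet.inter (MeasurableSet.iInter fun K => MeasurableSet.iUnion fun N =>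
    MeasurableSet.iInter fun n => MeasurableSet.iInter fun _ => ?_)
    (MeasurableSet.iUnion fun c => MeasurableSet.iUnion fun N =>
      MeasurableSet.iInter fun m => MeasurableSet.iInter fun _ =>
        measurableSet_encard_sitesBelow_le L m (c * m))
  have hf : Measurable (fun X : ℕ → Site d => L (X n)) :=
    (measurable_of_countable L).comp (measurable_pi_apply n)
  exact hf (measurableSet_Ici (a := K))

variable {μ : Measure (Row d)} [IsProbabilityMeasure μ]

/-- From the escape with linear range to the masses of excursions. -/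
lemma mass_of_escLin {i : Fin d} {L : Site d →+ ℤ} (hNN : ∀ e : Step d, L (stepVec e) ≤ 1)
    (h : jointLaw μ unif0 (pathMap1 i ⁻¹' EscLin (L : Site d → ℤ)) ≠ 0) :
    jointLaw μ unif0 (DL i L) ≠ 0 ∧ ∃ (c₀ N : ℕ) (p : ℝ), 1 ≤ c₀ ∧ 0 < p ∧
      ∀ m, N ≤ m → ENNReal.ofReal p ≤ ∑' x : XW L, if (wordM L).lev x = m ∧
        (posL 0 x.1).toFinset.card ≤ c₀ * m then wtW L μ x else 0 := by
  classical
  -- the choice of the constant
  have h1 : ∃ c : ℕ, jointLaw μ unif0 {s : Om d | Tendsto (fun n => L (W i s n)) atTop atTop ∧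
      ∀ᶠ m : ℕ in atTop, (sitesBelow L (W i s) m).encard ≤ ((c * m : ℕ) : ℕ∞)} ≠ 0 := by
    by_contra hcon
    push Not at hcon
    apply h
    refine measure_mono_null ?_ (measure_iUnion_null hcon)
    rintro s ⟨h2, c, h3⟩
    exact Set.mem_iUnion.mpr ⟨c, h2, h3⟩
  obtain ⟨c, hc⟩ := h1
  obtain ⟨N, hN⟩ := range_regen (μ := μ) i L c hc
  refine ⟨fun h0 => hN (measure_mono_null Set.inter_subset_left h0),
    c + 1, N, (jointLaw μ unif0 (DL i L ∩ RL i L c N)).toReal, by omega,
    ENNReal.toReal_pos hN (measure_ne_top _ _), fun m hm => ?_⟩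
  rw [ENNReal.ofReal_toReal (measure_ne_top _ _)]
  refine (range_mass hNN c N m hm).trans (ENNReal.tsum_le_tsum fun x => ?_)
  by_cases hx : (wordM L).lev x = m ∧ (posL 0 x.1).toFinset.card ≤ c * m
  · rw [if_pos hx, if_pos ⟨hx.1, hx.2.trans (Nat.mul_le_mul_right m (by omega))⟩]
  · rw [if_neg hx]
    exact zero_le

/-- **Main theorem.** In dimension at least three, an iid walk whose steps all have positive
annealed probability cannot escape with linearly growing range in both directions of a coordinate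
axis with positive probabilities. -/
theorem range_growth (hd : 3 ≤ d) (μ : Measure (Row d)) [IsProbabilityMeasure μ]
    (hμ : ∀ e : Step d, μ {p | 0 < p.1 e} ≠ 0) (Q : Measure (ℕ → Site d)) (hQ : IsAnnealedLaw μ Q)
    (i : Fin d) :
    Q (EscLin (levL i : Site d → ℤ)) = 0 ∨ Q (EscLin ((-levL i : Site d →+ ℤ) : Site d → ℤ)) = 0 := by
  classical
  by_contra hcon
  push Not at hcon
  obtain ⟨h1, h2⟩ := hcon
  have hcard : 1 < (Finset.univ.erase i).card := by
    rw [Finset.card_erase_of_mem (Finset.mem_univ i), Finset.card_univ, Fintype.card_fin]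
    omega
  obtain ⟨t1, ht1, t2, ht2, h12⟩ := Finset.one_lt_card.mp hcard
  have hi1 : t1 ≠ i := Finset.ne_of_mem_erase ht1
  have hi2 : t2 ≠ i := Finset.ne_of_mem_erase ht2
  rw [hQ.unique (isAnnealedLaw_map1 (i₀ := i))] at h1 h2
  rw [Measure.map_apply measurable_pathMap1 (measurableSet_EscLin _)] at h1 h2
  obtain ⟨hq₁, c₁, N, p₁, hc₁, hp₁, hs₁⟩ := mass_of_escLin (levL_nn i) h1
  obtain ⟨hq₂, c₂, N', p₂, hc₂, hp₂, hs₂⟩ := mass_of_escLin (neg_levL_nn i) h2
  exact two_sided_core hi1 hi2 h12 hμ hq₁ hq₂ hc₁ hc₂ hp₁ hp₂ hs₁ hs₂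

end Vale.Agent.Lib.P147
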