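import Mathlib

/-!
# Renewal monoids

A graded cancellative monoid with the property that two factorizations of an element have a common
refinement. Every element factors uniquely as an irreducible block times an element.
-/

open scoped ENNReal
open Filter Topology

namespace Vale.Agent.Lib.P147

/-- A graded monoid with common refinements of factorizations. -/
structure RM (X : Type*) where
  op : X → X → X
  e : X
  lev : X → ℕ
  lev_op : ∀ a b, lev (op a b) = lev a + lev b
  lev_eq_zero : ∀ a, lev a = 0 ↔ a = e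
  e_op : ∀ a, op e a = a
  op_e : ∀ a, op a e = a
  op_assoc : ∀ a b c, op (op a b) c = op a (op b c)
  equi : ∀ a b a' b', op a b = op a' b' → lev a ≤ lev a' → ∃ q, a' = op a q ∧ b = op q b'

namespace RM

variable {X : Type*} (M : RM X)

lemma lev_e : M.lev M.e = 0 := (M.lev_eq_zero _).mpr rfl

lemma cancel {a b a' b' : X} (h : M.op a b = M.op a' b') (hl : M.lev a = M.lev a') :
    a = a' ∧ b = b' := by
  obtain ⟨q, h1, h2⟩ := M.equi a b a' b' h hl.le
  have h3 : M.lev q = 0 := by
    have := congrArg M.lev h1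
    rw [M.lev_op] at this
    omega
  have h4 : q = M.e := (M.lev_eq_zero q).mp h3
  subst h4
  rw [M.op_e] at h1
  rw [M.e_op] at h2
  exact ⟨h1.symm, h2⟩

/-- The opposite monoid. -/
def rev (M : RM X) : RM X where
  op a b := M.op b a
  e := M.e
  lev := M.lev
  lev_op a b := by rw [M.lev_op, Nat.add_comm]
  lev_eq_zero := M.lev_eq_zero
  e_op a := M.op_e a
  op_e a := M.e_op a
  op_assoc a b c := (M.op_assoc c b a).symm
  equi a b a' b' h hl := by
    have h1 := congrArg M.lev h
    rw [M.lev_op, M.lev_op] at h1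
    obtain ⟨q, h2, h3⟩ := M.equi b' a' b a h.symm (by omega)
    exact ⟨q, h3, h2⟩

/-- Irreducible elements: the blocks. -/
def Irr (a : X) : Prop := M.lev a ≠ 0 ∧ ∀ b c, a = M.op b c → M.lev b = 0 ∨ M.lev c = 0

lemma irr_of_lev_one {a : X} (h : M.lev a = 1) : M.Irr a := by
  refine ⟨by omega, fun b c hbc => ?_⟩
  have := congrArg M.lev hbc
  rw [M.lev_op, h] at this
  omega

lemma exists_irr (g : X) (hg : M.lev g ≠ 0) : ∃ q r, M.Irr q ∧ g = M.op q r := by
  induction hn : M.lev g using Nat.strong_induction_on generalizing g with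
  | _ n ih =>
    by_cases hi : M.Irr g
    · exact ⟨g, M.e, hi, (M.op_e g).symm⟩
    · have : ∃ b c, g = M.op b c ∧ M.lev b ≠ 0 ∧ M.lev c ≠ 0 := by
        by_contra hcon
        push Not at hcon
        exact hi ⟨hg, fun b c hbc => by
          by_cases hb : M.lev b = 0
          · exact Or.inl hb
          · exact Or.inr (hcon b c hbc hb)⟩
      obtain ⟨b, c, hbc, hb, hc⟩ := this
      have hl : M.lev g = M.lev b + M.lev c := by rw [hbc, M.lev_op]
      obtain ⟨q, r, hq, hr⟩ := ih (M.lev b) (by omega) b hb rfl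
      refine ⟨q, M.op r c, hq, ?_⟩
      rw [hbc, hr, M.op_assoc]

lemma irr_unique {q q' r r' : X} (hq : M.Irr q) (hq' : M.Irr q') (h : M.op q r = M.op q' r') :
    q = q' ∧ r = r' := by
  have key : ∀ {q q' r r' : X}, M.Irr q → M.Irr q' → M.op q r = M.op q' r' →
      M.lev q ≤ M.lev q' → q = q' ∧ r = r' := by
    intro q q' r r' hq hq' h hle
    obtain ⟨s, h1, h2⟩ := M.equi q r q' r' h hle
    rcases hq'.2 q s h1 with h3 | h3
    · exact absurd h3 hq.1
    · have h4 : s = M.e := (M.lev_eq_zero s).mp h3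
      subst h4
      rw [M.op_e] at h1
      rw [M.e_op] at h2
      exact ⟨h1.symm, h2⟩
  rcases le_total (M.lev q) (M.lev q') with hle | hle
  · exact key hq hq' h hle
  · obtain ⟨h1, h2⟩ := key hq' hq h.symm hle
    exact ⟨h1.symm, h2.symm⟩

/-- Type of blocks. -/
abbrev Blocks : Type _ := {q : X // M.Irr q}

/-- The factorization map. -/
def factorMap (s : M.Blocks × X) : {x : X // x ≠ M.e} :=
  ⟨M.op s.1.1 s.2, fun h => by
    have h1 := congrArg M.lev h
    rw [M.lev_op, M.lev_e] at h1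
    exact s.1.2.1 (by omega)⟩

lemma factorMap_bijective : Function.Bijective M.factorMap := by
  constructor
  · rintro ⟨⟨q, hq⟩, r⟩ ⟨⟨q', hq'⟩, r'⟩ h
    have h1 : M.op q r = M.op q' r' := congrArg Subtype.val h
    obtain ⟨h2, h3⟩ := M.irr_unique hq hq' h1
    subst h2 h3
    rfl
  · rintro ⟨x, hx⟩
    have hl : M.lev x ≠ 0 := fun h => hx ((M.lev_eq_zero x).mp h)
    obtain ⟨q, r, hq, hr⟩ := M.exists_irr x hl
    exact ⟨(⟨q, hq⟩, r), Subtype.ext hr.symm⟩

/-- First block decomposition of a sum over the monoid. -/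
lemma tsum_decomp (f : X → ℝ≥0∞) :
    ∑' x, f x = f M.e + ∑' q : M.Blocks, ∑' r, f (M.op q.1 r) := by
  classical
  rw [ENNReal.tsum_eq_add_tsum_ite M.e]
  congr 1
  have h1 : ∑' x, (if x = M.e then 0 else f x) = ∑' x : {x : X // x ≠ M.e}, f x.1 := by
    refine Eq.trans (tsum_congr fun x => ?_) (tsum_subtype {x : X | x ≠ M.e} f).symm
    by_cases hx : x = M.e
    · simp [hx]
    · simp [hx]
  rw [h1, ← ENNReal.tsum_prod, ← (Equiv.ofBijective _ M.factorMap_bijective).tsum_eq]
  rfl

section Graded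

variable (ν : X → ℝ≥0∞)

open Classical in
/-- The mass of the level `m`. -/
noncomputable def gsum (m : ℕ) : ℝ≥0∞ := ∑' x, if M.lev x = m then ν x else 0

/-- The mass of the blocks. -/
noncomputable def bmass : ℝ≥0∞ := ∑' q : M.Blocks, ν q.1

/-- Multiplicative weights. -/
structure Mult (ν : X → ℝ≥0∞) : Prop where
  map_e : ν M.e = 1
  map_op : ∀ a b, ν (M.op a b) = ν a * ν b

variable {ν} {M}

lemma gsum_zero (h : M.Mult ν) : M.gsum ν 0 = 1 := by
  classical
  unfold gsum
  rw [tsum_eq_single M.e]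
  · rw [if_pos M.lev_e, h.map_e]
  · intro x hx
    rw [if_neg]
    exact fun h0 => hx ((M.lev_eq_zero x).mp h0)

lemma block_lev_pos (q : M.Blocks) : 1 ≤ M.lev q.1 := Nat.pos_of_ne_zero q.2.1

lemma gsum_pos_eq (h : M.Mult ν) {m : ℕ} (hm : m ≠ 0) :
    M.gsum ν m = ∑' q : M.Blocks, ν q.1 *
      (if M.lev q.1 ≤ m then M.gsum ν (m - M.lev q.1) else 0) := by
  classical
  unfold gsum
  rw [M.tsum_decomp, if_neg (by rw [M.lev_e]; exact hm.symm), zero_add]
  refine tsum_congr fun q => ?_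
  split_ifs with hq
  · rw [← ENNReal.tsum_mul_left]
    refine tsum_congr fun r => ?_
    rw [M.lev_op, h.map_op]
    by_cases hr : M.lev r = m - M.lev q.1
    · rw [if_pos (by omega), if_pos hr]
    · rw [if_neg (by omega), if_neg hr, mul_zero]
  · simp only [mul_zero]
    refine ENNReal.tsum_eq_zero.mpr fun r => ?_
    rw [M.lev_op, if_neg (by omega)]

/-- Partial sums of level masses. -/
noncomputable def psum (M : RM X) (ν : X → ℝ≥0∞) (N : ℕ) : ℝ≥0∞ :=
  ∑ m ∈ Finset.range (N + 1), M.gsum ν m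

lemma shift_sum (a : ℕ → ℝ≥0∞) {k : ℕ} (hk : 1 ≤ k) (N : ℕ) :
    ∑ j ∈ Finset.range N, (if k ≤ j + 1 then a (j + 1 - k) else 0) =
      ∑ j ∈ Finset.range (N + 1 - k), a j := by
  induction N with
  | zero =>
    have : 0 + 1 - k = 0 := by omega
    simp [this]
  | succ N ih =>
    rw [Finset.sum_range_succ, ih]
    by_cases h : k ≤ N + 1
    · have e : N + 1 + 1 - k = (N + 1 - k) + 1 := by omega
      rw [if_pos h, e, Finset.sum_range_succ]
    · have e1 : N + 1 + 1 - k = 0 := by omega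
      have e2 : N + 1 - k = 0 := by omega
      rw [if_neg h, e1, e2]
      simp

lemma psum_rec (h : M.Mult ν) (N : ℕ) :
    M.psum ν N = 1 + ∑' q : M.Blocks, ν q.1 *
      ∑ j ∈ Finset.range (N + 1 - M.lev q.1), M.gsum ν j := by
  unfold psum
  rw [Finset.sum_range_succ', gsum_zero h, add_comm]
  congr 1
  have h1 : ∀ j ∈ Finset.range N, M.gsum ν (j + 1) = ∑' q : M.Blocks, ν q.1 *
      (if M.lev q.1 ≤ j + 1 then M.gsum ν (j + 1 - M.lev q.1) else 0) :=
    fun j _ => gsum_pos_eq h (by omega)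
  rw [Finset.sum_congr rfl h1, ← Summable.tsum_finsetSum (fun _ _ => ENNReal.summable)]
  refine tsum_congr fun q => ?_
  rw [← Finset.mul_sum, shift_sum _ (block_lev_pos q)]

lemma psum_le (h : M.Mult ν) (N : ℕ) : M.psum ν N ≤ 1 + M.bmass ν * M.psum ν N := by
  rw [psum_rec h N]
  gcongr ?_ + ?_
  · exact le_rfl
  · unfold bmass
    rw [← ENNReal.tsum_mul_right, ← psum_rec h N, psum_rec h N, ← psum_rec h N]
    refine ENNReal.tsum_le_tsum fun q => ?_
    gcongr
    unfold psum
    exact Finset.sum_le_sum_of_subset (Finset.range_subset_range.mpr (by omega))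

lemma psum_ne_top {ω : X → ℝ≥0∞} (hup : ∀ m, M.gsum ω m ≤ 1) (N : ℕ) : M.psum ω N ≠ ⊤ :=
  ENNReal.sum_ne_top.mpr fun m _ => ne_top_of_le_ne_top (by simp) (hup m)

lemma psum_ge {ω : X → ℝ≥0∞} {q₀ : ℝ≥0∞} (hlow : ∀ m, q₀ ≤ M.gsum ω m) (N : ℕ) :
    ((N : ℝ≥0∞) + 1) * q₀ ≤ M.psum ω N := by
  unfold psum
  calc ((N : ℝ≥0∞) + 1) * q₀ = ∑ _m ∈ Finset.range (N + 1), q₀ := by
        rw [Finset.sum_const, Finset.card_range, nsmul_eq_mul]
        push_cast
        rfl
    _ ≤ _ := Finset.sum_le_sum fun m _ => hlow m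

lemma nat_add_one_toReal (N : ℕ) : ((N : ℝ≥0∞) + 1).toReal = (N : ℝ) + 1 := by
  rw [ENNReal.toReal_add (by simp) (by simp)]
  simp

/-- Total mass of the blocks. -/
theorem bmass_eq_one {ω : X → ℝ≥0∞} (h : M.Mult ω) {q₀ : ℝ≥0∞} (hq₀ : 0 < q₀)
    (hlow : ∀ m, q₀ ≤ M.gsum ω m) (hup : ∀ m, M.gsum ω m ≤ 1) : M.bmass ω = 1 := by
  classical
  have hq₀1 : q₀ ≠ ⊤ := ne_top_of_le_ne_top (by simp) ((hlow 0).trans (hup 0))
  have hq' : 0 < q₀.toReal := ENNReal.toReal_pos hq₀.ne' hq₀1
  have hs : ∀ N : ℕ, ((N : ℝ) + 1) * q₀.toReal ≤ (M.psum ω N).toReal := by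
    intro N
    have := ENNReal.toReal_mono (psum_ne_top hup N) (psum_ge hlow N)
    rwa [ENNReal.toReal_mul, nat_add_one_toReal] at this
  apply le_antisymm
  · -- at most one
    by_contra hcon
    push Not at hcon
    unfold bmass at hcon
    rw [ENNReal.tsum_eq_iSup_sum, lt_iSup_iff] at hcon
    obtain ⟨T, hT⟩ := hcon
    set θ := ∑ q ∈ T, ω q.1 with hθ
    have hω : ∀ x, ω x ≤ 1 := by
      intro x
      refine le_trans ?_ (hup (M.lev x))
      have := ENNReal.le_tsum (f := fun y => if M.lev y = M.lev x then ω y else 0) x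
      simpa [gsum] using this
    have hθtop : θ ≠ ⊤ := ENNReal.sum_ne_top.mpr fun q _ => ne_top_of_le_ne_top (by simp) (hω _)
    set K := ∑ q ∈ T, M.lev q.1 with hK
    have hlev : ∀ q ∈ T, M.lev q.1 ≤ K := fun q hq =>
      Finset.single_le_sum (f := fun q : M.Blocks => M.lev q.1) (fun _ _ => Nat.zero_le _) hq
    have h1 : ∀ N, θ * M.psum ω N ≤ M.psum ω (N + K) := by
      intro N
      rw [psum_rec h (N + K)]
      refine le_trans ?_ le_add_self
      refine le_trans ?_ (ENNReal.sum_le_tsum T)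
      rw [hθ, Finset.sum_mul]
      refine Finset.sum_le_sum fun q hq => ?_
      gcongr
      unfold psum
      exact Finset.sum_le_sum_of_subset (Finset.range_subset_range.mpr (by
        have := hlev q hq
        omega))
    have h2 : ∀ N, M.psum ω (N + K) ≤ M.psum ω N + K := by
      intro N
      unfold psum
      have e : N + K + 1 = (N + 1) + K := by ring
      rw [e, Finset.sum_range_add]
      gcongr
      calc ∑ j ∈ Finset.range K, M.gsum ω (N + 1 + j) ≤ ∑ _j ∈ Finset.range K, (1 : ℝ≥0∞) :=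
            Finset.sum_le_sum fun j _ => hup _
        _ = K := by simp
    have hθ1 : 1 < θ.toReal := by
      have := (ENNReal.toReal_lt_toReal (by simp) hθtop).mpr hT
      simpa using this
    obtain ⟨N, hN⟩ := exists_nat_gt ((K : ℝ) / (q₀.toReal * (θ.toReal - 1)))
    have h3 := (h1 N).trans (h2 N)
    have h4 := ENNReal.toReal_mono (ENNReal.add_ne_top.mpr ⟨psum_ne_top hup N, by simp⟩) h3
    rw [ENNReal.toReal_mul, ENNReal.toReal_add (psum_ne_top hup N) (by simp)] at h4
    simp only [ENNReal.toReal_natCast] at h4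
    have h5 := hs N
    set s := (M.psum ω N).toReal
    have hpos : 0 < q₀.toReal * (θ.toReal - 1) := mul_pos hq' (by linarith)
    rw [div_lt_iff₀ hpos] at hN
    have h6 : (θ.toReal - 1) * s ≤ K := by linarith
    have h7 : (θ.toReal - 1) * (((N : ℝ) + 1) * q₀.toReal) ≤ (θ.toReal - 1) * s :=
      mul_le_mul_of_nonneg_left h5 (by linarith)
    nlinarith
  · -- at least one
    by_contra hcon
    push Not at hcon
    have hFtop : M.bmass ω ≠ ⊤ := ne_top_of_lt hcon
    have hF1 : (M.bmass ω).toReal < 1 := by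
      have := (ENNReal.toReal_lt_toReal hFtop (by simp)).mpr hcon
      simpa using this
    have hF0 : 0 ≤ (M.bmass ω).toReal := ENNReal.toReal_nonneg
    obtain ⟨N, hN⟩ := exists_nat_gt ((1 : ℝ) / (q₀.toReal * (1 - (M.bmass ω).toReal)))
    have h3 := psum_le h N
    have h4 := ENNReal.toReal_mono (ENNReal.add_ne_top.mpr ⟨by simp,
      ENNReal.mul_ne_top hFtop (psum_ne_top hup N)⟩) h3
    rw [ENNReal.toReal_add (by simp) (ENNReal.mul_ne_top hFtop (psum_ne_top hup N)),
      ENNReal.toReal_mul] at h4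
    simp only [ENNReal.toReal_one] at h4
    have h5 := hs N
    set s := (M.psum ω N).toReal
    set F := (M.bmass ω).toReal
    have hpos : 0 < q₀.toReal * (1 - F) := mul_pos hq' (by linarith)
    rw [div_lt_iff₀ hpos] at hN
    have h6 : (1 - F) * s ≤ 1 := by linarith
    have h7 : (1 - F) * (((N : ℝ) + 1) * q₀.toReal) ≤ (1 - F) * s :=
      mul_le_mul_of_nonneg_left h5 (by linarith)
    nlinarith

end Graded

end RM

end Vale.Agent.Lib.P147
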