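import Vale.Agent.Lib.P147.RenewalPair
import Vale.Agent.Lib.P147.Chain

/-!
# Pair blocks drive a killed chain
-/

open scoped ENNReal
open Filter Topology

namespace Vale.Agent.Lib.P147

namespace RM

variable {X₁ X₂ : Type*} {M₁ : RM X₁} {M₂ : RM X₂} (P₁ : Prof M₁) (P₂ : Prof M₂)

open Classical in
/-- The set of differences of the transverse positions of entries on the same level. -/
noncomputable def pairO (g : PairT M₁ M₂) : Finset (ℤ × ℤ) :=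
  (Finset.range (M₁.lev g.1.1)).biUnion fun k =>
    (((P₁.J g.1.1).filter (fun s => s.1 = k)).toFinset ×ˢ
      ((P₂.J g.1.2).filter (fun s => s.1 = k)).toFinset).image (fun s => s.1.2 - s.2.2)

lemma mem_pairO (g : PairT M₁ M₂) (D : ℤ × ℤ) :
    D ∈ pairO P₁ P₂ g ↔ ∃ k u w, (k, u) ∈ P₁.J g.1.1 ∧ (k, w) ∈ P₂.J g.1.2 ∧ u - w = D := by
  classical
  simp only [pairO, Finset.mem_biUnion, Finset.mem_image, Finset.mem_product, List.mem_toFinset,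
    List.mem_filter, Finset.mem_range, decide_eq_true_eq]
  constructor
  · rintro ⟨k, _, ⟨⟨k₁, u⟩, ⟨k₂, w⟩⟩, ⟨⟨h1, h2⟩, h3, h4⟩, h5⟩
    simp only at h2 h4 h5
    refine ⟨k, u, w, ?_, ?_, h5⟩
    · rw [← h2]; exact h1
    · rw [← h4]; exact h3
  · rintro ⟨k, u, w, h1, h2, h3⟩
    exact ⟨k, P₁.J_lt _ _ h1, (((k, u), (k, w))), ⟨⟨h1, rfl⟩, h2, rfl⟩, h3⟩

lemma card_pairO_le (g : PairT M₁ M₂) : (pairO P₁ P₂ g).card ≤ pairC P₁ P₂ g := by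
  classical
  unfold pairO pairC
  refine Finset.card_biUnion_le.trans (Finset.sum_le_sum fun k _ => ?_)
  refine Finset.card_image_le.trans ?_
  rw [Finset.card_product]
  refine Nat.mul_le_mul ?_ ?_
  · rw [Prof.t, List.toFinset_filter]
    simp
  · rw [Prof.t, List.toFinset_filter]
    simp

/-- The displacement of a pair. -/
def pairΔ (g : PairT M₁ M₂) : ℤ × ℤ := P₂.δ g.1.2 - P₁.δ g.1.1

lemma mem_J_op₂ {X : Type*} {M : RM X} (P : Prof M) (a b : X) (k : ℕ) (u : ℤ × ℤ) :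
    (k, u) ∈ P.J (M.op a b) ↔ (k, u) ∈ P.J a ∨
      ∃ k' u', (k', u') ∈ P.J b ∧ k = k' + M.lev a ∧ u = u' + P.δ a := by
  rw [P.J_op, List.mem_append, List.mem_map]
  constructor
  · rintro (h | ⟨⟨k', u'⟩, h1, h2⟩)
    · exact Or.inl h
    · simp only [Prod.mk.injEq] at h2
      exact Or.inr ⟨k', u', h1, h2.1.symm, h2.2.symm⟩
  · rintro (h | ⟨k', u', h1, h2, h3⟩)
    · exact Or.inl h
    · refine Or.inr ⟨(k', u'), h1, ?_⟩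
      simp only [Prod.mk.injEq]
      exact ⟨h2.symm, h3.symm⟩

lemma pairO_op (g h : PairT M₁ M₂) (D : ℤ × ℤ) :
    D ∈ pairO P₁ P₂ ((pairM M₁ M₂).op g h) ↔
      D ∈ pairO P₁ P₂ g ∨ D + pairΔ P₁ P₂ g ∈ pairO P₁ P₂ h := by
  rw [mem_pairO, mem_pairO, mem_pairO, pairM_op_fst, pairM_op_snd]
  have hlev : M₂.lev g.1.2 = M₁.lev g.1.1 := g.2.symm
  constructor
  · rintro ⟨k, u, w, h1, h2, h3⟩
    rcases (mem_J_op₂ P₁ _ _ _ _).mp h1 with h1 | ⟨k₁, u₁, h1, hk₁, hu₁⟩ <;>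
      rcases (mem_J_op₂ P₂ _ _ _ _).mp h2 with h2 | ⟨k₂, w₂, h2, hk₂, hw₂⟩
    · exact Or.inl ⟨k, u, w, h1, h2, h3⟩
    · exfalso
      have := P₁.J_lt _ _ h1
      simp only at this
      omega
    · exfalso
      have := P₂.J_lt _ _ h2
      simp only at this
      omega
    · right
      have hk : k₁ = k₂ := by omega
      subst hk
      refine ⟨k₁, u₁, w₂, h1, h2, ?_⟩
      rw [← h3, hu₁, hw₂, pairΔ]
      abel
  · rintro (⟨k, u, w, h1, h2, h3⟩ | ⟨k, u, w, h1, h2, h3⟩)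
    · exact ⟨k, u, w, (mem_J_op₂ P₁ _ _ _ _).mpr (Or.inl h1), (mem_J_op₂ P₂ _ _ _ _).mpr (Or.inl h2),
        h3⟩
    · refine ⟨k + M₁.lev g.1.1, u + P₁.δ g.1.1, w + P₂.δ g.1.2,
        (mem_J_op₂ P₁ _ _ _ _).mpr (Or.inr ⟨k, u, h1, rfl, rfl⟩),
        (mem_J_op₂ P₂ _ _ _ _).mpr (Or.inr ⟨k, w, h2, by rw [hlev], rfl⟩), ?_⟩
      have : D = u - w - pairΔ P₁ P₂ g := by rw [h3]; abel
      rw [this, pairΔ]
      abel

lemma pairO_e (D : ℤ × ℤ) : D ∉ pairO P₁ P₂ (pairM M₁ M₂).e := by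
  rw [mem_pairO]
  rintro ⟨k, u, w, h1, _, _⟩
  have h2 : (k, u) ∈ P₁.J M₁.e := h1
  rw [P₁.J_e] at h2
  simp at h2

open Classical in
/-- The total weight of the pairs without obstacle at `D`. -/
noncomputable def Vbar (ω₁ : X₁ → ℝ≥0∞) (ω₂ : X₂ → ℝ≥0∞) (D : ℤ × ℤ) : ℝ≥0∞ :=
  ∑' g : PairT M₁ M₂, pw ω₁ ω₂ g * (if D ∈ pairO P₁ P₂ g then 0 else 1)

variable {ω₁ : X₁ → ℝ≥0∞} {ω₂ : X₂ → ℝ≥0∞}

open Classical in
lemma Vbar_rec (h₁ : M₁.Mult ω₁) (h₂ : M₂.Mult ω₂) (D : ℤ × ℤ) :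
    Vbar P₁ P₂ ω₁ ω₂ D = 1 + ∑' q : (pairM M₁ M₂).Blocks, pw ω₁ ω₂ q.1 *
      (if D ∈ pairO P₁ P₂ q.1 then 0 else Vbar P₁ P₂ ω₁ ω₂ (D + pairΔ P₁ P₂ q.1)) := by
  have hM := pw_mult h₁ h₂
  unfold Vbar
  rw [(pairM M₁ M₂).tsum_decomp]
  congr 1
  · rw [hM.map_e, if_neg (pairO_e P₁ P₂ D), mul_one]
  · refine tsum_congr fun q => ?_
    by_cases hq : D ∈ pairO P₁ P₂ q.1
    · rw [if_pos hq, mul_zero]
      refine ENNReal.tsum_eq_zero.mpr fun r => ?_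
      rw [if_pos ((pairO_op P₁ P₂ _ _ _).mpr (Or.inl hq)), mul_zero]
    · rw [if_neg hq, ← ENNReal.tsum_mul_left]
      refine tsum_congr fun r => ?_
      rw [hM.map_op, mul_assoc]
      congr 2
      by_cases hr : D + pairΔ P₁ P₂ q.1 ∈ pairO P₁ P₂ r
      · rw [if_pos hr, if_pos ((pairO_op P₁ P₂ _ _ _).mpr (Or.inr hr))]
      · rw [if_neg hr, if_neg]
        rw [pairO_op]
        tauto

/-- The killed chain on the blocks: partial sums of the survival probabilities are bounded. -/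
lemma sum_surv_le (h₁ : M₁.Mult ω₁) (h₂ : M₂.Mult ω₂) (N : ℕ) (D : ℤ × ℤ) :
    ∑ n ∈ Finset.range N, survK (fun q : (pairM M₁ M₂).Blocks => pw ω₁ ω₂ q.1)
      (fun q => pairΔ P₁ P₂ q.1) (hitK (fun q => pairO P₁ P₂ q.1)) n D ≤ Vbar P₁ P₂ ω₁ ω₂ D := by
  classical
  induction N generalizing D with
  | zero => simp
  | succ N ih =>
    rw [Finset.sum_range_succ', survK_zero, add_comm, Vbar_rec P₁ P₂ h₁ h₂]
    gcongr
    simp_rw [survK_succ]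
    rw [← Summable.tsum_finsetSum (fun _ _ => ENNReal.summable)]
    refine ENNReal.tsum_le_tsum fun q => ?_
    rw [← Finset.mul_sum]
    gcongr
    by_cases hq : D ∈ pairO P₁ P₂ q.1
    · have hq' : hitK (fun q : (pairM M₁ M₂).Blocks => pairO P₁ P₂ q.1) q D := hq
      simp only [hq, hq', if_true]
      simp
    · have hq' : ¬ hitK (fun q : (pairM M₁ M₂).Blocks => pairO P₁ P₂ q.1) q D := hq
      simp only [hq, hq', if_false]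
      exact ih _

/-- **Abstract non-intersection theorem.** -/
theorem Vbar_eq_top (h₁ : M₁.Mult ω₁) (h₂ : M₂.Mult ω₂)
    {q₁ q₂ : ℝ≥0∞} (hq₁ : 0 < q₁) (hq₂ : 0 < q₂)
    (hlow₁ : ∀ m, q₁ ≤ M₁.gsum ω₁ m) (hlow₂ : ∀ m, q₂ ≤ M₂.gsum ω₂ m)
    (hup₁ : ∀ m, M₁.gsum ω₁ m ≤ 1) (hup₂ : ∀ m, M₂.gsum ω₂ m ≤ 1)
    {A : ℝ≥0∞} (hA : A ≠ ⊤) (hocc : ∀ m k, occ M₁ P₁ ω₁ m k * occ M₂ P₂ ω₂ m k ≤ A)
    {β : ℝ} (hβ0 : 0 < β) (hβ1 : β ≤ 1)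
    (c : Corners (fun q : (pairM M₁ M₂).Blocks => pw ω₁ ω₂ q.1) (fun q => pairΔ P₁ P₂ q.1) β)
    (hr : HasForce (fun q : (pairM M₁ M₂).Blocks => pw ω₁ ω₂ q.1) (fun q => pairΔ P₁ P₂ q.1)
      (fun q => pairO P₁ P₂ q.1) (1, 0))
    (hl : HasForce (fun q : (pairM M₁ M₂).Blocks => pw ω₁ ω₂ q.1) (fun q => pairΔ P₁ P₂ q.1)
      (fun q => pairO P₁ P₂ q.1) (-1, 0))
    (hd : HasForce (fun q : (pairM M₁ M₂).Blocks => pw ω₁ ω₂ q.1) (fun q => pairΔ P₁ P₂ q.1)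
      (fun q => pairO P₁ P₂ q.1) (0, 1))
    (hb : HasForce (fun q : (pairM M₁ M₂).Blocks => pw ω₁ ω₂ q.1) (fun q => pairΔ P₁ P₂ q.1)
      (fun q => pairO P₁ P₂ q.1) (0, -1))
    (hzero : ∀ q : (pairM M₁ M₂).Blocks, (0 : ℤ × ℤ) ∈ pairO P₁ P₂ q.1) :
    Vbar P₁ P₂ ω₁ ω₂ D00 = ⊤ := by
  obtain ⟨hF, hm⟩ := pair_moment P₁ P₂ h₁ h₂ hq₁ hq₂ hlow₁ hlow₂ hup₁ hup₂ hA hocc
  have hm' : ∑' q : (pairM M₁ M₂).Blocks, pw ω₁ ω₂ q.1 * ((pairO P₁ P₂ q.1).card : ℝ≥0∞) ≠ ⊤ := by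
    refine ne_top_of_le_ne_top hm (ENNReal.tsum_le_tsum fun q => ?_)
    gcongr
    exact card_pairO_le P₁ P₂ q.1
  have hmain := chain_main hβ0 hβ1 hF c hm' hr hl hd hb hzero
  refine top_le_iff.mp ?_
  rw [← hmain, ENNReal.tsum_eq_iSup_nat]
  exact iSup_le fun N => sum_surv_le P₁ P₂ h₁ h₂ N D00

end RM

end Vale.Agent.Lib.P147
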