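import Vale.Agent.Lib.P147.RenewalTilt

/-!
# Renewal monoids: occupation numbers of the levels
-/

open scoped ENNReal
open Filter Topology

namespace Vale.Agent.Lib.P147

namespace RM

variable {X : Type*} {M : RM X}

/-- The first moment of an additive functional on the level `m`. -/
noncomputable def emom (M : RM X) (ω : X → ℝ≥0∞) (C : X → ℕ) (m : ℕ) : ℝ≥0∞ :=
  ∑' x, if M.lev x = m then ω x * (C x : ℝ≥0∞) else 0

/-- Linear growth of the first moment along the levels. -/
lemma emom_le {ω : X → ℝ≥0∞} (h : M.Mult ω) (hF : M.bmass ω ≤ 1) (hup : ∀ m, M.gsum ω m ≤ 1)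
    (C : X → ℕ) (hC0 : C M.e = 0) (hCop : ∀ a b, C (M.op a b) = C a + C b) (m : ℕ) :
    emom M ω C m ≤ m * ∑' q : M.Blocks, ω q.1 * (C q.1 : ℝ≥0∞) := by
  classical
  set G : ℝ≥0∞ := ∑' q : M.Blocks, ω q.1 * (C q.1 : ℝ≥0∞) with hG
  induction m using Nat.strong_induction_on with
  | _ m ih =>
    rcases Nat.eq_zero_or_pos m with rfl | hm
    · unfold emom
      rw [tsum_eq_single M.e]
      · simp [M.lev_e, hC0]
      · intro x hx
        rw [if_neg]
        exact fun h0 => hx ((M.lev_eq_zero x).mp h0)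
    · obtain ⟨n, rfl⟩ : ∃ n, m = n + 1 := ⟨m - 1, by omega⟩
      unfold emom
      rw [M.tsum_decomp, if_neg (by rw [M.lev_e]; omega), zero_add]
      have hterm : ∀ q : M.Blocks, (∑' r, if M.lev (M.op q.1 r) = n + 1 then
          ω (M.op q.1 r) * (C (M.op q.1 r) : ℝ≥0∞) else 0) ≤
          ω q.1 * (C q.1 : ℝ≥0∞) + ω q.1 * ((n : ℝ≥0∞) * G) := by
        intro q
        have hq1 := block_lev_pos q
        by_cases hq : M.lev q.1 ≤ n + 1
        · have e : (∑' r, if M.lev (M.op q.1 r) = n + 1 then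
              ω (M.op q.1 r) * (C (M.op q.1 r) : ℝ≥0∞) else 0) =
              ω q.1 * ((C q.1 : ℝ≥0∞) * M.gsum ω (n + 1 - M.lev q.1) +
                emom M ω C (n + 1 - M.lev q.1)) := by
            unfold gsum emom
            rw [← ENNReal.tsum_mul_left, ← ENNReal.tsum_add, ← ENNReal.tsum_mul_left]
            refine tsum_congr fun r => ?_
            rw [M.lev_op, h.map_op, hCop]
            by_cases hr : M.lev r = n + 1 - M.lev q.1
            · rw [if_pos (by omega), if_pos hr, if_pos hr]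
              push_cast
              ring
            · rw [if_neg (by omega), if_neg hr, if_neg hr]
              simp
          rw [e, mul_add]
          gcongr
          · calc (C q.1 : ℝ≥0∞) * M.gsum ω (n + 1 - M.lev q.1) ≤ (C q.1 : ℝ≥0∞) * 1 := by
                  gcongr
                  exact hup _
              _ = _ := mul_one _
          · refine (ih _ (by omega)).trans ?_
            gcongr
            omega
        · have : (∑' r, if M.lev (M.op q.1 r) = n + 1 then
              ω (M.op q.1 r) * (C (M.op q.1 r) : ℝ≥0∞) else 0) = 0 := by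
            refine ENNReal.tsum_eq_zero.mpr fun r => ?_
            rw [M.lev_op, if_neg (by omega)]
          rw [this]
          exact zero_le
      calc _ ≤ ∑' q : M.Blocks, (ω q.1 * (C q.1 : ℝ≥0∞) + ω q.1 * ((n : ℝ≥0∞) * G)) :=
            ENNReal.tsum_le_tsum hterm
        _ = G + M.bmass ω * ((n : ℝ≥0∞) * G) := by
            rw [ENNReal.tsum_add, ENNReal.tsum_mul_right]
            rfl
        _ ≤ G + 1 * ((n : ℝ≥0∞) * G) := by gcongr
        _ = ((n + 1 : ℕ) : ℝ≥0∞) * G := by
            push_cast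
            ring

/-- The profile of an element: a list of levels with transverse positions. -/
structure Prof (M : RM X) where
  J : X → List (ℕ × (ℤ × ℤ))
  δ : X → ℤ × ℤ
  J_e : J M.e = []
  J_op : ∀ a b, J (M.op a b) = J a ++ (J b).map (fun s => (s.1 + M.lev a, s.2 + δ a))
  J_lt : ∀ a, ∀ s ∈ J a, s.1 < M.lev a

namespace Prof

variable (P : Prof M)

/-- The number of distinct entries of the profile at the level `k`. -/
def t (k : ℕ) (a : X) : ℕ := ((P.J a).toFinset.filter (fun s => s.1 = k)).card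

/-- The number of distinct entries of the profile. -/
def len (a : X) : ℕ := (P.J a).toFinset.card

lemma len_e : P.len M.e = 0 := by simp [len, P.J_e]

/-- The shift of the entries of the second factor of a product. -/
def shiftE (a : X) (s : ℕ × (ℤ × ℤ)) : ℕ × (ℤ × ℤ) := (s.1 + M.lev a, s.2 + P.δ a)

lemma shiftE_inj (a : X) : Function.Injective (P.shiftE a) := by
  rintro ⟨k, u⟩ ⟨k', u'⟩ h
  simp only [shiftE, Prod.mk.injEq, add_left_inj] at h
  rw [h.1, h.2]

lemma toFinset_op (a b : X) :
    (P.J (M.op a b)).toFinset = (P.J a).toFinset ∪ (P.J b).toFinset.image (P.shiftE a) := by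
  rw [P.J_op, List.toFinset_append]
  congr 1
  ext s
  simp only [List.mem_toFinset, List.mem_map, Finset.mem_image, shiftE]

lemma disjoint_op (a b : X) :
    Disjoint (P.J a).toFinset ((P.J b).toFinset.image (P.shiftE a)) := by
  rw [Finset.disjoint_left]
  intro s hs hs'
  obtain ⟨r, _, rfl⟩ := Finset.mem_image.mp hs'
  have h1 := P.J_lt a _ (List.mem_toFinset.mp hs)
  simp only [shiftE] at h1
  omega

lemma len_op (a b : X) : P.len (M.op a b) = P.len a + P.len b := by
  unfold len
  rw [P.toFinset_op, Finset.card_union_of_disjoint (P.disjoint_op a b),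
    Finset.card_image_of_injective _ (P.shiftE_inj a)]

lemma t_op (k : ℕ) (a b : X) :
    P.t k (M.op a b) = P.t k a + (if M.lev a ≤ k then P.t (k - M.lev a) b else 0) := by
  unfold t
  rw [P.toFinset_op, Finset.filter_union, Finset.card_union_of_disjoint
    (Finset.disjoint_filter_filter (P.disjoint_op a b))]
  congr 1
  split_ifs with h
  · have : ((P.J b).toFinset.image (P.shiftE a)).filter (fun s => s.1 = k) =
        ((P.J b).toFinset.filter (fun s => s.1 = k - M.lev a)).image (P.shiftE a) := by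
      ext s
      simp only [Finset.mem_filter, Finset.mem_image, shiftE]
      constructor
      · rintro ⟨⟨r, hr, rfl⟩, hk⟩
        simp only at hk
        exact ⟨r, ⟨hr, by omega⟩, rfl⟩
      · rintro ⟨r, ⟨hr, hk⟩, rfl⟩
        exact ⟨⟨r, hr, rfl⟩, by simp only; omega⟩
    rw [this, Finset.card_image_of_injective _ (P.shiftE_inj a)]
  · rw [Finset.card_eq_zero, Finset.filter_eq_empty_iff]
    intro s hs
    obtain ⟨r, _, rfl⟩ := Finset.mem_image.mp hs
    simp only [shiftE]
    omega

lemma t_eq_zero {k : ℕ} {a : X} (h : M.lev a ≤ k) : P.t k a = 0 := by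
  unfold t
  rw [Finset.card_eq_zero, Finset.filter_eq_empty_iff]
  intro s hs
  have := P.J_lt a s (List.mem_toFinset.mp hs)
  omega

lemma sum_t (a : X) : ∑ k ∈ Finset.range (M.lev a), P.t k a = P.len a := by
  unfold t len
  refine (Finset.card_eq_sum_card_fiberwise (f := fun s : ℕ × (ℤ × ℤ) => s.1) ?_).symm
  intro s hs
  exact Finset.mem_coe.mpr (Finset.mem_range.mpr (P.J_lt a s (List.mem_toFinset.mp hs)))

end Prof

/-- The mass of a level weighted by the occupation of the level `k`. -/
noncomputable def occ (M : RM X) (P : Prof M) (ω : X → ℝ≥0∞) (m k : ℕ) : ℝ≥0∞ :=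
  ∑' x, if M.lev x = m then ω x * (P.t k x : ℝ≥0∞) else 0

/-- Injectivity of the product at fixed levels. -/
lemma tsum_op_le (h : X → ℝ≥0∞) (a b : ℕ) :
    (∑' p, ∑' r, if M.lev p = a ∧ M.lev r = b then h (M.op p r) else 0) ≤
      ∑' x, if M.lev x = a + b then h x else 0 := by
  classical
  have e0 : (∑' p, ∑' r, if M.lev p = a ∧ M.lev r = b then h (M.op p r) else 0) =
      ∑' s : X × X, if M.lev s.1 = a ∧ M.lev s.2 = b then h (M.op s.1 s.2) else 0 :=
    (ENNReal.tsum_prod' (f := fun s : X × X =>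
      if M.lev s.1 = a ∧ M.lev s.2 = b then h (M.op s.1 s.2) else 0)).symm
  rw [e0]
  set D : Set (X × X) := {s | M.lev s.1 = a ∧ M.lev s.2 = b} with hD
  have e1 : (∑' s : X × X, if M.lev s.1 = a ∧ M.lev s.2 = b then h (M.op s.1 s.2) else 0) =
      ∑' s : D, h (M.op s.1.1 s.1.2) := by
    refine Eq.trans (tsum_congr fun s => ?_) (tsum_subtype D (fun s => h (M.op s.1 s.2))).symm
    by_cases hs : M.lev s.1 = a ∧ M.lev s.2 = b
    · rw [if_pos hs, Set.indicator_of_mem (show s ∈ D from hs)]
    · rw [if_neg hs, Set.indicator_of_notMem (show s ∉ D from hs)]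
  rw [e1]
  let f : D → X := fun s => M.op s.1.1 s.1.2
  have hf : Function.Injective f := by
    rintro ⟨⟨p, r⟩, hpr⟩ ⟨⟨p', r'⟩, hpr'⟩ heq
    have hl : M.lev p = M.lev p' := hpr.1.trans hpr'.1.symm
    obtain ⟨h1, h2⟩ := M.cancel heq hl
    simp only [Subtype.mk.injEq, Prod.mk.injEq]
    exact ⟨h1, h2⟩
  have e2 : ∀ s : D, h (M.op s.1.1 s.1.2) =
      (fun x => if M.lev x = a + b then h x else 0) (f s) := by
    intro s
    have : M.lev (f s) = a + b := by
      simp only [f, M.lev_op]
      rw [s.2.1, s.2.2]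
    simp only [this, if_true]
    rfl
  simp_rw [e2]
  exact ENNReal.tsum_comp_le_tsum_of_injective hf _

lemma occ_mul_gsum_le {ω : X → ℝ≥0∞} (h : M.Mult ω) (P : Prof M) (m b k : ℕ) :
    occ M P ω m k * M.gsum ω b ≤ occ M P ω (m + b) k := by
  classical
  unfold occ gsum
  rw [← ENNReal.tsum_mul_right]
  simp_rw [← ENNReal.tsum_mul_left]
  refine le_trans ?_ (tsum_op_le (fun x => ω x * (P.t k x : ℝ≥0∞)) m b)
  refine ENNReal.tsum_le_tsum fun p => ENNReal.tsum_le_tsum fun r => ?_
  by_cases hp : M.lev p = m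
  · by_cases hr : M.lev r = b
    · rw [if_pos hp, if_pos hr, if_pos ⟨hp, hr⟩, h.map_op, P.t_op]
      have : ω p * (P.t k p : ℝ≥0∞) * ω r ≤
          ω p * ω r * ((P.t k p : ℝ≥0∞) + ((if M.lev p ≤ k then P.t (k - M.lev p) r else 0 : ℕ) : ℝ≥0∞)) := by
        calc _ = ω p * ω r * (P.t k p : ℝ≥0∞) := by ring
          _ ≤ _ := by
            gcongr
            exact le_self_add
      simpa using this
    · simp [hr]
  · simp [hp]

lemma gsum_mul_occ_le {ω : X → ℝ≥0∞} (h : M.Mult ω) (P : Prof M) (a n k : ℕ) :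
    M.gsum ω a * occ M P ω n k ≤ occ M P ω (a + n) (k + a) := by
  classical
  unfold occ gsum
  rw [← ENNReal.tsum_mul_right]
  simp_rw [← ENNReal.tsum_mul_left]
  refine le_trans ?_ (tsum_op_le (fun x => ω x * (P.t (k + a) x : ℝ≥0∞)) a n)
  refine ENNReal.tsum_le_tsum fun p => ENNReal.tsum_le_tsum fun r => ?_
  by_cases hp : M.lev p = a
  · by_cases hr : M.lev r = n
    · rw [if_pos hp, if_pos hr, if_pos ⟨hp, hr⟩, h.map_op, P.t_op, if_pos (by omega), hp]
      have e : k + a - a = k := by omega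
      rw [e]
      calc ω p * (ω r * (P.t k r : ℝ≥0∞)) = ω p * ω r * (P.t k r : ℝ≥0∞) := by ring
        _ ≤ _ := by
          gcongr
          exact le_add_self
    · simp [hr]
  · simp [hp]

/-- The occupation numbers of the levels add up to the length. -/
lemma sum_occ_le (ω : X → ℝ≥0∞) (P : Prof M) {m k : ℕ} (N : ℕ) (hk : k < m) :
    ∑ a ∈ Finset.range (N + 1), occ M P ω (m + N) (k + a) ≤ emom M ω P.len (m + N) := by
  classical
  unfold occ emom
  rw [← Summable.tsum_finsetSum (fun _ _ => ENNReal.summable)]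
  refine ENNReal.tsum_le_tsum fun x => ?_
  by_cases hx : M.lev x = m + N
  · simp only [if_pos hx]
    rw [← Finset.mul_sum]
    gcongr
    have h1 : ∑ a ∈ Finset.range (N + 1), P.t (k + a) x ≤ P.len x := by
      rw [← P.sum_t x, hx]
      have e : ∑ a ∈ Finset.range (N + 1), P.t (k + a) x = ∑ j ∈ Finset.Ico k (k + N + 1), P.t j x := by
        rw [Finset.sum_Ico_eq_sum_range]
        have : k + N + 1 - k = N + 1 := by omega
        rw [this]
      rw [e]
      refine Finset.sum_le_sum_of_subset ?_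
      intro j hj
      rw [Finset.mem_Ico] at hj
      rw [Finset.mem_range]
      omega
    exact_mod_cast h1
  · simp [hx]

/-- The occupation of a level is bounded by the first moment of the length. -/
theorem occ_bound {ω : X → ℝ≥0∞} (h : M.Mult ω) (P : Prof M) {q₀ : ℝ≥0∞}
    (hlow : ∀ m, q₀ ≤ M.gsum ω m) (hF : M.bmass ω ≤ 1) (hup : ∀ m, M.gsum ω m ≤ 1) (m k : ℕ) :
    q₀ * q₀ * occ M P ω m k ≤ 2 * ∑' q : M.Blocks, ω q.1 * (P.len q.1 : ℝ≥0∞) := by
  classical
  set G : ℝ≥0∞ := ∑' q : M.Blocks, ω q.1 * (P.len q.1 : ℝ≥0∞) with hG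
  by_cases hk : k < m
  · have h1 : ∀ a ∈ Finset.range (m + 1), q₀ * q₀ * occ M P ω m k ≤ occ M P ω (m + m) (k + a) := by
      intro a ha
      have ha' := Finset.mem_range.mp ha
      have e : a + (m + (m - a)) = m + m := by omega
      calc q₀ * q₀ * occ M P ω m k = q₀ * (occ M P ω m k * q₀) := by ring
        _ ≤ M.gsum ω a * (occ M P ω m k * M.gsum ω (m - a)) := by
            gcongr
            · exact hlow _
            · exact hlow _
        _ ≤ M.gsum ω a * occ M P ω (m + (m - a)) k := by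
            gcongr
            exact occ_mul_gsum_le h P _ _ _
        _ ≤ occ M P ω (a + (m + (m - a))) (k + a) := gsum_mul_occ_le h P _ _ _
        _ = _ := by rw [e]
    have h2 : ((m : ℝ≥0∞) + 1) * (q₀ * q₀ * occ M P ω m k) ≤ ((m : ℝ≥0∞) + 1) * (2 * G) := by
      calc ((m : ℝ≥0∞) + 1) * (q₀ * q₀ * occ M P ω m k)
          = ∑ _a ∈ Finset.range (m + 1), q₀ * q₀ * occ M P ω m k := by
            rw [Finset.sum_const, Finset.card_range, nsmul_eq_mul]
            push_cast
            rfl
        _ ≤ ∑ a ∈ Finset.range (m + 1), occ M P ω (m + m) (k + a) := Finset.sum_le_sum h1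
        _ ≤ emom M ω P.len (m + m) := sum_occ_le ω P m hk
        _ ≤ ((m + m : ℕ) : ℝ≥0∞) * G := emom_le h hF hup P.len P.len_e P.len_op _
        _ ≤ ((m : ℝ≥0∞) + 1) * (2 * G) := by
            rw [← mul_assoc]
            gcongr
            push_cast
            calc (m : ℝ≥0∞) + m ≤ ((m : ℝ≥0∞) + 1) + ((m : ℝ≥0∞) + 1) :=
                  add_le_add le_self_add le_self_add
              _ = _ := by ring
    have hne : (m : ℝ≥0∞) + 1 ≠ 0 := by simp
    have hnt : (m : ℝ≥0∞) + 1 ≠ ⊤ := by simp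
    exact (ENNReal.mul_le_mul_iff_right hne hnt).mp h2
  · have h0 : occ M P ω m k = 0 := by
      unfold occ
      refine ENNReal.tsum_eq_zero.mpr fun x => ?_
      split_ifs with hx
      · rw [P.t_eq_zero (by omega)]
        simp
      · rfl
    rw [h0, mul_zero]
    exact zero_le

end RM

end Vale.Agent.Lib.P147
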