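import Vale.Agent.Lib.P147.RenewalOcc

/-!
# Renewal monoids: pairs of elements on the same level
-/

open scoped ENNReal
open Filter Topology

namespace Vale.Agent.Lib.P147

namespace RM

variable {X₁ X₂ : Type*} (M₁ : RM X₁) (M₂ : RM X₂)

/-- Pairs of elements of the same level. -/
abbrev PairT : Type _ := {p : X₁ × X₂ // M₁.lev p.1 = M₂.lev p.2}

/-- The renewal monoid of pairs. -/
def pairM : RM (PairT M₁ M₂) where
  op a b := ⟨(M₁.op a.1.1 b.1.1, M₂.op a.1.2 b.1.2), by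
    simp only [M₁.lev_op, M₂.lev_op, a.2, b.2]⟩
  e := ⟨(M₁.e, M₂.e), by rw [M₁.lev_e, M₂.lev_e]⟩
  lev a := M₁.lev a.1.1
  lev_op a b := M₁.lev_op _ _
  lev_eq_zero a := by
    constructor
    · intro h
      have h2 : M₂.lev a.1.2 = 0 := by rw [← a.2]; exact h
      apply Subtype.ext
      exact Prod.ext ((M₁.lev_eq_zero _).mp h) ((M₂.lev_eq_zero _).mp h2)
    · rintro rfl
      exact M₁.lev_e
  e_op a := Subtype.ext (Prod.ext (M₁.e_op _) (M₂.e_op _))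
  op_e a := Subtype.ext (Prod.ext (M₁.op_e _) (M₂.op_e _))
  op_assoc a b c := Subtype.ext (Prod.ext (M₁.op_assoc _ _ _) (M₂.op_assoc _ _ _))
  equi a b a' b' h hl := by
    have h1 : M₁.op a.1.1 b.1.1 = M₁.op a'.1.1 b'.1.1 := congrArg (fun g => g.1.1) h
    have h2 : M₂.op a.1.2 b.1.2 = M₂.op a'.1.2 b'.1.2 := congrArg (fun g => g.1.2) h
    have hl2 : M₂.lev a.1.2 ≤ M₂.lev a'.1.2 := by rw [← a.2, ← a'.2]; exact hl
    obtain ⟨q₁, hq₁, hq₁'⟩ := M₁.equi _ _ _ _ h1 hl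
    obtain ⟨q₂, hq₂, hq₂'⟩ := M₂.equi _ _ _ _ h2 hl2
    have hq : M₁.lev q₁ = M₂.lev q₂ := by
      have e1 := congrArg M₁.lev hq₁
      have e2 := congrArg M₂.lev hq₂
      rw [M₁.lev_op] at e1
      rw [M₂.lev_op] at e2
      have e3 := a.2
      have e4 := a'.2
      omega
    exact ⟨⟨(q₁, q₂), hq⟩, Subtype.ext (Prod.ext hq₁ hq₂), Subtype.ext (Prod.ext hq₁' hq₂')⟩

variable {M₁ M₂}

@[simp] lemma pairM_lev (g : PairT M₁ M₂) : (pairM M₁ M₂).lev g = M₁.lev g.1.1 := rfl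

lemma pairM_op_fst (g h : PairT M₁ M₂) : ((pairM M₁ M₂).op g h).1.1 = M₁.op g.1.1 h.1.1 := rfl

lemma pairM_op_snd (g h : PairT M₁ M₂) : ((pairM M₁ M₂).op g h).1.2 = M₂.op g.1.2 h.1.2 := rfl

/-- The weight of a pair. -/
noncomputable def pw (ω₁ : X₁ → ℝ≥0∞) (ω₂ : X₂ → ℝ≥0∞) (g : PairT M₁ M₂) : ℝ≥0∞ := ω₁ g.1.1 * ω₂ g.1.2

lemma pw_mult {ω₁ : X₁ → ℝ≥0∞} {ω₂ : X₂ → ℝ≥0∞} (h₁ : M₁.Mult ω₁) (h₂ : M₂.Mult ω₂) :
    (pairM M₁ M₂).Mult (pw ω₁ ω₂) := by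
  constructor
  · show ω₁ M₁.e * ω₂ M₂.e = 1
    rw [h₁.map_e, h₂.map_e, one_mul]
  · intro a b
    show ω₁ (M₁.op a.1.1 b.1.1) * ω₂ (M₂.op a.1.2 b.1.2) = _
    rw [h₁.map_op, h₂.map_op]
    simp only [pw]
    ring

/-- Sums over pairs. -/
lemma tsum_pairT (h : X₁ × X₂ → ℝ≥0∞) :
    ∑' g : PairT M₁ M₂, h g.1 = ∑' x, ∑' y, if M₁.lev x = M₂.lev y then h (x, y) else 0 := by
  classical
  have e0 : (∑' x, ∑' y, if M₁.lev x = M₂.lev y then h (x, y) else 0) =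
      ∑' s : X₁ × X₂, if M₁.lev s.1 = M₂.lev s.2 then h s else 0 :=
    (ENNReal.tsum_prod' (f := fun s : X₁ × X₂ => if M₁.lev s.1 = M₂.lev s.2 then h s else 0)).symm
  rw [e0]
  refine Eq.trans (tsum_subtype {s : X₁ × X₂ | M₁.lev s.1 = M₂.lev s.2} h) (tsum_congr fun s => ?_)
  by_cases hs : M₁.lev s.1 = M₂.lev s.2
  · rw [if_pos hs, Set.indicator_of_mem (show s ∈ {s : X₁ × X₂ | M₁.lev s.1 = M₂.lev s.2} from hs)]
  · rw [if_neg hs, Set.indicator_of_notMem (show s ∉ {s : X₁ × X₂ | M₁.lev s.1 = M₂.lev s.2} from hs)]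

/-- Sum of a product functional over the pairs of a fixed level. -/
lemma tsum_pair_level (f₁ : X₁ → ℝ≥0∞) (f₂ : X₂ → ℝ≥0∞) (m : ℕ) :
    (∑' g : PairT M₁ M₂, if M₁.lev g.1.1 = m then f₁ g.1.1 * f₂ g.1.2 else 0) =
      (∑' x, if M₁.lev x = m then f₁ x else 0) * ∑' y, if M₂.lev y = m then f₂ y else 0 := by
  classical
  rw [tsum_pairT (M₁ := M₁) (M₂ := M₂) (fun s => if M₁.lev s.1 = m then f₁ s.1 * f₂ s.2 else 0)]
  rw [← ENNReal.tsum_mul_right]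
  refine tsum_congr fun x => ?_
  rw [← ENNReal.tsum_mul_left]
  refine tsum_congr fun y => ?_
  by_cases hx : M₁.lev x = m
  · by_cases hy : M₂.lev y = m
    · simp [hx, hy]
    · have : ¬ m = M₂.lev y := fun h => hy h.symm
      simp [hx, hy, this]
  · by_cases hxy : M₁.lev x = M₂.lev y <;> simp [hx]

lemma gsum_pair (ω₁ : X₁ → ℝ≥0∞) (ω₂ : X₂ → ℝ≥0∞) (m : ℕ) :
    (pairM M₁ M₂).gsum (pw ω₁ ω₂) m = M₁.gsum ω₁ m * M₂.gsum ω₂ m :=
  tsum_pair_level ω₁ ω₂ m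

variable (P₁ : Prof M₁) (P₂ : Prof M₂)

/-- The number of pairs of entries on the same level. -/
def pairC (g : PairT M₁ M₂) : ℕ :=
  ∑ k ∈ Finset.range (M₁.lev g.1.1), P₁.t k g.1.1 * P₂.t k g.1.2

lemma pairC_e : pairC P₁ P₂ (pairM M₁ M₂).e = 0 := by
  simp [pairC, pairM, M₁.lev_e]

lemma pairC_op (g h : PairT M₁ M₂) :
    pairC P₁ P₂ ((pairM M₁ M₂).op g h) = pairC P₁ P₂ g + pairC P₁ P₂ h := by
  unfold pairC
  rw [pairM_op_fst, pairM_op_snd, M₁.lev_op, Finset.sum_range_add]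
  congr 1
  · refine Finset.sum_congr rfl fun k hk => ?_
    have hk' := Finset.mem_range.mp hk
    have h2 : ¬ M₂.lev g.1.2 ≤ k := by rw [← g.2]; omega
    rw [P₁.t_op, P₂.t_op, if_neg (by omega), if_neg h2]
    simp
  · refine Finset.sum_congr rfl fun k _ => ?_
    have h2 : M₂.lev g.1.2 ≤ M₁.lev g.1.1 + k := by rw [← g.2]; omega
    rw [P₁.t_op, P₂.t_op, if_pos (by omega), if_pos h2, P₁.t_eq_zero (by omega),
      P₂.t_eq_zero h2]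
    have e1 : M₁.lev g.1.1 + k - M₁.lev g.1.1 = k := by omega
    have e2 : M₁.lev g.1.1 + k - M₂.lev g.1.2 = k := by rw [← g.2]; omega
    rw [e1, e2]
    simp

/-- The first moment of the number of pairs on a level. -/
lemma emom_pair (ω₁ : X₁ → ℝ≥0∞) (ω₂ : X₂ → ℝ≥0∞) (m : ℕ) :
    emom (pairM M₁ M₂) (pw ω₁ ω₂) (pairC P₁ P₂) m =
      ∑ k ∈ Finset.range m, occ M₁ P₁ ω₁ m k * occ M₂ P₂ ω₂ m k := by
  classical
  have h1 : ∀ k, occ M₁ P₁ ω₁ m k * occ M₂ P₂ ω₂ m k =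
      ∑' g : PairT M₁ M₂, if M₁.lev g.1.1 = m then
        (ω₁ g.1.1 * (P₁.t k g.1.1 : ℝ≥0∞)) * (ω₂ g.1.2 * (P₂.t k g.1.2 : ℝ≥0∞)) else 0 := by
    intro k
    exact (tsum_pair_level _ _ m).symm
  simp_rw [h1]
  rw [← Summable.tsum_finsetSum (fun _ _ => ENNReal.summable)]
  unfold emom
  refine tsum_congr fun g => ?_
  by_cases hg : M₁.lev g.1.1 = m
  · simp only [pairM_lev, hg, if_true, pairC, pw]
    rw [Nat.cast_sum, Finset.mul_sum]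
    refine Finset.sum_congr rfl fun k _ => ?_
    push_cast
    ring
  · simp [hg]

/-- The first moment of the obstacle count over the pair blocks is finite. -/
theorem pair_moment {ω₁ : X₁ → ℝ≥0∞} {ω₂ : X₂ → ℝ≥0∞} (h₁ : M₁.Mult ω₁) (h₂ : M₂.Mult ω₂)
    {q₁ q₂ : ℝ≥0∞} (hq₁ : 0 < q₁) (hq₂ : 0 < q₂)
    (hlow₁ : ∀ m, q₁ ≤ M₁.gsum ω₁ m) (hlow₂ : ∀ m, q₂ ≤ M₂.gsum ω₂ m)
    (hup₁ : ∀ m, M₁.gsum ω₁ m ≤ 1) (hup₂ : ∀ m, M₂.gsum ω₂ m ≤ 1)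
    {A : ℝ≥0∞} (hA : A ≠ ⊤) (hocc : ∀ m k, occ M₁ P₁ ω₁ m k * occ M₂ P₂ ω₂ m k ≤ A) :
    (pairM M₁ M₂).bmass (pw ω₁ ω₂) = 1 ∧
    ∑' q : (pairM M₁ M₂).Blocks, pw ω₁ ω₂ q.1 * (pairC P₁ P₂ q.1 : ℝ≥0∞) ≠ ⊤ := by
  classical
  have hq₁top : q₁ ≠ ⊤ := ne_top_of_le_ne_top ENNReal.one_ne_top ((hlow₁ 0).trans (hup₁ 0))
  have hq₂top : q₂ ≠ ⊤ := ne_top_of_le_ne_top ENNReal.one_ne_top ((hlow₂ 0).trans (hup₂ 0))
  set Q : ℝ≥0∞ := q₁ * q₂ with hQ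
  have hQ0 : 0 < Q := ENNReal.mul_pos hq₁.ne' hq₂.ne'
  have hQtop : Q ≠ ⊤ := ENNReal.mul_ne_top hq₁top hq₂top
  have hM := pw_mult h₁ h₂
  have hlow : ∀ m, Q ≤ (pairM M₁ M₂).gsum (pw ω₁ ω₂) m := fun m => by
    rw [gsum_pair]
    exact mul_le_mul' (hlow₁ m) (hlow₂ m)
  have hup : ∀ m, (pairM M₁ M₂).gsum (pw ω₁ ω₂) m ≤ 1 := fun m => by
    rw [gsum_pair]
    calc _ ≤ (1 : ℝ≥0∞) * 1 := mul_le_mul' (hup₁ m) (hup₂ m)
      _ = 1 := one_mul 1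
  have hF := bmass_eq_one hM hQ0 hlow hup
  refine ⟨hF, ?_⟩
  set p : ℝ := Q.toReal / 2 with hp
  have hQ' : 0 < Q.toReal := ENNReal.toReal_pos hQ0.ne' hQtop
  have hp0 : 0 < p := by positivity
  obtain ⟨c₀, hc₀⟩ := exists_nat_gt (A.toReal / p)
  set c' : ℕ := c₀ + 1 with hc'
  have hc'1 : 1 ≤ c' := by omega
  have hAle : A ≤ (c' : ℝ≥0∞) * ENNReal.ofReal p := by
    rw [← ENNReal.ofReal_toReal hA, ← ENNReal.ofReal_natCast, ← ENNReal.ofReal_mul (by positivity)]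
    refine ENNReal.ofReal_le_ofReal ?_
    rw [div_lt_iff₀ hp0] at hc₀
    have : (c₀ : ℝ) ≤ c' := by
      rw [hc']
      push_cast
      linarith
    nlinarith
  have hs : ∀ m, 1 ≤ m → ENNReal.ofReal p ≤
      ∑' g : PairT M₁ M₂, if (pairM M₁ M₂).lev g = m ∧ pairC P₁ P₂ g ≤ c' * m then
        pw ω₁ ω₂ g else 0 := by
    intro m hm
    set first := ∑' g : PairT M₁ M₂, if (pairM M₁ M₂).lev g = m ∧ pairC P₁ P₂ g ≤ c' * m then
        pw ω₁ ω₂ g else 0 with hfirst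
    set second := ∑' g : PairT M₁ M₂, if (pairM M₁ M₂).lev g = m ∧ ¬ pairC P₁ P₂ g ≤ c' * m then
        pw ω₁ ω₂ g else 0 with hsecond
    have hsplit : (pairM M₁ M₂).gsum (pw ω₁ ω₂) m = first + second := by
      rw [hfirst, hsecond, ← ENNReal.tsum_add]
      unfold gsum
      refine tsum_congr fun g => ?_
      by_cases h1 : M₁.lev g.1.1 = m <;> by_cases h2 : pairC P₁ P₂ g ≤ c' * m <;> simp [h1, h2]
    have hmark : ((c' * m : ℕ) : ℝ≥0∞) * second ≤ emom (pairM M₁ M₂) (pw ω₁ ω₂) (pairC P₁ P₂) m := by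
      rw [hsecond, ← ENNReal.tsum_mul_left]
      unfold emom
      refine ENNReal.tsum_le_tsum fun g => ?_
      by_cases h1 : M₁.lev g.1.1 = m
      · by_cases h2 : pairC P₁ P₂ g ≤ c' * m
        · simp [h1, h2]
        · have h3 : ((c' * m : ℕ) : ℝ≥0∞) ≤ (pairC P₁ P₂ g : ℝ≥0∞) := by
            exact_mod_cast (not_le.mp h2).le
          simp only [pairM_lev, h1, h2, not_false_eq_true, and_self, if_true]
          rw [mul_comm]
          gcongr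
      · simp [h1]
    have hem : emom (pairM M₁ M₂) (pw ω₁ ω₂) (pairC P₁ P₂) m ≤ (m : ℝ≥0∞) * A := by
      rw [emom_pair]
      calc _ ≤ ∑ _k ∈ Finset.range m, A := Finset.sum_le_sum fun k _ => hocc m k
        _ = _ := by simp
    have hmne : (m : ℝ≥0∞) ≠ 0 := by
      have : m ≠ 0 := by omega
      exact_mod_cast this
    have hmnt : (m : ℝ≥0∞) ≠ ⊤ := by simp
    have hc'ne : (c' : ℝ≥0∞) ≠ 0 := by
      have : c' ≠ 0 := by omega
      exact_mod_cast this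
    have hsec : second ≤ ENNReal.ofReal p := by
      have h5 : (m : ℝ≥0∞) * ((c' : ℝ≥0∞) * second) ≤ (m : ℝ≥0∞) * ((c' : ℝ≥0∞) * ENNReal.ofReal p) := by
        calc (m : ℝ≥0∞) * ((c' : ℝ≥0∞) * second) = ((c' * m : ℕ) : ℝ≥0∞) * second := by
              push_cast
              ring
          _ ≤ (m : ℝ≥0∞) * A := hmark.trans hem
          _ ≤ _ := by gcongr
      have h6 := (ENNReal.mul_le_mul_iff_right hmne hmnt).mp h5
      exact (ENNReal.mul_le_mul_iff_right hc'ne (by simp)).mp h6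
    have h7 : ENNReal.ofReal p + ENNReal.ofReal p = Q := by
      rw [← ENNReal.ofReal_add hp0.le hp0.le, hp, add_halves, ENNReal.ofReal_toReal hQtop]
    have h8 : ENNReal.ofReal p + ENNReal.ofReal p ≤ first + ENNReal.ofReal p := by
      rw [h7]
      calc Q ≤ _ := hlow m
        _ = first + second := hsplit
        _ ≤ _ := by gcongr
    exact (ENNReal.add_le_add_iff_right ENNReal.ofReal_ne_top).mp h8
  have htilt := tilt hM hF hup (pairC P₁ P₂) (pairC_e P₁ P₂) (pairC_op P₁ P₂) hp0 c' 1 hc'1 hs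
  exact ne_top_of_le_ne_top ENNReal.ofReal_ne_top htilt

end RM

end Vale.Agent.Lib.P147
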