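import Vale.Agent.Lib.P147.Renewal

/-!
# Renewal monoids: first moment of a block functional from its growth along the levels
-/

open scoped ENNReal
open Filter Topology

namespace Vale.Agent.Lib.P147

namespace RM

variable {X : Type*} {M : RM X}

/-- Real form of the tilted inequality: geometric tail. -/
lemma geom_tail {g p ρ : ℝ} (hρ0 : 0 ≤ ρ) (hρ1 : ρ < 1) (m₀ : ℕ)
    (h : ∀ L : ℕ, g * (p * ∑ j ∈ Finset.range (L + 1), ρ ^ (m₀ + j)) ≤ 1) :
    g * (p * ρ ^ m₀) ≤ 1 - ρ := by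
  have h1 : ∀ L : ℕ, g * (p * ρ ^ m₀) * (1 - ρ ^ (L + 1)) ≤ 1 - ρ := by
    intro L
    have h2 := h L
    have h3 : ∑ j ∈ Finset.range (L + 1), ρ ^ (m₀ + j) =
        ρ ^ m₀ * ∑ j ∈ Finset.range (L + 1), ρ ^ j := by
      rw [Finset.mul_sum]
      exact Finset.sum_congr rfl fun j _ => pow_add _ _ _
    have h4 : (∑ j ∈ Finset.range (L + 1), ρ ^ j) * (1 - ρ) = 1 - ρ ^ (L + 1) :=
      geom_sum_mul_neg ρ (L + 1)
    rw [h3] at h2
    have h5 : 0 ≤ 1 - ρ := by linarith
    calc g * (p * ρ ^ m₀) * (1 - ρ ^ (L + 1))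
        = (g * (p * (ρ ^ m₀ * ∑ j ∈ Finset.range (L + 1), ρ ^ j))) * (1 - ρ) := by
          rw [← h4]; ring
      _ ≤ 1 * (1 - ρ) := mul_le_mul_of_nonneg_right h2 h5
      _ = 1 - ρ := one_mul _
  have h6 : Tendsto (fun L : ℕ => g * (p * ρ ^ m₀) * (1 - ρ ^ (L + 1))) atTop
      (𝓝 (g * (p * ρ ^ m₀) * (1 - 0))) := by
    refine Tendsto.const_mul _ (Tendsto.const_sub _ ?_)
    exact (tendsto_pow_atTop_nhds_zero_of_lt_one hρ0 hρ1).comp (tendsto_add_atTop_nat 1)
  have h7 := le_of_tendsto' h6 h1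
  simpa using h7

/-- Passing to the limit in the polynomial inequality. -/
lemma poly_limit {ι : Type*} (T : Finset ι) (a : ι → ℝ) (C : ι → ℕ) {p c : ℝ} (m : ℕ)
    (h : ∀ r : ℝ, 0 < r → r < 1 →
      (∑ q ∈ T, a q * ∑ i ∈ Finset.range (C q), r ^ i) * (p * r ^ m) ≤ c) :
    (∑ q ∈ T, a q * (C q : ℝ)) * p ≤ c := by
  have hcont : Continuous (fun r : ℝ =>
      (∑ q ∈ T, a q * ∑ i ∈ Finset.range (C q), r ^ i) * (p * r ^ m)) := by
    fun_prop
  have hlim : Tendsto (fun r : ℝ =>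
      (∑ q ∈ T, a q * ∑ i ∈ Finset.range (C q), r ^ i) * (p * r ^ m)) (𝓝[<] 1)
      (𝓝 ((∑ q ∈ T, a q * (C q : ℝ)) * p)) := by
    have := (hcont.tendsto (1 : ℝ)).mono_left (nhdsWithin_le_nhds (s := Set.Iio 1))
    simpa using this
  refine le_of_tendsto hlim ?_
  filter_upwards [Ioo_mem_nhdsLT (show (0 : ℝ) < 1 by norm_num)] with r hr
  exact h r hr.1 hr.2

/-- **Tilting lemma.** If along the levels an additive functional grows at most linearly on a
set of uniformly positive mass, then the functional has a finite first moment on the blocks. -/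
theorem tilt {ω : X → ℝ≥0∞} (h : M.Mult ω) (hF : M.bmass ω = 1) (hup : ∀ m, M.gsum ω m ≤ 1)
    (C : X → ℕ) (hC0 : C M.e = 0) (hCop : ∀ a b, C (M.op a b) = C a + C b) {p : ℝ} (hp : 0 < p)
    (c' m₀ : ℕ) (hc' : 1 ≤ c')
    (hs : ∀ m, m₀ ≤ m → ENNReal.ofReal p ≤ ∑' x, if M.lev x = m ∧ C x ≤ c' * m then ω x else 0) :
    ∑' q : M.Blocks, ω q.1 * (C q.1 : ℝ≥0∞) ≤ ENNReal.ofReal ((c' : ℝ) / p) := by
  classical
  rw [ENNReal.tsum_eq_iSup_sum]
  refine iSup_le fun T => ?_
  have hω : ∀ q : M.Blocks, ω q.1 ≠ ⊤ := fun q => by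
    have h1 : ω q.1 ≤ 1 := by
      rw [← hF]
      exact ENNReal.le_tsum q
    exact ne_top_of_le_ne_top (by simp) h1
  set a : M.Blocks → ℝ := fun q => (ω q.1).toReal with ha
  have ha0 : ∀ q, 0 ≤ a q := fun q => ENNReal.toReal_nonneg
  -- the main estimate for fixed r
  have hmain : ∀ r : ℝ, 0 < r → r < 1 →
      (∑ q ∈ T, a q * ∑ i ∈ Finset.range (C q.1), r ^ i) * (p * r ^ (c' * m₀)) ≤ (c' : ℝ) := by
    intro r hr0 hr1
    set rr : ℝ≥0∞ := ENNReal.ofReal r with hrr
    have hrr1 : rr ≤ 1 := by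
      rw [hrr, ← ENNReal.ofReal_one]
      exact ENNReal.ofReal_le_ofReal hr1.le
    have hrrtop : rr ≠ ⊤ := ENNReal.ofReal_ne_top
    set ν : X → ℝ≥0∞ := fun x => ω x * rr ^ C x with hν
    have hνM : M.Mult ν := by
      constructor
      · simp [hν, h.map_e, hC0]
      · intro a b
        simp only [hν, h.map_op, hCop, pow_add]
        ring
    have hνle : ∀ m, M.gsum ν m ≤ 1 := by
      intro m
      refine le_trans (ENNReal.tsum_le_tsum fun x => ?_) (hup m)
      split_ifs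
      · calc ν x ≤ ω x * 1 := by
              simp only [hν]
              gcongr
              exact pow_le_one' hrr1 _
          _ = ω x := mul_one _
      · exact le_rfl
    -- the mass of the tilted blocks
    set Gi : ℝ≥0∞ := ∑' q : M.Blocks, ω q.1 * (1 - rr ^ C q.1) with hGi
    have hsum : M.bmass ν + Gi = 1 := by
      rw [← hF]
      unfold bmass
      rw [hGi, ← ENNReal.tsum_add]
      refine tsum_congr fun q => ?_
      simp only [hν]
      rw [← mul_add, add_tsub_cancel_of_le (pow_le_one' hrr1 _), mul_one]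
    have hFtop : M.bmass ν ≠ ⊤ := by
      have h0 : M.bmass ν ≤ 1 := by
        rw [← hsum]
        exact le_self_add
      exact ne_top_of_le_ne_top ENNReal.one_ne_top h0
    have hGtop : Gi ≠ ⊤ := by
      have h0 : Gi ≤ 1 := by
        rw [← hsum]
        exact le_add_self
      exact ne_top_of_le_ne_top ENNReal.one_ne_top h0
    have hpsum : ∀ N, Gi * M.psum ν N ≤ 1 := by
      intro N
      have h1 := psum_le hνM N
      have htop := psum_ne_top hνle N
      have h2 : M.bmass ν * M.psum ν N + Gi * M.psum ν N ≤ M.bmass ν * M.psum ν N + 1 := by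
        rw [← add_mul, hsum, one_mul, add_comm (M.bmass ν * M.psum ν N)]
        exact h1
      exact (ENNReal.add_le_add_iff_left (ENNReal.mul_ne_top hFtop htop)).mp h2
    have hlow : ∀ m, m₀ ≤ m → ENNReal.ofReal p * rr ^ (c' * m) ≤ M.gsum ν m := by
      intro m hm
      calc ENNReal.ofReal p * rr ^ (c' * m)
          ≤ (∑' x, if M.lev x = m ∧ C x ≤ c' * m then ω x else 0) * rr ^ (c' * m) := by
            gcongr
            exact hs m hm
        _ = ∑' x, (if M.lev x = m ∧ C x ≤ c' * m then ω x else 0) * rr ^ (c' * m) :=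
            ENNReal.tsum_mul_right.symm
        _ ≤ _ := by
            unfold gsum
            refine ENNReal.tsum_le_tsum fun x => ?_
            by_cases h1 : M.lev x = m ∧ C x ≤ c' * m
            · rw [if_pos h1, if_pos h1.1]
              simp only [hν]
              exact mul_le_mul' le_rfl (pow_le_pow_right_of_le_one' hrr1 h1.2)
            · rw [if_neg h1, zero_mul]
              exact zero_le
    -- passing to real numbers
    set g : ℝ≥0∞ := ∑ q ∈ T, ω q.1 * (1 - rr ^ C q.1) with hg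
    have hgle : g ≤ Gi := ENNReal.sum_le_tsum T
    have hgtop : g ≠ ⊤ := ne_top_of_le_ne_top hGtop hgle
    have hgreal : g.toReal = ∑ q ∈ T, a q * (1 - r ^ C q.1) := by
      rw [hg, ENNReal.toReal_sum fun q _ => ENNReal.mul_ne_top (hω q)
        (ne_top_of_le_ne_top (by simp) tsub_le_self)]
      refine Finset.sum_congr rfl fun q _ => ?_
      rw [ENNReal.toReal_mul, ENNReal.toReal_sub_of_le (pow_le_one' hrr1 _) (by simp),
        ENNReal.toReal_pow, hrr, ENNReal.toReal_ofReal hr0.le]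
      simp [ha]
    set ρ : ℝ := r ^ c' with hρ
    have hρ0 : 0 ≤ ρ := by positivity
    have hρ1 : ρ < 1 := pow_lt_one₀ hr0.le hr1 (by omega)
    have hreal : ∀ L : ℕ, g.toReal * (p * ∑ j ∈ Finset.range (L + 1), ρ ^ (m₀ + j)) ≤ 1 := by
      intro L
      have h1 : ENNReal.ofReal (p * ∑ j ∈ Finset.range (L + 1), ρ ^ (m₀ + j)) ≤ M.psum ν (m₀ + L) := by
        have e : (ENNReal.ofReal (p * ∑ j ∈ Finset.range (L + 1), ρ ^ (m₀ + j))) =
            ∑ j ∈ Finset.range (L + 1), ENNReal.ofReal p * rr ^ (c' * (m₀ + j)) := by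
          rw [Finset.mul_sum, ENNReal.ofReal_sum_of_nonneg (fun j _ => by positivity)]
          refine Finset.sum_congr rfl fun j _ => ?_
          rw [ENNReal.ofReal_mul hp.le, hρ, ← pow_mul, ENNReal.ofReal_pow hr0.le]
        rw [e]
        calc ∑ j ∈ Finset.range (L + 1), ENNReal.ofReal p * rr ^ (c' * (m₀ + j))
            ≤ ∑ j ∈ Finset.range (L + 1), M.gsum ν (m₀ + j) :=
              Finset.sum_le_sum fun j _ => hlow _ (by omega)
          _ ≤ M.psum ν (m₀ + L) := by
              unfold psum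
              have e2 : m₀ + L + 1 = m₀ + (L + 1) := by ring
              rw [e2, Finset.sum_range_add _ m₀ (L + 1)]
              exact le_add_self
      have h2 : g * ENNReal.ofReal (p * ∑ j ∈ Finset.range (L + 1), ρ ^ (m₀ + j)) ≤ 1 := by
        calc _ ≤ Gi * M.psum ν (m₀ + L) := mul_le_mul' hgle h1
          _ ≤ 1 := hpsum _
      have h3 := ENNReal.toReal_mono (by simp) h2
      rw [ENNReal.toReal_mul, ENNReal.toReal_ofReal (by positivity)] at h3
      simpa using h3
    have hg0 : 0 ≤ g.toReal := ENNReal.toReal_nonneg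
    have htail := geom_tail hρ0 hρ1 m₀ hreal
    have h1r : 0 < 1 - r := by linarith
    have hg1 : g.toReal = (∑ q ∈ T, a q * ∑ i ∈ Finset.range (C q.1), r ^ i) * (1 - r) := by
      rw [hgreal, Finset.sum_mul]
      refine Finset.sum_congr rfl fun q _ => ?_
      rw [mul_assoc, geom_sum_mul_neg]
    have hρ2 : 1 - ρ = (∑ i ∈ Finset.range c', r ^ i) * (1 - r) := by
      rw [geom_sum_mul_neg]
    rw [hg1, hρ2] at htail
    have h5 : (∑ q ∈ T, a q * ∑ i ∈ Finset.range (C q.1), r ^ i) * (p * ρ ^ m₀) ≤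
        ∑ i ∈ Finset.range c', r ^ i := by
      have : ((∑ q ∈ T, a q * ∑ i ∈ Finset.range (C q.1), r ^ i) * (p * ρ ^ m₀)) * (1 - r) ≤
          (∑ i ∈ Finset.range c', r ^ i) * (1 - r) := by
        calc _ = (∑ q ∈ T, a q * ∑ i ∈ Finset.range (C q.1), r ^ i) * (1 - r) * (p * ρ ^ m₀) := by ring
          _ ≤ _ := htail
      exact le_of_mul_le_mul_right this h1r
    have h6 : ρ ^ m₀ = r ^ (c' * m₀) := by rw [hρ, ← pow_mul]
    rw [h6] at h5
    refine h5.trans ?_
    calc ∑ i ∈ Finset.range c', r ^ i ≤ ∑ _i ∈ Finset.range c', (1 : ℝ) :=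
          Finset.sum_le_sum fun i _ => pow_le_one₀ hr0.le hr1.le
      _ = c' := by simp
  have hlim := poly_limit T a (fun q => C q.1) (c' * m₀) hmain
  have hfin : (∑ q ∈ T, a q * (C q.1 : ℝ)) ≤ (c' : ℝ) / p := by
    rw [le_div_iff₀ hp]
    exact hlim
  have hsumeq : ∑ q ∈ T, ω q.1 * (C q.1 : ℝ≥0∞) = ENNReal.ofReal (∑ q ∈ T, a q * (C q.1 : ℝ)) := by
    rw [ENNReal.ofReal_sum_of_nonneg (fun q _ => mul_nonneg (ha0 q) (by positivity))]
    refine Finset.sum_congr rfl fun q _ => ?_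
    rw [ENNReal.ofReal_mul (ha0 q), ENNReal.ofReal_toReal (hω q), ENNReal.ofReal_natCast]
  rw [hsumeq]
  exact ENNReal.ofReal_le_ofReal hfin

end RM

end Vale.Agent.Lib.P147
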