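import Vale.Agent.Lib.P147.ProbHazard

/-!
# No two opposite positive speeds in dimension at least three
-/

open MeasureTheory ProbabilityTheory Filter Set
open scoped ENNReal

namespace Vale.Agent.Lib.P147

variable {d : ℕ}

section Occ

variable {X : Type*} {M : RM X}

/-- Uniform bound of the occupation numbers of the levels for a walker with positive speed. -/
lemma occ_le_of_speed (P : RM.Prof M) {ω : X → ℝ≥0∞} (h : M.Mult ω) {q₀ : ℝ≥0∞} (hq₀ : 0 < q₀)
    (hlow : ∀ m, q₀ ≤ M.gsum ω m) (hup : ∀ m, M.gsum ω m ≤ 1) {p : ℝ} (hp : 0 < p) (c' m₀ : ℕ)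
    (hc' : 1 ≤ c')
    (hs : ∀ m, m₀ ≤ m → ENNReal.ofReal p ≤
      ∑' x, if M.lev x = m ∧ P.len x ≤ c' * m then ω x else 0) :
    ∃ A : ℝ≥0∞, A ≠ ⊤ ∧ ∀ m k, RM.occ M P ω m k ≤ A := by
  have hF := RM.bmass_eq_one h hq₀ hlow hup
  have htilt := RM.tilt h hF hup P.len P.len_e P.len_op hp c' m₀ hc' hs
  have hq₀top : q₀ ≠ ⊤ := ne_top_of_le_ne_top ENNReal.one_ne_top ((hlow 0).trans (hup 0))
  have hqq : q₀ * q₀ ≠ 0 := mul_ne_zero hq₀.ne' hq₀.ne'
  have hqqt : q₀ * q₀ ≠ ⊤ := ENNReal.mul_ne_top hq₀top hq₀top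
  refine ⟨(q₀ * q₀)⁻¹ * (2 * ENNReal.ofReal ((c' : ℝ) / p)),
    ENNReal.mul_ne_top (ENNReal.inv_ne_top.mpr hqq)
      (ENNReal.mul_ne_top (by simp) ENNReal.ofReal_ne_top), fun m k => ?_⟩
  have h1 := RM.occ_bound h P hlow hF.le hup m k
  calc RM.occ M P ω m k = (q₀ * q₀)⁻¹ * (q₀ * q₀ * RM.occ M P ω m k) := by
        rw [← mul_assoc, ENNReal.inv_mul_cancel hqq hqqt, one_mul]
    _ ≤ _ := mul_le_mul' le_rfl (h1.trans (mul_le_mul' le_rfl htilt))

end Occ

section Concrete

variable (i t1 t2 : Fin d)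

/-- The level functional. -/
def levL : Site d →+ ℤ := Pi.evalAddMonoidHom (fun _ => ℤ) i

/-- The projection to two transverse coordinates. -/
def projT : Site d →+ ℤ × ℤ :=
  (Pi.evalAddMonoidHom (fun _ => ℤ) t1).prod (Pi.evalAddMonoidHom (fun _ => ℤ) t2)

@[simp] lemma levL_apply (z : Site d) : levL i z = z i := rfl
@[simp] lemma projT_apply (z : Site d) : projT t1 t2 z = (z t1, z t2) := rfl

lemma stepVec_same (b : Bool) : stepVec ((i, b) : Step d) i = if b then 1 else -1 := by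
  rw [stepVec_apply, if_pos rfl]

lemma stepVec_other {j : Fin d} (h : i ≠ j) (b : Bool) : stepVec ((j, b) : Step d) i = 0 := by
  rw [stepVec_apply, if_neg h]

lemma levL_nn (e : Step d) : levL i (stepVec e) ≤ 1 := (stepVec_abs_le e i).2

lemma neg_levL_nn (e : Step d) : (-levL i) (stepVec e) ≤ 1 := by
  have := (stepVec_abs_le e i).1
  simp only [AddMonoidHom.neg_apply, levL_apply]
  omega

variable {i t1 t2}

lemma projT_of_lev (h1 : t1 ≠ i) (h2 : t2 ≠ i) {e : Step d} (he : levL i (stepVec e) ≠ 0) :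
    projT t1 t2 (stepVec e) = 0 := by
  have hi : e.1 = i := by
    by_contra hcon
    apply he
    simp only [levL_apply]
    rw [stepVec_apply, if_neg (Ne.symm hcon)]
  obtain ⟨j, b⟩ := e
  simp only at hi
  subst hi
  simp only [projT_apply]
  rw [stepVec_other t1 h1, stepVec_other t2 h2]
  rfl

lemma projT_of_neg_lev (h1 : t1 ≠ i) (h2 : t2 ≠ i) {e : Step d}
    (he : (-levL i) (stepVec e) ≠ 0) : projT t1 t2 (stepVec e) = 0 := by
  refine projT_of_lev h1 h2 fun h0 => he ?_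
  simp only [AddMonoidHom.neg_apply, h0, neg_zero]

lemma level_stay {L : Site d →+ ℤ} (tl : List (Step d)) (htl : ∀ e ∈ tl, L (stepVec e) = 0)
    (z : Site d) (hz : L z = 0) : (∀ v ∈ posL z tl, L v = 0) ∧ L (endP z tl) = 0 := by
  induction tl generalizing z with
  | nil => simp [hz]
  | cons e t ih =>
    have h1 : L (z + stepVec e) = 0 := by
      rw [map_add, hz, htl e (by simp), add_zero]
    obtain ⟨h2, h3⟩ := ih (fun e' he' => htl e' (by simp [he'])) _ h1
    refine ⟨?_, h3⟩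
    intro v hv
    simp only [posL_cons, List.mem_cons] at hv
    rcases hv with rfl | hv
    · exact hz
    · exact h2 v hv

/-- An excursion of one level: transverse steps and then a step upward. -/
lemma strip_one {L : Site d →+ ℤ} (tl : List (Step d)) (htl : ∀ e ∈ tl, L (stepVec e) = 0)
    {f : Step d} (hf : L (stepVec f) = 1) : Strip L 1 (tl ++ [f]) := by
  obtain ⟨h1, h2⟩ := level_stay tl htl 0 (map_zero L)
  constructor
  · intro v hv
    rw [posL_append, List.mem_append] at hv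
    rcases hv with hv | hv
    · rw [h1 v hv]
      simp
    · simp only [posL_cons, posL_nil, List.mem_singleton] at hv
      rw [hv, h2]
      simp
  · rw [endP_append]
    simp only [endP_cons, endP_nil, map_add, h2, hf]
    simp

end Concrete

section Blocks

variable (i : Fin d)

lemma strip_up : Strip (levL i) 1 [((i, true) : Step d)] :=
  strip_one [] (by simp) (by simp [stepVec_same])

variable {i}

lemma strip_down {tl : List (Step d)} (htl : ∀ e ∈ tl, (-levL i) (stepVec e) = 0) :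
    Strip (-levL i) 1 (tl ++ [((i, false) : Step d)]) :=
  strip_one tl htl (by simp [stepVec_same])

/-- A pair block of one level: one step up, and transverse steps followed by one step down. -/
def mkBlock (i : Fin d) (tl : List (Step d)) (htl : ∀ e ∈ tl, (-levL i) (stepVec e) = 0) :
    (RM.pairM (wordM (levL i)).rev (wordM (-levL i))).Blocks :=
  ⟨⟨(⟨[(i, true)], 1, strip_up i⟩, ⟨tl ++ [(i, false)], 1, strip_down htl⟩), by
      have h1 : (wordM (levL i)).rev.lev ⟨[(i, true)], 1, strip_up i⟩ = 1 := (strip_up i).lev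
      have h2 : (wordM (-levL i)).lev ⟨tl ++ [(i, false)], 1, strip_down htl⟩ = 1 :=
        (strip_down htl).lev
      rw [h1, h2]⟩,
    RM.irr_of_lev_one _ (strip_up i).lev⟩

variable {t1 t2 : Fin d}

lemma projT_step_i (h1 : t1 ≠ i) (h2 : t2 ≠ i) (b : Bool) :
    projT t1 t2 (stepVec ((i, b) : Step d)) = 0 := by
  simp only [projT_apply]
  rw [stepVec_other t1 h1, stepVec_other t2 h2]
  rfl

/-- Displacement of a block. -/
lemma delta_mkBlock (h1 : t1 ≠ i) (h2 : t2 ≠ i) (tl : List (Step d))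
    (htl : ∀ e ∈ tl, (-levL i) (stepVec e) = 0) :
    RM.pairΔ (profA (levL i) (projT t1 t2)) (profB (-levL i) (projT t1 t2)) (mkBlock i tl htl).1 =
      projT t1 t2 (endP 0 tl) := by
  show projT t1 t2 (endP 0 (tl ++ [(i, false)])) - (- projT t1 t2 (endP 0 [(i, true)])) = _
  rw [endP_append]
  simp only [endP_cons, endP_nil, zero_add, map_add, projT_step_i h1 h2]
  simp

/-- Obstacles of a block. -/
lemma obstacle_mkBlock (h1 : t1 ≠ i) (h2 : t2 ≠ i) (tl : List (Step d))
    (htl : ∀ e ∈ tl, (-levL i) (stepVec e) = 0) {u : ℤ × ℤ}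
    (hu : u ∈ RM.pairO (profA (levL i) (projT t1 t2)) (profB (-levL i) (projT t1 t2))
      (mkBlock i tl htl).1) :
    ∃ z ∈ posL 0 (tl ++ [((i, false) : Step d)]), u = - projT t1 t2 z := by
  rw [RM.mem_pairO] at hu
  obtain ⟨k, a, b, ha, hb, hab⟩ := hu
  obtain ⟨z₁, hz₁, he₁⟩ := List.mem_map.mp ha
  have hz₁' : z₁ = 0 := by
    have : z₁ ∈ posL 0 [((i, true) : Step d)] := List.mem_reverse.mp hz₁
    simpa using this
  subst hz₁'
  obtain ⟨z₂, hz₂, he₂⟩ := List.mem_map.mp hb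
  refine ⟨z₂, hz₂, ?_⟩
  have ha0 : a = 0 := by
    have h3 : projT t1 t2 (0 - endP 0 [((i, true) : Step d)]) = a := congrArg Prod.snd he₁
    rw [← h3]
    simp only [endP_cons, endP_nil, zero_add, zero_sub, map_neg, projT_step_i h1 h2]
    simp
  have hb0 : b = projT t1 t2 z₂ := (congrArg Prod.snd he₂).symm
  rw [← hab, ha0, hb0]
  simp

lemma stepVec_t_ne_zero (t : Fin d) (b : Bool) : stepVec ((t, b) : Step d) ≠ 0 :=
  stepVec_ne_zero _

variable {μ : Measure (Row d)} [IsProbabilityMeasure μ]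

lemma wt_le_one (i₀ : Fin d) (l : List (Step d)) : wt μ l ≤ 1 := by
  rw [← joint_foll (μ := μ) i₀ l]
  exact prob_le_one

/-- Weight of a block. -/
lemma weight_mkBlock (i : Fin d) (tl : List (Step d))
    (htl : ∀ e ∈ tl, (-levL i) (stepVec e) = 0) :
    RM.pw (wtW (levL i) μ) (wtW (-levL i) μ) (mkBlock i tl htl).1 =
      wt μ [(i, true)] * wt μ (tl ++ [(i, false)]) := rfl

end Blocks

section Main

variable {i t1 t2 : Fin d}
variable {μ : Measure (Row d)} [IsProbabilityMeasure μ]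

lemma neg_lev_t {j : Fin d} (h : i ≠ j) (b : Bool) :
    (-levL i) (stepVec ((j, b) : Step d)) = 0 := by
  simp only [AddMonoidHom.neg_apply, levL_apply]
  rw [stepVec_other i h]
  rfl

lemma exists_beta (a b c e : ℝ≥0∞) (ha : a ≠ 0) (hb : b ≠ 0) (hc : c ≠ 0) (he : e ≠ 0)
    (ha' : a ≠ ⊤) (hb' : b ≠ ⊤) (hc' : c ≠ ⊤) (he' : e ≠ ⊤) :
    ∃ β : ℝ, 0 < β ∧ β ≤ 1 ∧ ENNReal.ofReal β / 4 ≤ a ∧ ENNReal.ofReal β / 4 ≤ b ∧
      ENNReal.ofReal β / 4 ≤ c ∧ ENNReal.ofReal β / 4 ≤ e := by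
  set β : ℝ := min 1 (min a.toReal (min b.toReal (min c.toReal e.toReal))) with hβ
  have h1 : β ≤ a.toReal := (min_le_right _ _).trans (min_le_left _ _)
  have h2 : β ≤ b.toReal := (min_le_right _ _).trans ((min_le_right _ _).trans (min_le_left _ _))
  have h3 : β ≤ c.toReal := (min_le_right _ _).trans ((min_le_right _ _).trans
    ((min_le_right _ _).trans (min_le_left _ _)))
  have h4 : β ≤ e.toReal := (min_le_right _ _).trans ((min_le_right _ _).trans
    ((min_le_right _ _).trans (min_le_right _ _)))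
  have hpos : 0 < β := by
    refine lt_min one_pos (lt_min (ENNReal.toReal_pos ha ha') (lt_min (ENNReal.toReal_pos hb hb')
      (lt_min (ENNReal.toReal_pos hc hc') (ENNReal.toReal_pos he he'))))
  have key : ∀ x : ℝ≥0∞, x ≠ ⊤ → β ≤ x.toReal → ENNReal.ofReal β / 4 ≤ x := by
    intro x hx hβx
    calc ENNReal.ofReal β / 4 ≤ ENNReal.ofReal β :=
          ENNReal.div_le_of_le_mul (le_mul_of_one_le_right zero_le (by norm_num))
      _ ≤ ENNReal.ofReal x.toReal := ENNReal.ofReal_le_ofReal hβx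
      _ = x := ENNReal.ofReal_toReal hx
  exact ⟨β, hpos, min_le_left _ _, key a ha' h1, key b hb' h2, key c hc' h3, key e he' h4⟩

/-- **The two sided theorem for the joint law, in terms of the masses of the short excursions.** -/
theorem two_sided_core (hi1 : t1 ≠ i) (hi2 : t2 ≠ i) (h12 : t1 ≠ t2)
    (hμ : ∀ e : Step d, μ {p | 0 < p.1 e} ≠ 0)
    (hq₁ : jointLaw μ unif0 (DL i (levL i)) ≠ 0) (hq₂ : jointLaw μ unif0 (DL i (-levL i)) ≠ 0)
    {c₁ c₂ N N' : ℕ} {p₁ p₂ : ℝ} (hc₁ : 1 ≤ c₁) (hc₂ : 1 ≤ c₂) (hp₁ : 0 < p₁) (hp₂ : 0 < p₂)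
    (hs₁ : ∀ m, N ≤ m → ENNReal.ofReal p₁ ≤ ∑' x : XW (levL i), if (wordM (levL i)).lev x = m ∧
      (posL 0 x.1).toFinset.card ≤ c₁ * m then wtW (levL i) μ x else 0)
    (hs₂ : ∀ m, N' ≤ m → ENNReal.ofReal p₂ ≤ ∑' x : XW (-levL i), if (wordM (-levL i)).lev x = m ∧
      (posL 0 x.1).toFinset.card ≤ c₂ * m then wtW (-levL i) μ x else 0) : False := by
  classical
  set L := levL i with hL
  set proj := projT t1 t2 with hproj
  have hNN : ∀ e : Step d, L (stepVec e) ≤ 1 := levL_nn i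
  have hNN' : ∀ e : Step d, (-L) (stepVec e) ≤ 1 := neg_levL_nn i
  -- regeneration probabilities
  set q₁ := jointLaw μ unif0 (DL i L) with hq₁def
  set q₂ := jointLaw μ unif0 (DL i (-L)) with hq₂def
  have hM₁ := wtW_mult_rev (μ := μ) L
  have hM₂ := wtW_mult (μ := μ) (-L)
  have hlow₁ : ∀ m, q₁ ≤ (wordM L).rev.gsum (wtW L μ) m := fun m => DL_le_gsum L hNN m
  have hlow₂ : ∀ m, q₂ ≤ (wordM (-L)).gsum (wtW (-L) μ) m := fun m => DL_le_gsum (-L) hNN' m
  have hup₁ : ∀ m, (wordM L).rev.gsum (wtW L μ) m ≤ 1 := fun m => gsum_le_one L i m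
  have hup₂ : ∀ m, (wordM (-L)).gsum (wtW (-L) μ) m ≤ 1 := fun m => gsum_le_one (-L) i m
  -- occupation bounds
  obtain ⟨A₁, hA₁, hocc₁⟩ := occ_le_of_speed (profA L proj) hM₁ (pos_iff_ne_zero.mpr hq₁) hlow₁ hup₁
    hp₁ c₁ N hc₁ (fun m hm => by
      refine (hs₁ m hm).trans (ENNReal.tsum_le_tsum fun x => ?_)
      by_cases h : (wordM L).lev x = m ∧ (posL 0 x.1).toFinset.card ≤ c₁ * m
      · rw [if_pos h, if_pos ⟨h.1, (profA_len proj x).trans h.2⟩]
      · rw [if_neg h]
        exact zero_le)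
  obtain ⟨A₂, hA₂, hocc₂⟩ := occ_le_of_speed (profB (-L) proj) hM₂ (pos_iff_ne_zero.mpr hq₂) hlow₂ hup₂
    hp₂ c₂ N' hc₂ (fun m hm => by
      refine (hs₂ m hm).trans (ENNReal.tsum_le_tsum fun x => ?_)
      by_cases h : (wordM (-L)).lev x = m ∧ (posL 0 x.1).toFinset.card ≤ c₂ * m
      · rw [if_pos h, if_pos ⟨h.1, (profB_len proj x).trans h.2⟩]
      · rw [if_neg h]
        exact zero_le)
  have hocc : ∀ m k, RM.occ (wordM L).rev (profA L proj) (wtW L μ) m k *
      RM.occ (wordM (-L)) (profB (-L) proj) (wtW (-L) μ) m k ≤ A₁ * A₂ :=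
    fun m k => mul_le_mul' (hocc₁ m k) (hocc₂ m k)
  -- the blocks
  have hwt : ∀ e : Step d, wt μ [e] ≠ 0 := fun e => wt_single_pos (hμ e)
  have hwtop : ∀ l : List (Step d), wt μ l ≠ ⊤ := fun l =>
    ne_top_of_le_ne_top ENNReal.one_ne_top (wt_le_one i l)
  set fu : Step d := (i, true) with hfu
  set fd : Step d := (i, false) with hfd
  have hwone : ∀ e : Step d, stepVec e ≠ 0 → wt μ (e :: [fd]) ≠ 0 := by
    intro e he
    refine wt_cons_pos (hμ e) (hwt fd) ?_
    simp only [posL_cons, posL_nil, List.mem_singleton]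
    exact fun h => he h.symm
  have hi1' : i ≠ t1 := hi1.symm
  have hi2' : i ≠ t2 := hi2.symm
  have h2nd : ∀ (b₁ b₂ : Bool), wt μ (((t1, b₁) : Step d) :: ((t2, b₂) : Step d) :: [fd]) ≠ 0 := by
    intro b₁ b₂
    refine wt_cons_pos (hμ _) (hwone _ (stepVec_ne_zero _)) ?_
    simp only [posL_cons, posL_nil, List.mem_cons, List.not_mem_nil, or_false, not_or]
    refine ⟨fun h => stepVec_ne_zero _ h.symm, fun h => ?_⟩
    have h3 := congrFun h t1
    simp only [Pi.add_apply, Pi.zero_apply] at h3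
    rw [stepVec_other t1 h12, add_zero, stepVec_same] at h3
    cases b₁ <;> simp at h3
  -- four corner blocks
  have hcorn : ∀ (tl : List (Step d)) (htl : ∀ e ∈ tl, (-L) (stepVec e) = 0),
      wt μ (tl ++ [fd]) ≠ 0 →
      RM.pw (wtW L μ) (wtW (-L) μ) (mkBlock i tl htl).1 ≠ 0 ∧
      RM.pw (wtW L μ) (wtW (-L) μ) (mkBlock i tl htl).1 ≠ ⊤ := by
    intro tl htl h
    refine ⟨?_, ?_⟩
    · rw [weight_mkBlock]
      exact mul_ne_zero (hwt _) h
    · rw [weight_mkBlock]
      exact ENNReal.mul_ne_top (hwtop _) (hwtop _)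
  have ht1 : ∀ (b : Bool), ∀ e ∈ [((t1, b) : Step d)], (-L) (stepVec e) = 0 := by
    intro b e he
    rw [List.mem_singleton] at he
    rw [he]
    exact neg_lev_t hi1' b
  have ht2 : ∀ (b : Bool), ∀ e ∈ [((t2, b) : Step d)], (-L) (stepVec e) = 0 := by
    intro b e he
    rw [List.mem_singleton] at he
    rw [he]
    exact neg_lev_t hi2' b
  have ht12 : ∀ e ∈ [((t1, true) : Step d), ((t2, true) : Step d)], (-L) (stepVec e) = 0 := by
    intro e he
    simp only [List.mem_cons, List.not_mem_nil, or_false] at he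
    rcases he with rfl | rfl
    · exact neg_lev_t hi1' true
    · exact neg_lev_t hi2' true
  have ht0 : ∀ e ∈ ([] : List (Step d)), (-L) (stepVec e) = 0 := by simp
  obtain ⟨w00, w00'⟩ := hcorn [] ht0 (hwt fd)
  obtain ⟨w10, w10'⟩ := hcorn _ (ht1 true) (hwone _ (stepVec_ne_zero _))
  obtain ⟨w01, w01'⟩ := hcorn _ (ht2 true) (hwone _ (stepVec_ne_zero _))
  obtain ⟨w11, w11'⟩ := hcorn _ ht12 (h2nd true true)
  obtain ⟨β, hβ0, hβ1, b00, b10, b01, b11⟩ := exists_beta _ _ _ _ w00 w10 w01 w11 w00' w10' w01' w11'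
  have hval1 : ∀ b : Bool, proj (stepVec ((t1, b) : Step d)) =
      ((if b then 1 else -1 : ℤ), 0) := by
    intro b
    refine Prod.ext ?_ ?_
    · show stepVec ((t1, b) : Step d) t1 = _
      exact stepVec_same t1 b
    · show stepVec ((t1, b) : Step d) t2 = _
      exact stepVec_other t2 h12.symm b
  have hval2 : ∀ b : Bool, proj (stepVec ((t2, b) : Step d)) =
      (0, (if b then 1 else -1 : ℤ)) := by
    intro b
    refine Prod.ext ?_ ?_
    · show stepVec ((t2, b) : Step d) t1 = _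
      exact stepVec_other t1 h12 b
    · show stepVec ((t2, b) : Step d) t2 = _
      exact stepVec_same t2 b
  let corners : Corners (fun q : (RM.pairM (wordM L).rev (wordM (-L))).Blocks =>
      RM.pw (wtW L μ) (wtW (-L) μ) q.1) (fun q => RM.pairΔ (profA L proj) (profB (-L) proj) q.1) β :=
    { a00 := mkBlock i [] ht0
      a10 := mkBlock i _ (ht1 true)
      a01 := mkBlock i _ (ht2 true)
      a11 := mkBlock i _ ht12
      h00 := by
        show RM.pairΔ (profA L proj) (profB (-L) proj) (mkBlock i [] ht0).1 = _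
        rw [delta_mkBlock hi1 hi2]
        simp only [endP_nil, map_zero]
        rfl
      h10 := by
        show RM.pairΔ (profA L proj) (profB (-L) proj) (mkBlock i _ (ht1 true)).1 = _
        rw [delta_mkBlock hi1 hi2]
        simp only [endP_cons, endP_nil, zero_add]
        rw [hval1]
        simp
      h01 := by
        show RM.pairΔ (profA L proj) (profB (-L) proj) (mkBlock i _ (ht2 true)).1 = _
        rw [delta_mkBlock hi1 hi2]
        simp only [endP_cons, endP_nil, zero_add]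
        rw [hval2]
        simp
      h11 := by
        show RM.pairΔ (profA L proj) (profB (-L) proj) (mkBlock i _ ht12).1 = _
        rw [delta_mkBlock hi1 hi2]
        simp only [endP_cons, endP_nil, zero_add, map_add]
        rw [hval1, hval2]
        simp
      w00 := b00
      w10 := b10
      w01 := b01
      w11 := b11 }
  -- the force blocks
  have hforce : ∀ (e : Step d) (he : ∀ e' ∈ [e], (-L) (stepVec e') = 0),
      HasForce (fun q : (RM.pairM (wordM L).rev (wordM (-L))).Blocks =>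
        RM.pw (wtW L μ) (wtW (-L) μ) q.1) (fun q => RM.pairΔ (profA L proj) (profB (-L) proj) q.1)
        (fun q => RM.pairO (profA L proj) (profB (-L) proj) q.1) (proj (stepVec e)) := by
    intro e he
    refine ⟨mkBlock i [e] he, ?_, ?_, ?_⟩
    · show RM.pairΔ (profA L proj) (profB (-L) proj) (mkBlock i [e] he).1 = _
      rw [delta_mkBlock hi1 hi2]
      simp only [endP_cons, endP_nil, zero_add]
      rfl
    · exact (hcorn [e] he (hwone e (stepVec_ne_zero e))).1
    · intro u hu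
      obtain ⟨z, hz, rfl⟩ := obstacle_mkBlock hi1 hi2 [e] he hu
      simp only [List.cons_append, List.nil_append, posL_cons, posL_nil, List.mem_cons,
        List.not_mem_nil, or_false, zero_add] at hz
      rcases hz with rfl | rfl
      · left
        simp
      · right
        rfl
  have hr : HasForce (fun q : (RM.pairM (wordM L).rev (wordM (-L))).Blocks =>
      RM.pw (wtW L μ) (wtW (-L) μ) q.1) (fun q => RM.pairΔ (profA L proj) (profB (-L) proj) q.1)
      (fun q => RM.pairO (profA L proj) (profB (-L) proj) q.1) (1, 0) := by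
    have := hforce _ (ht1 true)
    rwa [hval1] at this
  have hl : HasForce (fun q : (RM.pairM (wordM L).rev (wordM (-L))).Blocks =>
      RM.pw (wtW L μ) (wtW (-L) μ) q.1) (fun q => RM.pairΔ (profA L proj) (profB (-L) proj) q.1)
      (fun q => RM.pairO (profA L proj) (profB (-L) proj) q.1) (-1, 0) := by
    have := hforce _ (ht1 false)
    rwa [hval1] at this
  have hd : HasForce (fun q : (RM.pairM (wordM L).rev (wordM (-L))).Blocks =>
      RM.pw (wtW L μ) (wtW (-L) μ) q.1) (fun q => RM.pairΔ (profA L proj) (profB (-L) proj) q.1)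
      (fun q => RM.pairO (profA L proj) (profB (-L) proj) q.1) (0, 1) := by
    have := hforce _ (ht2 true)
    rwa [hval2] at this
  have hb : HasForce (fun q : (RM.pairM (wordM L).rev (wordM (-L))).Blocks =>
      RM.pw (wtW L μ) (wtW (-L) μ) q.1) (fun q => RM.pairΔ (profA L proj) (profB (-L) proj) q.1)
      (fun q => RM.pairO (profA L proj) (profB (-L) proj) q.1) (0, -1) := by
    have := hforce _ (ht2 false)
    rwa [hval2] at this
  -- the zero obstacle
  have hprojL : ∀ e : Step d, L (stepVec e) ≠ 0 → proj (stepVec e) = 0 := fun e he =>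
    projT_of_lev hi1 hi2 he
  have hzero : ∀ q : (RM.pairM (wordM L).rev (wordM (-L))).Blocks,
      (0 : ℤ × ℤ) ∈ RM.pairO (profA L proj) (profB (-L) proj) q.1 := by
    intro q
    rw [RM.mem_pairO]
    have h1 : (wordM L).rev.lev q.1.1.1 ≠ 0 := q.2.1
    have h2 : (wordM (-L)).lev q.1.1.2 ≠ 0 := by
      rw [← q.1.2]
      exact h1
    exact ⟨0, (0, 0), (0, 0), profA_zero proj hNN hprojL _ h1, profB_zero _ _ h2, by simp⟩
  have htop := RM.Vbar_eq_top (profA L proj) (profB (-L) proj) hM₁ hM₂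
    (pos_iff_ne_zero.mpr hq₁) (pos_iff_ne_zero.mpr hq₂) hlow₁ hlow₂ hup₁ hup₂
    (ENNReal.mul_ne_top hA₁ hA₂) hocc hβ0 hβ1 corners hr hl hd hb hzero
  -- the hazard inequality
  have hL1 : L (stepVec ((t1, true) : Step d)) = 0 := by
    show stepVec ((t1, true) : Step d) i = 0
    exact stepVec_other i hi1' true
  have hLf : L (stepVec fd) = -1 := by
    show stepVec ((i, false) : Step d) i = -1
    rw [stepVec_same]
    rfl
  have hp1 : proj (stepVec ((t1, true) : Step d)) = D00 := by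
    rw [hval1]
    rfl
  have hpf : proj (stepVec fd) = 0 := projT_step_i hi1 hi2 false
  have hhaz := hazard (μ := μ) hL1 hLf hp1 hpf i
  rw [htop] at hhaz
  have hpos : wt μ [((t1, true) : Step d), fd] * q₂ ≠ 0 :=
    mul_ne_zero (hwone _ (stepVec_ne_zero _)) hq₂
  rw [ENNReal.top_mul hpos] at hhaz
  simp at hhaz

/-- **The two sided theorem for the joint law.** -/
theorem two_sided_joint (hi1 : t1 ≠ i) (hi2 : t2 ≠ i) (h12 : t1 ≠ t2)
    (hμ : ∀ e : Step d, μ {p | 0 < p.1 e} ≠ 0) {c c' : ℝ} (hc : 0 < c) (hc' : 0 < c')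
    (hV : jointLaw μ unif0 {s : Om d | ∃ N : ℕ, ∀ n, N ≤ n → c * (n : ℝ) ≤ (levL i (W i s n) : ℝ)} ≠ 0)
    (hV' : jointLaw μ unif0
      {s : Om d | ∃ N : ℕ, ∀ n, N ≤ n → c' * (n : ℝ) ≤ ((-levL i) (W i s n) : ℝ)} ≠ 0) : False := by
  classical
  set L := levL i with hL
  have hNN : ∀ e : Step d, L (stepVec e) ≤ 1 := levL_nn i
  have hNN' : ∀ e : Step d, (-L) (stepVec e) ≤ 1 := neg_levL_nn i
  obtain ⟨N, hN⟩ := speed_regen (μ := μ) i L hc hV
  obtain ⟨N', hN'⟩ := speed_regen (μ := μ) i (-L) hc' hV'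
  have hq₁ : jointLaw μ unif0 (DL i L) ≠ 0 :=
    fun h0 => hN (measure_mono_null Set.inter_subset_left h0)
  have hq₂ : jointLaw μ unif0 (DL i (-L)) ≠ 0 :=
    fun h0 => hN' (measure_mono_null Set.inter_subset_left h0)
  have hoccbd : ∀ (a : ℝ) (_ : 0 < a) (L' : Site d →+ ℤ), (∀ e : Step d, L' (stepVec e) ≤ 1) →
      ∀ N₀ : ℕ, jointLaw μ unif0 (DL i L' ∩ VL i L' a N₀) ≠ 0 →
      ∃ (c₀ : ℕ) (p : ℝ), 1 ≤ c₀ ∧ 0 < p ∧ ∀ m, N₀ ≤ m → ENNReal.ofReal p ≤
        ∑' x : XW L', if (wordM L').lev x = m ∧ (posL 0 x.1).toFinset.card ≤ c₀ * m then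
          wtW L' μ x else 0 := by
    intro a ha L' hNN₀ N₀ hpos
    obtain ⟨c₀, hc₀⟩ := exists_nat_gt (1 / a)
    have hc₁ : 1 ≤ c₀ + 1 := by omega
    have hc₂ : 1 ≤ a * ((c₀ + 1 : ℕ) : ℝ) := by
      rw [div_lt_iff₀' ha] at hc₀
      push_cast
      nlinarith
    refine ⟨c₀ + 1, (jointLaw μ unif0 (DL i L' ∩ VL i L' a N₀)).toReal, hc₁,
      ENNReal.toReal_pos hpos (measure_ne_top _ _), fun m hm => ?_⟩
    rw [ENNReal.ofReal_toReal (measure_ne_top _ _)]
    exact speed_mass L' hNN₀ N₀ (c₀ + 1) hc₂ hc₁ m hm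
  obtain ⟨c₁, p₁, hc₁, hp₁, hs₁⟩ := hoccbd (c / 2) (by positivity) L hNN N hN
  obtain ⟨c₂, p₂, hc₂, hp₂, hs₂⟩ := hoccbd (c' / 2) (by positivity) (-L) hNN' N' hN'
  exact two_sided_core hi1 hi2 h12 hμ hq₁ hq₂ hc₁ hc₂ hp₁ hp₂ hs₁ hs₂

/-- **Main theorem.** In dimension at least three, an iid walk whose steps all have positive
annealed probability cannot have a positive speed in both directions of a coordinate axis
with positive probabilities. -/
theorem no_two_speeds (hd : 3 ≤ d) (μ : Measure (Row d)) [IsProbabilityMeasure μ]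
    (hμ : ∀ e : Step d, μ {p | 0 < p.1 e} ≠ 0) (Q : Measure (ℕ → Site d)) (hQ : IsAnnealedLaw μ Q)
    (i : Fin d) {c c' : ℝ} (hc : 0 < c) (hc' : 0 < c') :
    Q {X | ∀ᶠ n : ℕ in atTop, c * (n : ℝ) ≤ (X n i : ℝ)} = 0 ∨
      Q {X | ∀ᶠ n : ℕ in atTop, c' * (n : ℝ) ≤ -(X n i : ℝ)} = 0 := by
  classical
  by_contra hcon
  push Not at hcon
  obtain ⟨h1, h2⟩ := hcon
  -- two transverse coordinates
  have hcard : 1 < (Finset.univ.erase i).card := by
    rw [Finset.card_erase_of_mem (Finset.mem_univ i), Finset.card_univ, Fintype.card_fin]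
    omega
  obtain ⟨t1, ht1, t2, ht2, h12⟩ := Finset.one_lt_card.mp hcard
  have hi1 : t1 ≠ i := Finset.ne_of_mem_erase ht1
  have hi2 : t2 ≠ i := Finset.ne_of_mem_erase ht2
  rw [hQ.unique (isAnnealedLaw_map1 (i₀ := i))] at h1 h2
  have hmeas : ∀ (f : Site d → ℝ) (a : ℝ),
      MeasurableSet {X : ℕ → Site d | ∀ᶠ n : ℕ in atTop, a * (n : ℝ) ≤ f (X n)} := by
    intro f a
    have : {X : ℕ → Site d | ∀ᶠ n : ℕ in atTop, a * (n : ℝ) ≤ f (X n)} =
        ⋃ N : ℕ, ⋂ n : ℕ, ⋂ (_ : N ≤ n), {X | a * (n : ℝ) ≤ f (X n)} := by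
      ext X
      simp only [Set.mem_ofPred_eq, eventually_atTop, Set.mem_iUnion, Set.mem_iInter]
    rw [this]
    refine MeasurableSet.iUnion fun N => MeasurableSet.iInter fun n => MeasurableSet.iInter fun _ => ?_
    have hf : Measurable (fun X : ℕ → Site d => f (X n)) :=
      (measurable_of_countable f).comp (measurable_pi_apply n)
    exact measurableSet_le measurable_const hf
  rw [Measure.map_apply measurable_pathMap1 (hmeas (fun z => (z i : ℝ)) c)] at h1
  rw [Measure.map_apply measurable_pathMap1 (hmeas (fun z => -(z i : ℝ)) c')] at h2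
  refine two_sided_joint hi1 hi2 h12 hμ hc hc' ?_ ?_
  · convert h1 using 2
    ext s
    simp only [Set.mem_ofPred_eq, Set.mem_preimage, eventually_atTop]
    rfl
  · convert h2 using 2
    ext s
    simp only [Set.mem_ofPred_eq, Set.mem_preimage, eventually_atTop]
    refine exists_congr fun N => forall₂_congr fun n _ => ?_
    have : (((-levL i) (W i s n) : ℤ) : ℝ) = -(pathMap1 i s n i : ℝ) := by
      simp only [AddMonoidHom.neg_apply, levL_apply, Int.cast_neg]
      rfl
    rw [this]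

end Main

end Vale.Agent.Lib.P147
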