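import Vale.Agent.Lib.P147.RenewalChain
import Vale.Agent.Lib.P147.Defs

/-!
# Words of unit steps: the renewal monoid of excursions above a level
-/

open scoped ENNReal

namespace Vale.Agent.Lib.P147

variable {d : ℕ}

/-- The end point of a list of steps started at `z`. -/
def endP (z : Site d) : List (Step d) → Site d
  | [] => z
  | e :: l => endP (z + stepVec e) l

/-- The list of departure points of a list of steps started at `z`. -/
def posL (z : Site d) : List (Step d) → List (Site d)
  | [] => []
  | e :: l => z :: posL (z + stepVec e) l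

@[simp] lemma endP_nil (z : Site d) : endP z [] = z := rfl
@[simp] lemma endP_cons (z : Site d) (e : Step d) (l : List (Step d)) :
    endP z (e :: l) = endP (z + stepVec e) l := rfl
@[simp] lemma posL_nil (z : Site d) : posL z [] = [] := rfl
@[simp] lemma posL_cons (z : Site d) (e : Step d) (l : List (Step d)) :
    posL z (e :: l) = z :: posL (z + stepVec e) l := rfl

lemma endP_append (z : Site d) (l₁ l₂ : List (Step d)) :
    endP z (l₁ ++ l₂) = endP (endP z l₁) l₂ := by
  induction l₁ generalizing z with
  | nil => rfl
  | cons e l ih => exact ih _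

lemma posL_append (z : Site d) (l₁ l₂ : List (Step d)) :
    posL z (l₁ ++ l₂) = posL z l₁ ++ posL (endP z l₁) l₂ := by
  induction l₁ generalizing z with
  | nil => rfl
  | cons e l ih =>
    simp only [List.cons_append, posL_cons, ih, endP_cons]

lemma endP_add (z w : Site d) (l : List (Step d)) : endP (z + w) l = endP z l + w := by
  induction l generalizing z with
  | nil => rfl
  | cons e l ih =>
    simp only [endP_cons]
    rw [← ih]
    congr 1
    abel

lemma posL_add (z w : Site d) (l : List (Step d)) :
    posL (z + w) l = (posL z l).map (· + w) := by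
  induction l generalizing z with
  | nil => rfl
  | cons e l ih =>
    simp only [posL_cons, List.map_cons]
    rw [← ih]
    congr 2
    abel

lemma endP_eq_add (z : Site d) (l : List (Step d)) : endP z l = endP 0 l + z := by
  rw [← endP_add, zero_add]

lemma posL_eq_map (z : Site d) (l : List (Step d)) : posL z l = (posL 0 l).map (· + z) := by
  rw [← posL_add, zero_add]

lemma mem_posL_iff (z v : Site d) (l : List (Step d)) :
    v ∈ posL z l ↔ v - z ∈ posL 0 l := by
  rw [posL_eq_map, List.mem_map]
  constructor
  · rintro ⟨w, hw, rfl⟩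
    simpa using hw
  · intro h
    exact ⟨v - z, h, by abel⟩

lemma length_posL (z : Site d) (l : List (Step d)) : (posL z l).length = l.length := by
  induction l generalizing z with
  | nil => rfl
  | cons e l ih => simp [ih]

section Strip

variable (L : Site d →+ ℤ)

/-- `l` is an excursion from level `0` to level `m`: all departure points are in the levels
`0, ..., m - 1` and the end point is on the level `m`. -/
def Strip (m : ℕ) (l : List (Step d)) : Prop :=
  (∀ z ∈ posL 0 l, 0 ≤ L z ∧ L z < m) ∧ L (endP 0 l) = m

/-- The excursions. -/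
abbrev XW : Type := {l : List (Step d) // ∃ m : ℕ, Strip L m l}

variable {L}

lemma Strip.lev {m : ℕ} {l : List (Step d)} (h : Strip L m l) : (L (endP 0 l)).toNat = m := by
  rw [h.2]
  simp

lemma Strip.of_lev {m : ℕ} {l : List (Step d)} (h : Strip L m l) : Strip L (L (endP 0 l)).toNat l := by
  rw [h.lev]
  exact h

lemma strip_nil : Strip L 0 ([] : List (Step d)) := by
  constructor
  · simp
  · simp

lemma strip_append {m₁ m₂ : ℕ} {l₁ l₂ : List (Step d)} (h₁ : Strip L m₁ l₁) (h₂ : Strip L m₂ l₂) :
    Strip L (m₁ + m₂) (l₁ ++ l₂) := by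
  constructor
  · intro z hz
    rw [posL_append, List.mem_append] at hz
    rcases hz with hz | hz
    · have := h₁.1 z hz
      push_cast
      omega
    · rw [mem_posL_iff] at hz
      have h3 := h₂.1 _ hz
      rw [map_sub, h₁.2] at h3
      push_cast
      omega
  · rw [endP_append, endP_eq_add, map_add, h₁.2, h₂.2]
    push_cast
    ring

lemma strip_ne_nil_pos {m : ℕ} {l : List (Step d)} (h : Strip L m l) (hl : l ≠ []) : 0 < m := by
  obtain ⟨e, t, rfl⟩ := List.exists_cons_of_ne_nil hl
  have := h.1 0 (by simp)
  rw [map_zero] at this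
  omega

lemma strip_zero_iff {l : List (Step d)} (h : Strip L 0 l) : l = [] := by
  by_contra hl
  exact absurd (strip_ne_nil_pos h hl) (lt_irrefl 0)

lemma XW_lev_op (a b : XW L) :
    (L (endP 0 (a.1 ++ b.1))).toNat = (L (endP 0 a.1)).toNat + (L (endP 0 b.1)).toNat := by
  obtain ⟨m₁, h₁⟩ := a.2
  obtain ⟨m₂, h₂⟩ := b.2
  rw [(strip_append h₁ h₂).lev, h₁.lev, h₂.lev]

/-- The renewal monoid of excursions under concatenation. -/
def wordM (L : Site d →+ ℤ) : RM (XW L) where
  op a b := ⟨a.1 ++ b.1, by
    obtain ⟨m₁, h₁⟩ := a.2
    obtain ⟨m₂, h₂⟩ := b.2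
    exact ⟨m₁ + m₂, strip_append h₁ h₂⟩⟩
  e := ⟨[], 0, strip_nil⟩
  lev a := (L (endP 0 a.1)).toNat
  lev_op := XW_lev_op
  lev_eq_zero a := by
    constructor
    · intro h
      obtain ⟨m, hm⟩ := a.2
      rw [hm.lev] at h
      subst h
      exact Subtype.ext (strip_zero_iff hm)
    · rintro rfl
      simp
  e_op a := Subtype.ext rfl
  op_e a := Subtype.ext (List.append_nil _)
  op_assoc a b c := Subtype.ext (List.append_assoc _ _ _)
  equi a b a' b' h hl := by
    obtain ⟨m₁, h₁⟩ := a.2
    obtain ⟨m₁', h₁'⟩ := a'.2
    obtain ⟨n, hb⟩ := b.2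
    obtain ⟨n', hb'⟩ := b'.2
    have heq : a.1 ++ b.1 = a'.1 ++ b'.1 := congrArg Subtype.val h
    simp only [h₁.lev, h₁'.lev] at hl
    rcases List.append_eq_append_iff.mp heq with ⟨c, h1, h2⟩ | ⟨c, h1, h2⟩
    · -- the first factor is a prefix of the other
      have hc : Strip L (m₁' - m₁) c := by
        have hle := hl
        constructor
        · intro z hz
          constructor
          · have : z ∈ posL 0 b.1 := by
              rw [h2, posL_append, List.mem_append]
              exact Or.inl hz
            exact (hb.1 z this).1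
          · have : z + endP 0 a.1 ∈ posL 0 a'.1 := by
              rw [h1, posL_append, List.mem_append]
              right
              rw [mem_posL_iff]
              simpa using hz
            have h3 := (h₁'.1 _ this).2
            rw [map_add, h₁.2] at h3
            push_cast [hle]
            omega
        · have h3 := h₁'.2
          rw [h1, endP_append, endP_eq_add, map_add, h₁.2] at h3
          push_cast [hle]
          omega
      exact ⟨⟨c, _, hc⟩, Subtype.ext h1, Subtype.ext h2⟩
    · -- the other factor is a prefix of the first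
      rcases c with _ | ⟨e, c'⟩
      · refine ⟨⟨[], 0, strip_nil⟩, Subtype.ext ?_, Subtype.ext ?_⟩
        · simpa using h1.symm
        · simpa using h2.symm
      · exfalso
        have h3 : endP 0 a'.1 ∈ posL 0 a.1 := by
          rw [h1, posL_append, List.mem_append]
          right
          rw [mem_posL_iff]
          simp
        have h4 := (h₁.1 _ h3).2
        rw [h₁'.2] at h4
        omega

lemma wordM_lev (x : XW L) : (wordM L).lev x = (L (endP 0 x.1)).toNat := rfl

lemma wordM_op_val (a b : XW L) : ((wordM L).op a b).1 = a.1 ++ b.1 := rfl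

variable (proj : Site d →+ ℤ × ℤ)

/-- The profile of a word: level and transverse position of each departure point. -/
def profB (L : Site d →+ ℤ) (proj : Site d →+ ℤ × ℤ) : RM.Prof (wordM L) where
  J y := (posL 0 y.1).map (fun z => ((L z).toNat, proj z))
  δ y := proj (endP 0 y.1)
  J_e := rfl
  J_op a b := by
    obtain ⟨m₂, h₂⟩ := b.2
    obtain ⟨m₁, h₁⟩ := a.2
    rw [wordM_op_val, posL_append, List.map_append, posL_eq_map _ b.1, List.map_map, List.map_map]
    congr 1
    refine List.map_congr_left fun z hz => ?_
    have h3 := (h₂.1 z hz).1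
    simp only [Function.comp, wordM_lev, map_add]
    have h4 : L (endP 0 a.1) = m₁ := h₁.2
    rw [h4]
    ext <;> simp <;> omega
  J_lt a s hs := by
    obtain ⟨m, hm⟩ := a.2
    obtain ⟨z, hz, rfl⟩ := List.mem_map.mp hs
    have := hm.1 z hz
    simp only [wordM_lev, hm.lev]
    omega

/-- The profile of a word has at most as many entries as the word has departure points. -/
lemma profB_len (x : XW L) : (profB L proj).len x ≤ (posL 0 x.1).toFinset.card := by
  classical
  unfold RM.Prof.len
  have : ((profB L proj).J x).toFinset =
      (posL 0 x.1).toFinset.image (fun z => ((L z).toNat, proj z)) := by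
    ext s
    simp [profB]
  rw [this]
  exact Finset.card_image_le

/-- The profile of a word read from its end point. -/
def profA (L : Site d →+ ℤ) (proj : Site d →+ ℤ × ℤ) : RM.Prof (wordM L).rev where
  J x := ((posL 0 x.1).reverse).map
    (fun z => ((L (endP 0 x.1) - L z - 1).toNat, proj (z - endP 0 x.1)))
  δ x := - proj (endP 0 x.1)
  J_e := rfl
  J_op a b := by
    obtain ⟨m₂, h₂⟩ := b.2
    obtain ⟨m₁, h₁⟩ := a.2
    have hend : endP 0 ((wordM L).rev.op a b).1 = endP 0 a.1 + endP 0 b.1 := by
      show endP 0 (b.1 ++ a.1) = _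
      rw [endP_append, endP_eq_add]
    have hval : ((wordM L).rev.op a b).1 = b.1 ++ a.1 := rfl
    rw [hend, hval, posL_append, List.reverse_append, List.map_append, posL_eq_map _ a.1,
      ← List.map_reverse, List.map_map, List.map_map]
    congr 1
    · refine List.map_congr_left fun z _ => ?_
      have e2 : z + endP 0 b.1 - (endP 0 a.1 + endP 0 b.1) = z - endP 0 a.1 := by abel
      have e1 : L (endP 0 a.1 + endP 0 b.1) - L (z + endP 0 b.1) - 1 =
          L (endP 0 a.1) - L z - 1 := by
        rw [map_add, map_add]
        ring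
      simp only [Function.comp, e1, e2]
    · refine List.map_congr_left fun z hz => ?_
      have hz' : z ∈ posL 0 b.1 := List.mem_reverse.mp hz
      have h3 := (h₂.1 z hz').2
      have h4 : L (endP 0 a.1) = m₁ := h₁.2
      have h5 : L (endP 0 b.1) = m₂ := h₂.2
      have h6 : (wordM L).rev.lev a = m₁ := h₁.lev
      refine Prod.ext ?_ ?_
      · show (L (endP 0 a.1 + endP 0 b.1) - L z - 1).toNat =
          (L (endP 0 b.1) - L z - 1).toNat + (wordM L).rev.lev a
        rw [h6, map_add, h4, h5]
        omega
      · show proj (z - (endP 0 a.1 + endP 0 b.1)) = proj (z - endP 0 b.1) + - proj (endP 0 a.1)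
        simp only [map_sub, map_add]
        abel
  J_lt a s hs := by
    obtain ⟨m, hm⟩ := a.2
    obtain ⟨z, hz, rfl⟩ := List.mem_map.mp hs
    have hz' : z ∈ posL 0 a.1 := List.mem_reverse.mp hz
    have h3 := hm.1 z hz'
    have h6 : (wordM L).rev.lev a = m := hm.lev
    rw [h6, hm.2]
    simp only
    omega

/-- The reversed profile of a word has at most as many entries as the word has departure
points. -/
lemma profA_len (x : XW L) : (profA L proj).len x ≤ (posL 0 x.1).toFinset.card := by
  classical
  unfold RM.Prof.len
  have : ((profA L proj).J x).toFinset =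
      (posL 0 x.1).toFinset.image
        (fun z => ((L (endP 0 x.1) - L z - 1).toNat, proj (z - endP 0 x.1))) := by
    ext s
    simp [profA]
  rw [this]
  exact Finset.card_image_le

/-- The number of distinct departure points of a word is at most its length. -/
lemma card_posL_le (x : List (Step d)) : (posL 0 x).toFinset.card ≤ x.length := by
  refine (List.toFinset_card_le _).trans ?_
  rw [length_posL]

/-- The first departure point lies at the bottom of the profile. -/
lemma profB_zero (x : XW L) (hx : (wordM L).lev x ≠ 0) : (0, (0, 0)) ∈ (profB L proj).J x := by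
  have hne : x.1 ≠ [] := by
    intro h
    apply hx
    simp [wordM_lev, h]
  obtain ⟨e, t, ht⟩ := List.exists_cons_of_ne_nil hne
  refine List.mem_map.mpr ⟨0, ?_, ?_⟩
  · rw [ht]
    simp
  · simp
    rfl

/-- The last departure point lies at the bottom of the reversed profile. -/
lemma profA_zero (hNN : ∀ e : Step d, L (stepVec e) ≤ 1)
    (hproj : ∀ e : Step d, L (stepVec e) ≠ 0 → proj (stepVec e) = 0)
    (x : XW L) (hx : (wordM L).rev.lev x ≠ 0) : (0, (0, 0)) ∈ (profA L proj).J x := by
  obtain ⟨m, hm⟩ := x.2
  have hne : x.1 ≠ [] := by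
    intro h
    apply hx
    show (wordM L).lev x = 0
    simp [wordM_lev, h]
  obtain ⟨t, e, ht⟩ : ∃ t e, x.1 = t ++ [e] := by
    rcases List.eq_nil_or_concat x.1 with h | ⟨t, e, h⟩
    · exact absurd h hne
    · exact ⟨t, e, by simpa using h⟩
  have hend : endP 0 x.1 = stepVec e + endP 0 t := by
    rw [ht, endP_append, endP_eq_add]
    simp
  have hz : endP 0 t ∈ posL 0 x.1 := by
    rw [ht, posL_append, List.mem_append]
    right
    simp
  have h3 := hm.1 _ hz
  have h4 := hm.2
  rw [hend, map_add] at h4
  have h5 := hNN e
  have h6 : L (stepVec e) = 1 := by omega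
  refine List.mem_map.mpr ⟨endP 0 t, List.mem_reverse.mpr hz, ?_⟩
  rw [hend]
  refine Prod.ext ?_ ?_
  · simp only [map_add]
    omega
  · have e1 : endP 0 t - (stepVec e + endP 0 t) = - stepVec e := by abel
    simp only
    rw [e1, map_neg, hproj e (by omega)]
    simp
    rfl

end Strip

end Vale.Agent.Lib.P147
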